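import Vale.Agent.P032.H169.Final
import Vale.Agent.P032.S5.H225.Germ

/-!
# P032: full two-pair points start J-chains

`Full T z` : two-pair point, one of its pairs is carried by exactly one open arc, of length at most
`π/3`, whose two ends are the only points of `S(z)` with the palette of `z`.

`exists_JCh` : if every two-pair point with a point of order at least four on its circle is full,
then such a pair starts a J-chain.
-/

open Set Filter Topology Metric

noncomputable section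

namespace Vale.Agent.P032.Six

variable {k : ℕ} {U : Fin k → Set ℂ} {T : ℂ → Set (Fin k)}

/-- a full two-pair point -/
def Full (T : ℂ → Set (Fin k)) (z : ℂ) : Prop :=
  ∃ (a b c d : Fin k) (α β : ℝ), DPt T z a b c d ∧ β ≠ α ∧ |β - α| ≤ Real.pi / 3 ∧
    T (z + cis α) = T z ∧ T (z + cis β) = T z ∧
    (∀ θ ∈ uIoo α β, T (z + cis θ) = {a, b}) ∧
    (∀ q, dist q z = 1 → T q = {a, b} → ∃ θ ∈ uIoo α β, q = z + cis θ) ∧
    (∀ q, dist q z = 1 → T q = T z → q = z + cis α ∨ q = z + cis β)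

/-- a point of the same palette on the circle about a two-pair point is a two-pair point -/
theorem Irr.dpt_of_eq169 (h : Irr U T) {z v : ℂ} (hz : ∃ a b c d, DPt T z a b c d)
    (hv : dist v z = 1) (hT : T v = T z) : ∃ a b c d, DPt T v a b c d := by
  obtain ⟨a, b, c, d, hz⟩ := hz
  have hzv : dist z v = 1 := by rw [dist_comm]; exact hv
  have key : ∀ x y x' y' : Fin k, T z = {x, y, x', y'} → x ≠ x' → x ≠ y' → y ≠ x' → y ≠ y' →
      x ≠ y → x' ≠ y' → Gm T v z x y x' y' → ∃ a b c d, DPt T v a b c d := by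
    intro x y x' y' hP h1 h2 h3 h4 h5 h6 hG
    have hx : x ∈ Pal U v := h.sub v (by rw [hT, hP]; simp)
    have hy : y ∈ Pal U v := h.sub v (by rw [hT, hP]; simp)
    have hx' : x' ∈ Pal U v := h.sub v (by rw [hT, hP]; simp)
    have hy' : y' ∈ Pal U v := h.sub v (by rw [hT, hP]; simp)
    obtain ⟨q, hq, hqT⟩ := hb_exists hzv (h.hb_exact hzv hG.1 hx hy)
    obtain ⟨q', hq', hqT'⟩ := hb_exists hzv (h.hb_exact hzv hG.2 hx' hy')
    refine ⟨x, y, x', y', by rw [hT, hP], h1, h2, h3, h4, h5, h6,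
      ⟨q, h.arc_of_eq h5 (by rw [hT, hP]; simp) (by rw [hT, hP]; simp) hq hqT⟩,
      ⟨q', h.arc_of_eq h6 (by rw [hT, hP]; simp) (by rw [hT, hP]; simp) hq' hqT'⟩⟩
  have hp := hz.pal
  rcases h.germ_branch hz hzv with hG | hG | hG | hG
  · refine key a c b d ?_ hz.ab hz.ad hz.bc.symm hz.cd hz.ac hz.bd hG
    rw [hp]; ext x; simp only [mem_insert_iff, mem_singleton_iff]; tauto
  · refine key a d b c ?_ hz.ab hz.ac hz.bd.symm hz.cd.symm hz.ad hz.bc hG
    rw [hp]; ext x; simp only [mem_insert_iff, mem_singleton_iff]; tauto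
  · refine key b c a d ?_ hz.ab.symm hz.bd hz.ac.symm hz.cd hz.bc hz.ad hG
    rw [hp]; ext x; simp only [mem_insert_iff, mem_singleton_iff]; tauto
  · refine key b d a c ?_ hz.ab.symm hz.bc hz.ad.symm hz.cd.symm hz.bd hz.ac hG
    rw [hp]; ext x; simp only [mem_insert_iff, mem_singleton_iff]; tauto

variable {y : ℂ}

/-- one step of a chain: from `x` around `y` by the angle `δ` -/
structure Nxt (T : ℂ → Set (Fin k)) (P : Set (Fin k)) (x y : ℂ) (δ : ℝ) : Prop where
  ne : δ ≠ 0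
  le : |δ| ≤ Real.pi / 3
  pal : T (y + cis δ * (x - y)) = T y
  arc : ∀ t ∈ uIoo 0 δ, T (y + cis t * (x - y)) = P
  only : ∀ q, dist q y = 1 → T q = P → ∃ t ∈ uIoo 0 δ, q = y + cis t * (x - y)

theorem Full.next (hy : Full T y) : ∃ P : Set (Fin k),
    (∃ a b c d, P = {a, b} ∧ DPt T y a b c d) ∧
    ∀ x, dist x y = 1 → T x = T y → ∃ δ, Nxt T P x y δ := by
  obtain ⟨a, b, c, d, α, β, hD, hne, hle, hα, hβ, harc, honly, hends⟩ := hy
  refine ⟨{a, b}, ⟨a, b, c, d, rfl, hD⟩, fun x hx hxT => ?_⟩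
  have key : ∀ α β : ℝ, β ≠ α → |β - α| ≤ Real.pi / 3 → T (y + cis β) = T y →
      (∀ θ ∈ uIoo α β, T (y + cis θ) = {a, b}) →
      (∀ q, dist q y = 1 → T q = {a, b} → ∃ θ ∈ uIoo α β, q = y + cis θ) → x = y + cis α →
      ∃ δ, Nxt T {a, b} x y δ := by
    intro α β hne hle hβ harc honly hxα
    have e1 : ∀ t : ℝ, y + cis t * (x - y) = y + cis (α + t) := by
      intro t
      rw [hxα, add_sub_cancel_left, cis_add169]; ring
    have e2 : ∀ t : ℝ, t ∈ uIoo 0 (β - α) ↔ α + t ∈ uIoo α β := by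
      intro t
      unfold uIoo
      rcases lt_or_gt_of_ne hne with h1 | h1
      · rw [inf_eq_right.2 (by linarith : β - α ≤ 0), sup_eq_left.2 (by linarith : β - α ≤ 0),
          inf_eq_right.2 h1.le, sup_eq_left.2 h1.le, mem_Ioo, mem_Ioo]
        constructor
        · rintro ⟨h2, h3⟩; constructor <;> linarith
        · rintro ⟨h2, h3⟩; constructor <;> linarith
      · rw [inf_eq_left.2 (by linarith : 0 ≤ β - α), sup_eq_right.2 (by linarith : 0 ≤ β - α),
          inf_eq_left.2 h1.le, sup_eq_right.2 h1.le, mem_Ioo, mem_Ioo]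
        constructor
        · rintro ⟨h2, h3⟩; constructor <;> linarith
        · rintro ⟨h2, h3⟩; constructor <;> linarith
    refine ⟨β - α, sub_ne_zero.2 hne, hle, ?_, fun t ht => ?_, fun q hq hqT => ?_⟩
    · rw [e1, add_sub_cancel]; exact hβ
    · rw [e1]; exact harc _ ((e2 t).1 ht)
    · obtain ⟨θ, hθ, hqθ⟩ := honly q hq hqT
      refine ⟨θ - α, (e2 _).2 (by rwa [add_sub_cancel]), ?_⟩
      rw [e1, add_sub_cancel]; exact hqθ
  rcases hends x hx hxT with h1 | h1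
  · exact key α β hne hle hβ harc honly h1
  · refine key β α hne.symm (by rwa [abs_sub_comm]) hα (fun θ hθ => ?_) (fun q hq hqT => ?_) h1
    · rw [uIoo_comm] at hθ; exact harc θ hθ
    · rw [uIoo_comm]; exact honly q hq hqT

/-- **full points start chains** -/
theorem exists_JCh (h : Irr U T)
    (hF : ∀ z, (∃ a b c d, DPt T z a b c d) → (∃ v, dist v z = 1 ∧ 4 ≤ (T v).ncard) → Full T z)
    {z v : ℂ} (hz : ∃ a b c d, DPt T z a b c d) (hv : dist v z = 1) (hv4 : 4 ≤ (T v).ncard) :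
    ∃ (V : ℕ → ℂ) (ρ : ℕ → ℝ) (S : Set (Fin k)) (C : ℕ → Set (Fin k)),
      V 0 = z ∧ JCh T V ρ S C := by
  classical
  -- the chosen pair
  have hP : ∀ y, ∃ P : Set (Fin k), Full T y → (∃ a b c d, P = {a, b} ∧ DPt T y a b c d) ∧
      ∀ x, dist x y = 1 → T x = T y → ∃ δ, Nxt T P x y δ := by
    intro y
    by_cases hy : Full T y
    · obtain ⟨P, h1, h2⟩ := hy.next
      exact ⟨P, fun _ => ⟨h1, h2⟩⟩
    · exact ⟨∅, fun h1 => absurd h1 hy⟩
  choose P hP using hP
  have card4 : ∀ {z : ℂ}, (∃ a b c d, DPt T z a b c d) → (T z).ncard = 4 := by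
    rintro z ⟨a, b, c, d, hD⟩
    rw [hD.pal, Set.ncard_insert_of_notMem, Set.ncard_insert_of_notMem, Set.ncard_pair hD.cd]
    · simp [hD.bc, hD.bd]
    · simp [hD.ab, hD.ac, hD.ad]
  -- good pairs
  let G : ℂ × ℂ → Prop := fun s => dist s.1 s.2 = 1 ∧ T s.1 = T s.2 ∧
    (∃ a b c d, DPt T s.1 a b c d) ∧ ∃ a b c d, DPt T s.2 a b c d
  have hfull : ∀ s, G s → Full T s.2 := by
    rintro ⟨x, y⟩ ⟨h1, h2, h3, h4⟩
    exact hF y h4 ⟨x, h1, (card4 h3).ge⟩
  have hstep : ∀ s : {s // G s}, ∃ δ : ℝ, Nxt T (P s.1.2) s.1.1 s.1.2 δ ∧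
      G (s.1.2, s.1.2 + cis δ * (s.1.1 - s.1.2)) := by
    rintro ⟨⟨x, y⟩, hs⟩
    obtain ⟨δ, hδ⟩ := (hP y (hfull _ hs)).2 x hs.1 hs.2.1
    refine ⟨δ, hδ, ?_, hδ.pal.symm, hs.2.2.2, ?_⟩
    · show dist y (y + cis δ * (x - y)) = 1
      rw [dist_comm, dist_eq_norm, add_sub_cancel_left, norm_mul, norm_cis, one_mul,
        ← dist_eq_norm]
      exact hs.1
    · refine h.dpt_of_eq169 hs.2.2.2 ?_ hδ.pal
      show dist (y + cis δ * (x - y)) y = 1
      rw [dist_eq_norm, add_sub_cancel_left, norm_mul, norm_cis, one_mul, ← dist_eq_norm]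
      exact hs.1
  choose δ hδ hG using hstep
  -- the first vertex
  obtain ⟨a, b, c, d, α, β, hD, -, -, hα, -⟩ := hF z hz ⟨v, hv, hv4⟩
  have hα1 : dist (z + cis α) z = 1 := dist_add_cis z α
  have s0 : G (z, z + cis α) :=
    ⟨by rw [dist_comm]; exact hα1, hα.symm, hz, h.dpt_of_eq169 hz hα1 hα⟩
  let s : ℕ → {s // G s} := fun n => Nat.rec ⟨_, s0⟩ (fun _ t => ⟨_, hG t⟩) n
  have hs1 : ∀ n, (s (n + 1)).1.1 = (s n).1.2 := fun n => rfl
  have hs2 : ∀ n, (s (n + 1)).1.2 = (s n).1.2 + cis (δ (s n)) * ((s n).1.1 - (s n).1.2) :=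
    fun n => rfl
  set V : ℕ → ℂ := fun n => (s n).1.1 with hV
  have hV1 : ∀ n, V (n + 1) = (s n).1.2 := fun n => rfl
  have hV2 : ∀ n, V (n + 2) = V (n + 1) + cis (δ (s n)) * (V n - V (n + 1)) := fun n => rfl
  obtain ⟨ρ, hρ0, hρ1⟩ : ∃ ρ : ℕ → ℝ, ρ 0 = α ∧ ∀ n, ρ (n + 1) = ρ n + δ (s n) :=
    ⟨fun n => α + ∑ i ∈ Finset.range n, δ (s i), by simp, fun n => by
      simp only [Finset.sum_range_succ]; ring⟩
  have edge : ∀ n, V (n + 1) = V n + (-1) ^ n * cis (ρ n) := by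
    intro n
    induction n with
    | zero =>
      rw [hρ0, pow_zero, one_mul]
      rfl
    | succ n ih =>
      have h1 := hV2 n
      have h2 : V n - V (n + 1) = -((-1) ^ n * cis (ρ n)) := by rw [ih]; ring
      rw [show n + 1 + 1 = n + 2 by ring, h1, h2, hρ1, cis_add169, pow_succ]
      ring
  have hrods : Rods V ρ := by
    refine ⟨edge, fun n => ?_, fun n => ?_⟩
    · rw [hρ1, add_sub_cancel_left]; exact (hδ (s n)).le
    · rw [hρ1]
      intro h1
      exact (hδ (s n)).ne (by linarith)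
  have hpt : ∀ n θ, arcPt V n θ = V (n + 1) + cis (θ - ρ n) * (V n - V (n + 1)) := by
    intro n θ
    have h2 : V n - V (n + 1) = -((-1) ^ n * cis (ρ n)) := by rw [edge n]; ring
    have h3 : cis θ = cis (θ - ρ n) * cis (ρ n) := by
      rw [← cis_add169, sub_add_cancel]
    rw [arcPt, h2, h3, pow_succ]; ring
  have hio : ∀ n θ, θ ∈ uIoo (ρ n) (ρ (n + 1)) ↔ θ - ρ n ∈ uIoo 0 (δ (s n)) := by
    intro n θ
    rw [hρ1]
    unfold uIoo
    rcases lt_or_gt_of_ne (hδ (s n)).ne with h1 | h1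
    · rw [inf_eq_right.2 h1.le, sup_eq_left.2 h1.le, inf_eq_right.2 (by linarith),
        sup_eq_left.2 (by linarith), mem_Ioo, mem_Ioo]
      constructor
      · rintro ⟨h2, h3⟩; constructor <;> linarith
      · rintro ⟨h2, h3⟩; constructor <;> linarith
    · rw [inf_eq_left.2 h1.le, sup_eq_right.2 h1.le, inf_eq_left.2 (by linarith),
        sup_eq_right.2 (by linarith), mem_Ioo, mem_Ioo]
      constructor
      · rintro ⟨h2, h3⟩; constructor <;> linarith
      · rintro ⟨h2, h3⟩; constructor <;> linarith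
  have hpal : ∀ n, T (V n) = T (V 0) := by
    intro n
    induction n with
    | zero => rfl
    | succ n ih => exact ((s n).2.2.1).symm.trans ih
  have hfl : ∀ n, Full T (V n) := by
    intro n
    cases n with
    | zero => exact hF z hz ⟨v, hv, hv4⟩
    | succ n => exact hfull _ (s n).2
  refine ⟨V, ρ, T (V 0), fun n => P (V n), rfl, hrods, hpal, fun n => (hP (V n) (hfl n)).1,
    fun n θ hθ => ?_, fun n q hq hqT => ?_, fun i j hij => by simp only [hij]⟩
  · rw [hpt]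
    exact (hδ (s n)).arc _ ((hio n θ).1 hθ)
  · obtain ⟨t, ht, hqt⟩ := (hδ (s n)).only q hq hqT
    refine ⟨ρ n + t, (hio n _).2 (by rwa [add_sub_cancel_left]), ?_⟩
    rw [hpt, add_sub_cancel_left]
    exact hqt

end Vale.Agent.P032.Six
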