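import Vale.Agent.P032.H169.H1
import Vale.Agent.P032.H416.Props2

/-!
# P032: there are no J-chains in the frame `DF` without complementary plain ends (block `ChainB`)

Inputs: all two-pair points are full (`FullP`), parity at all two-pair points (`Par`).

`JCh.good169` : a colour `y` of the point `u` of the parity lemma lies in the pairs of three
consecutive arcs; `chainB : ChainB`.
-/

open Set Filter Topology Metric

noncomputable section

namespace Vale.Agent.P032.Six

/-- the middle point -/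
theorem mid169 {u w c p : ℂ} (h1 : dist u w ≤ 1) (h2 : dist w c = 1) (h3 : dist p c = 1)
    (h4 : u + c = 2 * p) : w = p := by
  have e1 : (u - w) + (w - c) = 2 * (p - c) := by linear_combination h4
  have e2 : ‖(u - w) + (w - c)‖ = 2 := by
    rw [e1, norm_mul, ← dist_eq_norm p c, h3, mul_one]; norm_num
  have e3 := parallelogram_law_with_norm ℝ (u - w) (w - c)
  rw [dist_eq_norm] at h1 h2
  rw [e2, h2] at e3
  have e4 := norm_nonneg (u - w)
  have e5 := norm_nonneg (u - w - (w - c))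
  have e6 : ‖u - w - (w - c)‖ = 0 := by nlinarith
  have e7 : u - w - (w - c) = 0 := norm_eq_zero.1 e6
  have e8 : 2 * w = 2 * p := by linear_combination h4 - e7
  exact mul_left_cancel₀ two_ne_zero e8

variable {k : ℕ} {U : Fin k → Set ℂ} {T : ℂ → Set (Fin k)}

namespace JCh

variable {V : ℕ → ℂ} {ρ : ℕ → ℝ} {S : Set (Fin k)} {C : ℕ → Set (Fin k)}

/-- the two neighbours are different -/
theorem ends_ne169 (J : JCh T V ρ S C) (j : ℕ) : V j ≠ V (j + 2) := by
  intro h1
  have h2 := J.rods.edge j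
  have h3 := J.rods.edge (j + 1)
  have h4 : (-1 : ℂ) ^ j * (cis (ρ j) - cis (ρ (j + 1))) = 0 := by
    rw [h1] at h2
    rw [h2, pow_succ] at h3
    linear_combination -h3
  have h5 : cis (ρ j) = cis (ρ (j + 1)) := by
    rcases mul_eq_zero.1 h4 with h6 | h6
    · exact absurd h6 (pow_ne_zero _ (by norm_num))
    · exact sub_eq_zero.1 h6
  have h6 := J.rods.le j
  have h7 := cis_inj715 h5 (by
    rw [abs_sub_comm]
    linarith [Real.pi_pos])
  exact J.rods.ne j h7.symm

/-- points of order four on the circles are neighbours in the chain -/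
theorem four_end169 (J : JCh T V ρ S C)
    (hF : ∀ z, (∃ a b c d, DPt T z a b c d) →
      Full T z ∧ ∀ q, dist q z = 1 → 4 ≤ (T q).ncard → T q = T z) {j : ℕ} {p : ℂ}
    (hp : dist p (V (j + 1)) = 1) (h4 : 4 ≤ (T p).ncard) : p = V j ∨ p = V (j + 2) := by
  have hD : ∃ a b c d, DPt T (V (j + 1)) a b c d := by
    obtain ⟨a, b, c, d, -, h1⟩ := J.dpt (j + 1)
    exact ⟨a, b, c, d, h1⟩
  obtain ⟨⟨a, b, c, d, α, β, -, -, -, -, -, -, -, hends⟩, hF4⟩ := hF _ hD
  have e1 : dist (V j) (V (j + 1)) = 1 := J.rods.unit j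
  have e2 : dist (V (j + 2)) (V (j + 1)) = 1 := by
    rw [dist_comm]; exact J.rods.unit (j + 1)
  have k1 := hends _ e1 (by rw [J.pal, J.pal])
  have k2 := hends _ e2 (by rw [J.pal, J.pal])
  have k3 := hends p hp (hF4 p hp h4)
  have hne := J.ends_ne169 j
  rcases k1 with k1 | k1 <;> rcases k2 with k2 | k2
  · exact absurd (k1.trans k2.symm) hne
  · rcases k3 with k3 | k3
    · exact Or.inl (k3.trans k1.symm)
    · exact Or.inr (k3.trans k2.symm)
  · rcases k3 with k3 | k3
    · exact Or.inr (k3.trans k2.symm)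
    · exact Or.inl (k3.trans k1.symm)
  · exact absurd (k1.trans k2.symm) hne

/-- **the point of the parity lemma** -/
theorem good169 (h : Irr U T)
    (hmin : ∀ z, 4 ≤ (T z).ncard → ∀ s, s ⊆ T z → s ≠ T z →
      ¬ ∀ᶠ w in 𝓝 z, ∃ i ∈ s, w ∈ U i ∨ (w ∈ XX U ∧ i ∈ Pal U w))
    (h4 : ∀ z, (T z).ncard ≤ 4) (J : JCh T V ρ S C)
    (hF : ∀ z, (∃ a b c d, DPt T z a b c d) →
      Full T z ∧ ∀ q, dist q z = 1 → 4 ≤ (T q).ncard → T q = T z)
    {e f : Fin k} (hef : e ≠ f) (hSe : e ∉ S) (hSf : f ∉ S) (hcov : ∀ i, i = e ∨ i = f ∨ i ∈ S)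
    {i : ℕ} {u : ℂ} {x : Fin k} (hu : dist u (V (i + 2)) ≤ 1) (he : e ∈ T u) (hf : f ∈ T u)
    (hxe : x ≠ e) (hxf : x ≠ f) (hin : InnO T (V (i + 2)) u x)
    (hno : ∀ g, dist g u = 1 → ¬ T g ⊆ {e, f}) :
    ∃ y, y ∈ T u ∧ y ∈ C (i + 1) ∧ y ∈ C (i + 2) ∧ y ∈ C (i + 3) ∧
      (0 < (ρ (i + 1) - ρ i) * (ρ (i + 2) - ρ (i + 1)) → dist u (V (i + 2)) < 1) := by
  have hxu : x ∈ T u := hin.mem h
  obtain ⟨y, hyu, hye, hyf, hy3, hycl⟩ := h.l2_169 hmin he hf hxu hef hxe hxf (h4 u)
    fun hD => (hF u hD).1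
  have hyS : y ∈ S := by
    rcases hcov y with h1 | h1 | h1
    · exact absurd h1 hye
    · exact absurd h1 hyf
    · exact h1
  have hI : InnO T (V (i + 2)) u y := by
    rcases hu.lt_or_eq with h1 | h1
    · exact subset_closure ⟨h1, hyu⟩
    · have h2 : (T u).ncard ≤ 3 := by
        by_contra hcon
        have hD : ∃ a b c d, DPt T (V (i + 2)) a b c d := by
          obtain ⟨a, b, c, d, -, h3⟩ := J.dpt (i + 2)
          exact ⟨a, b, c, d, h3⟩
        have h3 := (hF _ hD).2 u h1 (by omega)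
        rw [J.pal] at h3
        exact hSe (h3 ▸ he)
      rw [hy3 h2]
      exact hin
  obtain ⟨c1, c2, c3, c4, -⟩ := J.common' h hSe he hu hyS hyu hI (by
    intro j hj hyC p hpu hpV hp1 hp2
    by_contra hcon
    have hp3 : (T p).ncard ≤ 3 := by
      by_contra hc
      rcases J.four_end169 hF hpV (by omega) with h1 | h1
      · exact hp1 h1
      · exact hp2 h1
    have hmid : u + V (j + 1) ≠ 2 * p := by
      intro h1
      rcases hj with rfl | rfl | rfl
      · refine hp2 (mid169 hu ?_ hpV h1).symm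
        rw [dist_comm]; exact J.rods.unit (j + 1)
      · have h2 : u - V (i + 1 + 1) = 2 * (p - V (i + 1 + 1)) := by linear_combination h1
        have h3 : dist u (V (i + 1 + 1)) = 2 := by
          rw [dist_eq_norm, h2, norm_mul, ← dist_eq_norm, hpV, mul_one]; norm_num
        have h4 : dist u (V (i + 1 + 1)) ≤ 1 := hu
        linarith
      · refine hp1 (mid169 hu ?_ hpV h1).symm
        exact J.rods.unit (i + 2)
    obtain ⟨k1, k2⟩ := h.l1_169 (z := V (j + 1)) (by rw [J.pal]; exact hcov) he hf hef hyu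
      (by rw [J.pal]; exact hyS) (by rw [J.pal]; exact hSe) (by rw [J.pal]; exact hSf) hp3 hpu hpV
      hmid (fun g hg => hno g hg.1 (by rw [hg.mem])) hcon
    obtain ⟨k3, k4⟩ := hycl p k1
    rcases k2 with k2 | k2
    · exact k3 k2
    · exact k4 k2)
  exact ⟨y, hyu, c1, c2, c3, c4⟩

/-- two consecutive junctions have the same type -/
theorem same_type169 (J : JCh T V ρ S C) (h : Irr U T) {I O : ℕ → Fin k} (hS : JSd U V ρ C I O)
    {i : ℕ} {y : Fin k} (c1 : y ∈ C (i + 1)) (c2 : y ∈ C (i + 2)) (c3 : y ∈ C (i + 3)) :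
    (0 < (ρ (i + 1) - ρ i) * (ρ (i + 2) - ρ (i + 1)) ↔
      0 < (ρ (i + 2) - ρ (i + 1)) * (ρ (i + 3) - ρ (i + 2))) := by
  rw [hS.pair i] at c1
  rw [hS.pair (i + 1)] at c2
  rw [hS.pair (i + 2)] at c3
  constructor
  · intro s1
    by_contra s2
    have s2' : (ρ (i + 1 + 1) - ρ (i + 1)) * (ρ (i + 1 + 2) - ρ (i + 1 + 1)) < 0 :=
      lt_of_le_of_ne (not_lt.1 s2) (J.ori_ne (i + 1))
    obtain ⟨j1, j2⟩ := J.junction_stay h hS s1
    obtain ⟨j3, j4⟩ := J.junction_switch h hS s2'
    have k1 : y = I i := by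
      rcases c1 with h4 | h4
      · exact h4
      · rw [mem_singleton_iff] at h4
        rcases c2 with h5 | h5
        · exact h5.trans j1
        · rw [mem_singleton_iff] at h5
          exact absurd (h5.symm.trans h4) j2
    have k2 : y = O (i + 1) := by
      rcases c3 with h4 | h4
      · rcases c2 with h5 | h5
        · exact absurd (h4.symm.trans h5) j4
        · exact h5
      · rw [mem_singleton_iff] at h4
        exact h4.trans j3
    exact hS.ne (i + 1) (j1.trans (k1.symm.trans k2))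
  · intro s1
    by_contra s2
    have s2' : (ρ (i + 1) - ρ i) * (ρ (i + 2) - ρ (i + 1)) < 0 :=
      lt_of_le_of_ne (not_lt.1 s2) (J.ori_ne i)
    obtain ⟨j1, j2⟩ := J.junction_stay h hS (i := i + 1) s1
    obtain ⟨j3, j4⟩ := J.junction_switch h hS s2'
    have k1 : y = O i := by
      rcases c1 with h4 | h4
      · rcases c2 with h5 | h5
        · exact absurd (h5.symm.trans h4) j4
        · rw [mem_singleton_iff] at h5
          exact h5.trans j3
      · exact h4
    have k2 : y = I (i + 1) := by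
      rcases c3 with h4 | h4
      · exact h4.trans j1
      · rcases c2 with h5 | h5
        · exact h5
        · rw [mem_singleton_iff] at h4 h5
          exact absurd (h4.symm.trans h5) j2
    exact hS.ne (i + 1) (k2.symm.trans (k1.trans j3.symm))

/-- **no J-chains** -/
theorem false169 (J : JCh T V ρ S C) (h : Irr U T)
    (hmin : ∀ z, 4 ≤ (T z).ncard → ∀ s, s ⊆ T z → s ≠ T z →
      ¬ ∀ᶠ w in 𝓝 z, ∃ i ∈ s, w ∈ U i ∨ (w ∈ XX U ∧ i ∈ Pal U w))
    (h4 : ∀ z, (T z).ncard ≤ 4)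
    (hF : ∀ z, (∃ a b c d, DPt T z a b c d) →
      Full T z ∧ ∀ q, dist q z = 1 → 4 ≤ (T q).ncard → T q = T z)
    {e f : Fin k} (hef : e ≠ f) (hSe : e ∉ S) (hSf : f ∉ S) (hcov : ∀ i, i = e ∨ i = f ∨ i ∈ S)
    (hE : ∀ R : ℝ, (range V ∩ closedBall 0 R).Finite)
    (hPar : ∀ i, Par T (V (i + 2)) e f) : False := by
  obtain ⟨I, O, hIO⟩ := J.sides h
  have hS : JSd U V ρ C I O := ⟨fun i => (hIO i).1, fun i => (hIO i).2.1, fun i => (hIO i).2.2⟩
  -- points with `e`, `f` on the circles have three colours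
  have hO : ∀ i u, dist u (V (i + 2)) = 1 → e ∈ T u → f ∈ T u → (T u).ncard ≤ 3 := by
    intro i u hu he _
    by_contra hcon
    have hD : ∃ a b c d, DPt T (V (i + 2)) a b c d := by
      obtain ⟨a, b, c, d, -, h3⟩ := J.dpt (i + 2)
      exact ⟨a, b, c, d, h3⟩
    have h3 := (hF _ hD).2 u hu (by omega)
    rw [J.pal] at h3
    exact hSe (h3 ▸ he)
  have hty : ∀ i, (0 < (ρ (i + 1) - ρ i) * (ρ (i + 2) - ρ (i + 1)) ↔
      0 < (ρ (i + 2) - ρ (i + 1)) * (ρ (i + 3) - ρ (i + 2))) := by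
    intro i
    obtain ⟨u, x, hu, he, hf, hxe, hxf, hin, hno⟩ := h.par715 (hPar i) (hO i) h.closed h.ne
      (fun q _ => rfl) (fun w hw => hw) fun w hw => hw
    obtain ⟨y, -, c1, c2, c3, -⟩ := J.good169 h hmin h4 hF hef hSe hSf hcov hu he hf hxe hxf hin hno
    exact J.same_type169 h hS c1 c2 c3
  by_cases h0 : 0 < (ρ (0 + 1) - ρ 0) * (ρ (0 + 2) - ρ (0 + 1))
  · -- constant orientation
    have hst : ∀ i, 0 < (ρ (i + 1) - ρ i) * (ρ (i + 2) - ρ (i + 1)) := by
      intro i
      induction i with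
      | zero => exact h0
      | succ i ih => exact (hty i).1 ih
    have hI : ∀ i, I i = I 0 := by
      intro i
      induction i with
      | zero => rfl
      | succ i ih => exact (J.junction_stay h hS (hst i)).1.trans ih
    have hIC : ∀ i, I 0 ∈ C (i + 1) := by
      intro i
      rw [hS.pair i, ← hI i]; simp
    have hfin := J.finite h hIC hE
    have hW : (evV V).Finite := hfin.subset (by rintro w ⟨j, -, rfl⟩; exact ⟨j, rfl⟩)
    have haS : I 0 ∈ S := J.C_sub 1 (hIC 0)
    obtain ⟨u, x, hu, he, hf, hxT, hxe, hxf, hin, ⟨w, ⟨j, hj, rfl⟩, hw⟩, hno⟩ :=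
      h.par_fill715 (a := I 0) (z := V 2) (W := evV V) (Z := odΓ V ρ) hW ⟨2, by decide, rfl⟩
        (hPar 0) (hO 0) (fun z hz hz1 => J.stay_bd h hst hIC hfin hz hz1)
        (fun y hy => ⟨J.odΓ_mem h hIC hy, fun h1 => hSe (J.odΓ_sub hy h1)⟩)
        (fun h1 => hSe (h1 ▸ haS)) (fun h1 => hSf (h1 ▸ haS))
    obtain ⟨y, hyT, c1, c2, c3, c4⟩ :=
      J.good169 h hmin h4 hF hef hSe hSf hcov (i := 0) hu he hf hxe hxf hin hno
    rw [hS.pair 0] at c1
    rw [hS.pair 1] at c2
    have hne := (J.junction_stay h hS (hst 0)).2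
    have hx : y = I 0 := by
      rcases c1 with h4 | h4
      · exact h4
      · rw [mem_singleton_iff] at h4
        rcases c2 with h5 | h5
        · exact h5.trans (hI 1)
        · rw [mem_singleton_iff] at h5
          exact absurd (h5.symm.trans h4) hne
    subst hx
    have h5 := h.curve_in169 J.preconn_evΓ (fun w hw => J.evΓ_mem h hIC hw) hyT
      (J.ev_mem_Γ (j := 2) (by decide)) (by rw [dist_comm]; exact c4 (hst 0)) (J.ev_mem_Γ hj)
    rw [dist_comm] at h5
    linarith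
  · -- alternating orientation
    have h0' : (ρ (0 + 1) - ρ 0) * (ρ (0 + 2) - ρ (0 + 1)) < 0 :=
      lt_of_le_of_ne (not_lt.1 h0) (J.ori_ne 0)
    have hsw : ∀ i, (ρ (i + 1) - ρ i) * (ρ (i + 2) - ρ (i + 1)) < 0 := by
      intro i
      induction i with
      | zero => exact h0'
      | succ i ih =>
        refine lt_of_le_of_ne (not_lt.1 fun h1 => ?_) (J.ori_ne (i + 1))
        exact absurd ((hty i).2 h1) (not_lt.2 ih.le)
    have hO' : ∀ i, O i = O 0 := by
      intro i
      induction i with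
      | zero => rfl
      | succ i ih => exact (J.junction_switch h hS (hsw i)).1.trans ih
    exact JCh.switch h J (x := O 0) (fun i => by rw [hS.pair i, ← hO' i]; simp) hE hsw

end JCh

/-- **block `ChainB`** -/
theorem chainB : ChainB := by
  intro U T h _ hF hP V ρ S C J
  obtain ⟨a, b, c, d, -, hD⟩ := J.dpt 0
  have hS4 : S.ncard = 4 := by
    have h1 := h.le4 (V 0)
    have h2 : 4 ≤ (T (V 0)).ncard := by
      rw [hD.pal, Set.ncard_insert_of_notMem (by simp [hD.ab, hD.ac, hD.ad]) (Set.toFinite _),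
        Set.ncard_insert_of_notMem (by simp [hD.bc, hD.bd]) (Set.toFinite _), Set.ncard_pair hD.cd]
    rw [J.pal] at h1 h2
    omega
  have hc2 : Sᶜ.ncard = 2 := by
    have h1 := Set.ncard_add_ncard_compl S
    rw [Nat.card_eq_fintype_card, Fintype.card_fin] at h1
    omega
  obtain ⟨e, f, hef, hSc⟩ := Set.ncard_eq_two.1 hc2
  have hSe : e ∉ S := by
    have : e ∈ Sᶜ := by rw [hSc]; simp
    exact this
  have hSf : f ∉ S := by
    have : f ∈ Sᶜ := by rw [hSc]; simp
    exact this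
  have hDi : ∀ i, ∃ a b c d, DPt T (V i) a b c d := by
    intro i
    obtain ⟨a, b, c, d, -, h1⟩ := J.dpt i
    exact ⟨a, b, c, d, h1⟩
  refine J.false169 h.irr h.mn h.le4 (fun z hz => hF z hz) hef hSe hSf (fun i => ?_) (fun R => ?_)
    fun i => hP _ (hDi _) e f hef (by rw [J.pal]; exact hSe) (by rw [J.pal]; exact hSf)
  · by_cases hi : i ∈ S
    · exact Or.inr (Or.inr hi)
    · have h1 : i ∈ Sᶜ := hi
      rw [hSc] at h1
      rcases h1 with h1 | h1
      · exact Or.inl h1
      · exact Or.inr (Or.inl h1)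
  · refine (h.fin 0 R).subset ?_
    rintro _ ⟨⟨i, rfl⟩, h1⟩
    exact ⟨mem_closedBall.1 h1, hDi i⟩

end Vale.Agent.P032.Six
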