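import Vale.Agent.P032.H169.Rod

/-!
# P032: chains of rods, constant orientation

* `cone169` : a direction of a short arc is a nonnegative combination of the two end directions;
* `rot3_169` : the squared distance `‖cis a - cis b + cis c‖^2`;
* `Rods.stay_pt`.
-/

open Set Filter Topology Metric

noncomputable section

namespace Vale.Agent.P032.Six

theorem cone169 {a b θ : ℝ} (hab : |b - a| ≤ Real.pi / 3) (hne : b ≠ a) (hθ : θ ∈ uIcc a b) :
    ∃ l m : ℝ, 0 ≤ l ∧ 0 ≤ m ∧ cis θ = l * cis a + m * cis b ∧ 1 ≤ l + m ∧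
      (θ ∈ uIoo a b → 0 < l ∧ 0 < m) := by
  have hpi := Real.pi_pos
  have hD : Real.sin (b - a) ≠ 0 := by
    rw [abs_le] at hab
    rcases lt_or_gt_of_ne (sub_ne_zero.2 hne) with h1 | h1
    · exact (Real.sin_neg_of_neg_of_neg_pi_lt h1 (by linarith)).ne
    · exact (Real.sin_pos_of_pos_of_lt_pi h1 (by linarith)).ne'
  have hid : cis θ = (Real.sin (b - θ) / Real.sin (b - a) : ℝ) * cis a +
      (Real.sin (θ - a) / Real.sin (b - a) : ℝ) * cis b := by
    have e1 : Real.sin (b - a) * Real.cos θ = Real.sin (b - θ) * Real.cos a +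
        Real.sin (θ - a) * Real.cos b := by
      rw [Real.sin_sub, Real.sin_sub, Real.sin_sub]; ring
    have e2 : Real.sin (b - a) * Real.sin θ = Real.sin (b - θ) * Real.sin a +
        Real.sin (θ - a) * Real.sin b := by
      rw [Real.sin_sub, Real.sin_sub, Real.sin_sub]; ring
    apply Complex.ext
    · rw [Complex.add_re, Complex.re_ofReal_mul, Complex.re_ofReal_mul, cis_re, cis_re, cis_re,
        div_mul_eq_mul_div, div_mul_eq_mul_div, ← add_div, eq_div_iff hD]
      linarith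
    · rw [Complex.add_im, Complex.im_ofReal_mul, Complex.im_ofReal_mul, cis_im, cis_im, cis_im,
        div_mul_eq_mul_div, div_mul_eq_mul_div, ← add_div, eq_div_iff hD]
      linarith
  have hnn : 0 ≤ Real.sin (b - θ) / Real.sin (b - a) ∧ 0 ≤ Real.sin (θ - a) / Real.sin (b - a) := by
    rw [abs_le] at hab
    rcases lt_or_gt_of_ne hne with h1 | h1
    · rw [uIcc_of_ge h1.le] at hθ
      have h2 : Real.sin (b - a) < 0 := Real.sin_neg_of_neg_of_neg_pi_lt (by linarith) (by linarith)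
      exact ⟨div_nonneg_of_nonpos (Real.sin_nonpos_of_nonpos_of_neg_pi_le (by linarith [hθ.1])
        (by linarith [hθ.2])) h2.le,
        div_nonneg_of_nonpos (Real.sin_nonpos_of_nonpos_of_neg_pi_le (by linarith [hθ.2])
        (by linarith [hθ.1])) h2.le⟩
    · rw [uIcc_of_le h1.le] at hθ
      have h2 : 0 < Real.sin (b - a) := Real.sin_pos_of_pos_of_lt_pi (by linarith) (by linarith)
      exact ⟨div_nonneg (Real.sin_nonneg_of_nonneg_of_le_pi (by linarith [hθ.2])
        (by linarith [hθ.1])) h2.le,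
        div_nonneg (Real.sin_nonneg_of_nonneg_of_le_pi (by linarith [hθ.1])
        (by linarith [hθ.2])) h2.le⟩
  refine ⟨_, _, hnn.1, hnn.2, hid, ?_, ?_⟩
  · have h1 : ‖cis θ‖ ≤ ‖((Real.sin (b - θ) / Real.sin (b - a) : ℝ) : ℂ) * cis a‖ +
        ‖((Real.sin (θ - a) / Real.sin (b - a) : ℝ) : ℂ) * cis b‖ := by
      rw [hid]
      exact norm_add_le _ _
    rw [norm_cis, norm_mul, norm_mul, norm_cis, norm_cis, mul_one, mul_one, Complex.norm_real,
      Complex.norm_real, Real.norm_of_nonneg hnn.1, Real.norm_of_nonneg hnn.2] at h1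
    exact h1
  · intro h3
    rw [abs_le] at hab
    rcases lt_or_gt_of_ne hne with h1 | h1
    · have h4 : b < θ ∧ θ < a := by
        unfold uIoo at h3
        rw [inf_eq_right.2 h1.le, sup_eq_left.2 h1.le] at h3
        exact h3
      have h2 : Real.sin (b - a) < 0 := Real.sin_neg_of_neg_of_neg_pi_lt (by linarith) (by linarith)
      exact ⟨div_pos_of_neg_of_neg (Real.sin_neg_of_neg_of_neg_pi_lt (by linarith [h4.1])
        (by linarith [h4.2])) h2,
        div_pos_of_neg_of_neg (Real.sin_neg_of_neg_of_neg_pi_lt (by linarith [h4.2])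
        (by linarith [h4.1])) h2⟩
    · have h4 : a < θ ∧ θ < b := by
        unfold uIoo at h3
        rw [inf_eq_left.2 h1.le, sup_eq_right.2 h1.le] at h3
        exact h3
      have h2 : 0 < Real.sin (b - a) := Real.sin_pos_of_pos_of_lt_pi (by linarith) (by linarith)
      exact ⟨div_pos (Real.sin_pos_of_pos_of_lt_pi (by linarith [h4.2])
        (by linarith [h4.1])) h2,
        div_pos (Real.sin_pos_of_pos_of_lt_pi (by linarith [h4.1])
        (by linarith [h4.2])) h2⟩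

theorem corner_real169 {y1 y2 a1 a2 b1 b2 l m : ℝ} (hl : 0 ≤ l) (hm : 0 ≤ m)
    (ha : a1 ^ 2 + a2 ^ 2 = 1) (hb : b1 ^ 2 + b2 ^ 2 = 1)
    (he : (l * a1 + m * b1) ^ 2 + (l * a2 + m * b2) ^ 2 = 1)
    (m1 : (y1 + a1) ^ 2 + (y2 + a2) ^ 2 ≤ 1) (m2 : (y1 + b1) ^ 2 + (y2 + b2) ^ 2 ≤ 1)
    (m3 : (y1 - (l * a1 + m * b1)) ^ 2 + (y2 - (l * a2 + m * b2)) ^ 2 ≤ 1) : y1 = 0 ∧ y2 = 0 := by
  have p1 : y1 ^ 2 + y2 ^ 2 + 2 * (y1 * a1 + y2 * a2) ≤ 0 := by linarith
  have p2 : y1 ^ 2 + y2 ^ 2 + 2 * (y1 * b1 + y2 * b2) ≤ 0 := by linarith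
  have p3 : y1 ^ 2 + y2 ^ 2 ≤ 2 * (l * (y1 * a1 + y2 * a2) + m * (y1 * b1 + y2 * b2)) := by
    linarith
  have s0 : 0 ≤ y1 ^ 2 + y2 ^ 2 := by positivity
  have q1 : l * (y1 * a1 + y2 * a2) ≤ 0 := mul_nonpos_of_nonneg_of_nonpos hl (by linarith)
  have q2 : m * (y1 * b1 + y2 * b2) ≤ 0 := mul_nonpos_of_nonneg_of_nonpos hm (by linarith)
  have h0 : y1 ^ 2 + y2 ^ 2 = 0 := by linarith
  constructor
  · exact pow_eq_zero_iff (n := 2) (by norm_num) |>.1 (by linarith [sq_nonneg y1, sq_nonneg y2])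
  · exact pow_eq_zero_iff (n := 2) (by norm_num) |>.1 (by linarith [sq_nonneg y1, sq_nonneg y2])

theorem corner169 {y A B E : ℂ} (hA : ‖A‖ = 1) (hB : ‖B‖ = 1) (hE : ‖E‖ = 1) {l m : ℝ}
    (hl : 0 ≤ l) (hm : 0 ≤ m) (hc : E = l * A + m * B) (n1 : ‖y + A‖ ≤ 1) (n2 : ‖y + B‖ ≤ 1)
    (n3 : ‖y - E‖ ≤ 1) : y = 0 := by
  have key : ∀ {x : ℂ}, ‖x‖ ≤ 1 → x.re ^ 2 + x.im ^ 2 ≤ 1 := by
    intro x hx
    rw [← norm_sq169]
    exact pow_le_one₀ (norm_nonneg x) hx
  have key2 : ∀ {x : ℂ}, ‖x‖ = 1 → x.re ^ 2 + x.im ^ 2 = 1 := by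
    intro x hx
    rw [← norm_sq169, hx, one_pow]
  have r1 := congrArg Complex.re hc
  have r2 := congrArg Complex.im hc
  rw [Complex.add_re, Complex.re_ofReal_mul, Complex.re_ofReal_mul] at r1
  rw [Complex.add_im, Complex.im_ofReal_mul, Complex.im_ofReal_mul] at r2
  have e3 := key2 hE
  rw [r1, r2] at e3
  have m1 := key n1
  have m2 := key n2
  have m3 := key n3
  rw [Complex.add_re, Complex.add_im] at m1 m2
  rw [Complex.sub_re, Complex.sub_im, r1, r2] at m3
  obtain ⟨h1, h2⟩ := corner_real169 hl hm (key2 hA) (key2 hB) e3 m1 m2 m3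
  exact Complex.ext h1 h2

/-- `‖cis a - cis b + cis c‖²` -/
theorem rot3_169 (a b c : ℝ) : ‖cis a - cis b + cis c‖ ^ 2 =
    1 - 8 * (Real.sin ((a - b) / 2) * Real.sin ((b - c) / 2) * Real.cos ((a - c) / 2)) := by
  have e1 : ‖cis a - cis b + cis c‖ ^ 2 =
      3 + 2 * Real.cos (a - c) - 2 * Real.cos (a - b) - 2 * Real.cos (b - c) := by
    rw [norm_sq169]
    simp only [Complex.add_re, Complex.sub_re, Complex.add_im, Complex.sub_im, cis_re, cis_im]
    rw [Real.cos_sub, Real.cos_sub, Real.cos_sub]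
    linear_combination Real.sin_sq_add_cos_sq a + Real.sin_sq_add_cos_sq b +
      Real.sin_sq_add_cos_sq c
  rw [e1]
  set x := (a - b) / 2 with hx
  set y := (b - c) / 2 with hy
  have h1 : (a - c) / 2 = x + y := by rw [hx, hy]; ring
  have h2 : a - c = 2 * (x + y) := by rw [hx, hy]; ring
  have h3 : a - b = 2 * x := by rw [hx]; ring
  have h4 : b - c = 2 * y := by rw [hy]; ring
  rw [h1, h2, h3, h4, Real.cos_two_mul, Real.cos_two_mul, Real.cos_two_mul, Real.cos_add]
  have s1 := Real.sin_sq_add_cos_sq x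
  have s2 := Real.sin_sq_add_cos_sq y
  have s3 : Real.cos x ^ 2 = 1 - Real.sin x ^ 2 := by linarith
  have s4 : Real.cos y ^ 2 = 1 - Real.sin y ^ 2 := by linarith
  ring_nf
  rw [s3, s4]
  ring

/-- sines of half angles have the sign of the angle -/
theorem sin_half169 {x : ℝ} (h : |x| ≤ Real.pi / 3) (hx : x ≠ 0) : 0 < x * Real.sin (x / 2) := by
  have hpi := Real.pi_pos
  rw [abs_le] at h
  rcases lt_or_gt_of_ne hx with h1 | h1
  · exact mul_pos_of_neg_of_neg h1 (Real.sin_neg_of_neg_of_neg_pi_lt (by linarith) (by linarith))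
  · exact mul_pos h1 (Real.sin_pos_of_pos_of_lt_pi (by linarith) (by linarith))

/-- same signs: inside -/
theorem rot3_lt169 {a b c : ℝ} (h1 : |a - b| ≤ Real.pi / 3) (h2 : |b - c| ≤ Real.pi / 3)
    (h3 : 0 < (a - b) * (b - c)) : ‖cis a - cis b + cis c‖ < 1 := by
  have hab : a - b ≠ 0 := fun h => by rw [h, zero_mul] at h3; exact lt_irrefl _ h3
  have hbc : b - c ≠ 0 := fun h => by rw [h, mul_zero] at h3; exact lt_irrefl _ h3
  have s1 := sin_half169 h1 hab
  have s2 := sin_half169 h2 hbc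
  have hc : 0 < Real.cos ((a - c) / 2) := by
    rw [abs_le] at h1 h2
    have hpi := Real.pi_pos
    exact Real.cos_pos_of_mem_Ioo ⟨by linarith, by linarith⟩
  have hs : 0 < Real.sin ((a - b) / 2) * Real.sin ((b - c) / 2) := by
    have h4 := mul_pos s1 s2
    have h5 : (a - b) * Real.sin ((a - b) / 2) * ((b - c) * Real.sin ((b - c) / 2)) =
      ((a - b) * (b - c)) * (Real.sin ((a - b) / 2) * Real.sin ((b - c) / 2)) := by ring
    rw [h5] at h4
    exact (mul_pos_iff_of_pos_left h3).1 h4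
  have e := rot3_169 a b c
  have h6 := mul_pos hs hc
  have h7 := norm_nonneg (cis a - cis b + cis c)
  by_contra hcon
  push Not at hcon
  nlinarith

/-- opposite signs: outside -/
theorem rot3_gt169 {a b c : ℝ} (h1 : |a - b| ≤ Real.pi / 3) (h2 : |b - c| ≤ Real.pi / 3)
    (h3 : (a - b) * (b - c) < 0) : 1 < ‖cis a - cis b + cis c‖ := by
  have hab : a - b ≠ 0 := fun h => by rw [h, zero_mul] at h3; exact lt_irrefl _ h3
  have hbc : b - c ≠ 0 := fun h => by rw [h, mul_zero] at h3; exact lt_irrefl _ h3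
  have s1 := sin_half169 h1 hab
  have s2 := sin_half169 h2 hbc
  have hc : 0 < Real.cos ((a - c) / 2) := by
    rw [abs_le] at h1 h2
    have hpi := Real.pi_pos
    exact Real.cos_pos_of_mem_Ioo ⟨by linarith, by linarith⟩
  have hs : Real.sin ((a - b) / 2) * Real.sin ((b - c) / 2) < 0 := by
    have h4 := mul_pos s1 s2
    have h5 : (a - b) * Real.sin ((a - b) / 2) * ((b - c) * Real.sin ((b - c) / 2)) =
      ((a - b) * (b - c)) * (Real.sin ((a - b) / 2) * Real.sin ((b - c) / 2)) := by ring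
    rw [h5] at h4
    by_contra h6
    push Not at h6
    nlinarith [mul_nonneg (neg_nonneg.2 h3.le) h6]
  have e := rot3_169 a b c
  have h6 := mul_neg_of_neg_of_pos hs hc
  have h7 := norm_nonneg (cis a - cis b + cis c)
  by_contra hcon
  push Not at hcon
  nlinarith

/-- **two-circle inequality**: `s` and `t` on the same side of `r` -/
theorem rot3_ge169 {s t r : ℝ} (h1 : |s - r| ≤ Real.pi / 3) (h2 : |t - r| ≤ Real.pi / 3)
    (h3 : 0 ≤ (s - r) * (t - r)) : 1 ≤ ‖cis s + cis t - cis r‖ := by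
  have e0 : cis s + cis t - cis r = cis s - cis r + cis t := by ring
  rw [e0]
  rcases h3.eq_or_lt with h4 | h4
  · rcases mul_eq_zero.1 h4.symm with h5 | h5
    · have : s = r := by linarith
      rw [this, sub_self, zero_add, norm_cis]
    · have : t = r := by linarith
      rw [this, sub_add_cancel, norm_cis]
  · refine (rot3_gt169 h1 ?_ ?_).le
    · rwa [abs_sub_comm]
    · nlinarith

namespace Rods

variable {V : ℕ → ℂ} {ρ : ℕ → ℝ}

/-- the next arc and the previous vertex -/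
theorem next_vec (h : Rods V ρ) (i : ℕ) (θ : ℝ) :
    arcPt V (i + 1) θ - V i = (-1) ^ i * (cis θ - cis (ρ (i + 1)) + cis (ρ i)) := by
  rw [arcPt, h.edge (i + 1), h.edge i, pow_succ, pow_succ]; ring

theorem dist_next (h : Rods V ρ) (i : ℕ) (θ : ℝ) :
    dist (arcPt V (i + 1) θ) (V i) = ‖cis θ - cis (ρ (i + 1)) + cis (ρ i)‖ := by
  rw [dist_eq_norm, h.next_vec, norm_npow169]

/-- the previous arc and the next vertex -/
theorem dist_prev (h : Rods V ρ) (i : ℕ) (θ : ℝ) :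
    dist (arcPt V i θ) (V (i + 3)) = ‖cis θ - cis (ρ (i + 1)) + cis (ρ (i + 2))‖ := by
  have e : V (i + 3) - arcPt V i θ =
      (-1) ^ i * (cis θ - cis (ρ (i + 1)) + cis (ρ (i + 2))) := by
    rw [arcPt, h.edge (i + 2), h.edge (i + 1), pow_succ, pow_succ]; ring
  rw [dist_comm, dist_eq_norm, e, norm_npow169]

/-- a point of all closed discs about the even vertices which is on one of the circles is on the
curve of the odd vertices -/
theorem stay_pt (h : Rods V ρ) {N : ℕ} (hN : 0 < N) (hper : ∀ i, V (i + 2 * N) = V i)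
    {τ : ℝ} (hτ : ∀ i, 0 < τ * (ρ (i + 1) - ρ i))
    (hΓ : ∀ i j, Odd i → Even j → ∀ θ ∈ uIcc (ρ i) (ρ (i + 1)), dist (arcPt V i θ) (V j) ≤ 1)
    {z : ℂ} (hz : ∀ j, Even j → dist z (V j) ≤ 1) {j : ℕ} (hj : Even j) (hzj : dist z (V j) = 1) :
    ∃ i, Odd i ∧ ∃ θ ∈ uIcc (ρ i) (ρ (i + 1)), z = arcPt V i θ := by
  obtain ⟨φ, hφ⟩ := exists_cis (u := z - V j) (by rw [← dist_eq_norm]; exact hzj)
  obtain ⟨i, θ, hθ, hθφ⟩ := h.stay_cover hN hper hτ φ
  rw [← hθφ] at hφ
  have hn : ‖cis θ‖ = 1 := norm_cis θ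
  rcases Nat.even_or_odd i with hi | hi
  · -- the centre `V (i+1)` is odd
    have a2 : (-1 : ℂ) ^ (i + 1) = -1 := Odd.neg_one_pow hi.add_one
    have a3 : (-1 : ℂ) ^ i = 1 := Even.neg_one_pow hi
    obtain ⟨l, m, hl, hm, hc, -, -⟩ := cone169 (h.le i) (h.ne i) hθ
    have hc1 : V i = V (i + 1) - cis (ρ i) := by
      have := h.edge i; rw [a3, one_mul] at this; rw [this]; ring
    have hc2 : V (i + 2) = V (i + 1) - cis (ρ (i + 1)) := by
      have := h.edge (i + 1); rw [a2] at this; rw [this]; ring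
    have d1 := hz i hi
    have d2 := hz (i + 2) (by rcases hi with ⟨q, rfl⟩; exact ⟨q + 1, by ring⟩)
    have d3 : dist (V (i + 1)) (V j) ≤ 1 := by
      have := hΓ (i + 1) j hi.add_one hj (ρ (i + 1)) left_mem_uIcc
      rwa [h.arc_left] at this
    set y := z - V (i + 1) with hy
    have n1 : ‖y + cis (ρ i)‖ ≤ 1 := by
      rw [hc1, dist_eq_norm] at d1
      rwa [show y + cis (ρ i) = z - (V (i + 1) - cis (ρ i)) by rw [hy]; ring]
    have n2 : ‖y + cis (ρ (i + 1))‖ ≤ 1 := by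
      rw [hc2, dist_eq_norm] at d2
      rwa [show y + cis (ρ (i + 1)) = z - (V (i + 1) - cis (ρ (i + 1))) by rw [hy]; ring]
    have n3 : ‖y - cis θ‖ ≤ 1 := by
      have e : V (i + 1) - V j = -(y - cis θ) := by rw [hy, ← hφ]; ring
      rw [dist_eq_norm, e, norm_neg] at d3
      exact d3
    have hy1 : y = 0 := corner169 (norm_cis _) (norm_cis _) hn hl hm hc n1 n2 n3
    refine ⟨i + 1, hi.add_one, ρ (i + 1), left_mem_uIcc, ?_⟩
    rw [h.arc_left]
    rw [hy] at hy1
    exact sub_eq_zero.1 hy1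
  · -- the centre `V (i+1)` is even
    have a2 : (-1 : ℂ) ^ (i + 1) = 1 := Even.neg_one_pow hi.add_one
    have d1 := hz (i + 1) hi.add_one
    have d2 := hΓ i j hi hj θ hθ
    have e0 : arcPt V i θ = V (i + 1) + cis θ := by rw [arcPt, a2, one_mul]
    rw [e0, dist_eq_norm] at d2
    rw [dist_eq_norm] at d1
    have e1 : z - V (i + 1) = -(V (i + 1) - V j - cis θ) := by rw [← hφ]; ring
    rw [e1, norm_neg] at d1
    have d3 : V (i + 1) - V j - cis θ = -cis θ := by
      refine eq_neg_of_le169 hn d1 ?_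
      rwa [show V (i + 1) - V j - cis θ + 2 * cis θ = V (i + 1) + cis θ - V j by ring]
    refine ⟨i, hi, θ, hθ, ?_⟩
    rw [e0]
    linear_combination hφ - d3

end Rods

end Vale.Agent.P032.Six
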