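import Vale.Agent.P032.S5.H80.Anti
import Vale.Agent.P032.H169.Rod2

/-!
# P032: chains of full two-pair points (J-chains): the interface

`JCh T V ρ S C`: one half of a chain `V 0, V 1, V 2, ...` of two-pair points with the same palette
`S`, unit steps; the open short arc of `S(V (i+1))` from `V i` to `V (i+2)` is exactly the set of
the points of `S(V (i+1))` with palette `C (i+1)`.

Everything is over `Irr U T`.
-/

open Set Filter Topology Metric

noncomputable section

namespace Vale.Agent.P032.Six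

variable {k : ℕ}

/-- a one-sided chain of full two-pair points -/
structure JCh (T : ℂ → Set (Fin k)) (V : ℕ → ℂ) (ρ : ℕ → ℝ) (S : Set (Fin k))
    (C : ℕ → Set (Fin k)) : Prop where
  rods : Rods V ρ
  pal : ∀ i, T (V i) = S
  dpt : ∀ i, ∃ a b c d, C i = {a, b} ∧ DPt T (V i) a b c d
  arc : ∀ i, ∀ θ ∈ uIoo (ρ i) (ρ (i + 1)), T (arcPt V i θ) = C (i + 1)
  only : ∀ i q, dist q (V (i + 1)) = 1 → T q = C (i + 1) →
    ∃ θ ∈ uIoo (ρ i) (ρ (i + 1)), q = arcPt V i θ
  det : ∀ i j, V i = V j → C i = C j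

/-- the colour `x` occurs at `u` from the inside of `S(z)` -/
def InnO (T : ℂ → Set (Fin k)) (z u : ℂ) (x : Fin k) : Prop :=
  u ∈ closure {w | dist w z < 1 ∧ x ∈ T w}

/-- **parity at `z`** (KKM form): every closed cover which agrees with `T` on the circle `S(z)` has
a point `u` of the closed disc with the colours `e`, `f` and a third colour from the inside -/
def Par (T : ℂ → Set (Fin k)) (z : ℂ) (e f : Fin k) : Prop :=
  ∀ T' : ℂ → Set (Fin k), (∀ i, IsClosed {x | i ∈ T' x}) → (∀ x, (T' x).Nonempty) →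
    (∀ q, dist q z = 1 → T' q = T q) →
    ∃ u x, dist u z ≤ 1 ∧ e ∈ T' u ∧ f ∈ T' u ∧ x ≠ e ∧ x ≠ f ∧ InnO T' z u x

/-- **(H1)** the common points of `S(u)` and `S(z)` are limits of points of `S(z)` with
palette in `T z` without `x` -/
def Avd (T : ℂ → Set (Fin k)) (z u : ℂ) (x : Fin k) : Prop :=
  ∀ p, dist p u = 1 → dist p z = 1 → p ∈ closure {q | dist q z = 1 ∧ T q ⊆ T z ∧ x ∉ T q}

end Vale.Agent.P032.Six
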