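import Vale.Agent.P032.H169.Stay
import Vale.Agent.P032.H802.Fill

/-!
# P032: there are no J-chains (assembly)

`JCh.false_of` : from row (E), given as a hypothesis (`CommonStmt`).
-/

open Set Filter Topology Metric

noncomputable section

namespace Vale.Agent.P032.Six

variable {k : ℕ} {U : Fin k → Set ℂ} {T : ℂ → Set (Fin k)}

theorem InnO.mem (h : Irr U T) {z u : ℂ} {x : Fin k} (hx : InnO T z u x) : x ∈ T u := by
  have h1 : u ∈ closure {w | x ∈ T w} := closure_mono (fun w hw => hw.2) hx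
  rw [(h.closed x).closure_eq] at h1
  exact h1

/-- row (E) -/
def CommonStmt (U : Fin k → Set ℂ) (T : ℂ → Set (Fin k)) (V : ℕ → ℂ) (ρ : ℕ → ℝ)
    (S : Set (Fin k)) (C : ℕ → Set (Fin k)) : Prop :=
  ∀ (i : ℕ) (e f : Fin k) (u : ℂ) (x : Fin k), e ∉ S → f ∉ S → dist u (V (i + 2)) ≤ 1 → e ∈ T u →
    f ∈ T u → x ∈ T u → x ∈ S → InnO T (V (i + 2)) u x → Avd T (V (i + 1)) u x →
    Avd T (V (i + 2)) u x → Avd T (V (i + 3)) u x →
    x ∈ C (i + 1) ∧ x ∈ C (i + 2) ∧ x ∈ C (i + 3) ∧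
      (0 < (ρ (i + 1) - ρ i) * (ρ (i + 2) - ρ (i + 1)) → dist u (V (i + 2)) < 1)

namespace JCh

variable {V : ℕ → ℂ} {ρ : ℕ → ℝ} {S : Set (Fin k)} {C : ℕ → Set (Fin k)}

theorem ori_ne (J : JCh T V ρ S C) (i : ℕ) :
    (ρ (i + 1) - ρ i) * (ρ (i + 2) - ρ (i + 1)) ≠ 0 :=
  mul_ne_zero (sub_ne_zero.2 (J.rods.ne i)) (sub_ne_zero.2 (J.rods.ne (i + 1)))

/-- two consecutive junctions have the same type -/
theorem same_type (J : JCh T V ρ S C) (h : Irr U T) {I O : ℕ → Fin k} (hS : JSd U V ρ C I O)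
    {e f : Fin k} (hSe : e ∉ S) (hSf : f ∉ S) (hcov : ∀ i, i = e ∨ i = f ∨ i ∈ S)
    (hPar : ∀ i, Par T (V (i + 2)) e f)
    (hH1 : ∀ i u x, dist u (V (i + 2)) ≤ 1 → e ∈ T u → f ∈ T u → x ∈ T u → x ∈ S →
      InnO T (V (i + 2)) u x →
      Avd T (V (i + 1)) u x ∧ Avd T (V (i + 2)) u x ∧ Avd T (V (i + 3)) u x)
    (hCom : CommonStmt U T V ρ S C) (i : ℕ) :
    (0 < (ρ (i + 1) - ρ i) * (ρ (i + 2) - ρ (i + 1)) ↔
      0 < (ρ (i + 2) - ρ (i + 1)) * (ρ (i + 3) - ρ (i + 2))) := by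
  obtain ⟨u, x, hu, he, hf, hxe, hxf, hin⟩ := hPar i T h.closed h.ne fun q _ => rfl
  have hxT := hin.mem h
  have hxS : x ∈ S := by
    rcases hcov x with h1 | h1 | h1
    · exact absurd h1 hxe
    · exact absurd h1 hxf
    · exact h1
  obtain ⟨h1, h2, h3⟩ := hH1 i u x hu he hf hxT hxS hin
  obtain ⟨c1, c2, c3, -⟩ := hCom i e f u x hSe hSf hu he hf hxT hxS hin h1 h2 h3
  rw [hS.pair i] at c1
  rw [hS.pair (i + 1)] at c2
  rw [hS.pair (i + 2)] at c3
  constructor
  · intro s1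
    by_contra s2
    have s2' : (ρ (i + 1 + 1) - ρ (i + 1)) * (ρ (i + 1 + 2) - ρ (i + 1 + 1)) < 0 :=
      lt_of_le_of_ne (not_lt.1 s2) (J.ori_ne (i + 1))
    obtain ⟨j1, j2⟩ := J.junction_stay h hS s1
    obtain ⟨j3, j4⟩ := J.junction_switch h hS s2'
    have k1 : x = I i := by
      rcases c1 with h4 | h4
      · exact h4
      · rw [mem_singleton_iff] at h4
        rcases c2 with h5 | h5
        · exact h5.trans j1
        · rw [mem_singleton_iff] at h5
          exact absurd (h5.symm.trans h4) j2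
    have k2 : x = O (i + 1) := by
      rcases c3 with h4 | h4
      · rcases c2 with h5 | h5
        · exact absurd (h4.symm.trans h5) j4
        · exact h5
      · rw [mem_singleton_iff] at h4
        exact h4.trans j3
    exact hS.ne (i + 1) (j1.trans (k1.symm.trans k2))
  · intro s1
    by_contra s2
    have s2' : (ρ (i + 1) - ρ i) * (ρ (i + 2) - ρ (i + 1)) < 0 :=
      lt_of_le_of_ne (not_lt.1 s2) (J.ori_ne i)
    obtain ⟨j1, j2⟩ := J.junction_stay h hS (i := i + 1) s1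
    obtain ⟨j3, j4⟩ := J.junction_switch h hS s2'
    have k1 : x = O i := by
      rcases c1 with h4 | h4
      · rcases c2 with h5 | h5
        · exact absurd (h5.symm.trans h4) j4
        · rw [mem_singleton_iff] at h5
          exact h5.trans j3
      · exact h4
    have k2 : x = I (i + 1) := by
      rcases c3 with h4 | h4
      · exact h4.trans j1
      · rcases c2 with h5 | h5
        · exact h5
        · rw [mem_singleton_iff] at h4 h5
          exact absurd (h4.symm.trans h5) j2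
    exact hS.ne (i + 1) (k2.symm.trans (k1.trans j3.symm))

/-- **no J-chains** -/
theorem false_of (J : JCh T V ρ S C) (h : Irr U T) {e f : Fin k} (hSe : e ∉ S) (hSf : f ∉ S)
    (hcov : ∀ i, i = e ∨ i = f ∨ i ∈ S) (hE : ∀ R : ℝ, (range V ∩ closedBall 0 R).Finite)
    (hPar : ∀ i, Par T (V (i + 2)) e f)
    (hH1 : ∀ i u x, dist u (V (i + 2)) ≤ 1 → e ∈ T u → f ∈ T u → x ∈ T u → x ∈ S →
      InnO T (V (i + 2)) u x →
      Avd T (V (i + 1)) u x ∧ Avd T (V (i + 2)) u x ∧ Avd T (V (i + 3)) u x)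
    (hCom : CommonStmt U T V ρ S C) : False := by
  obtain ⟨I, O, hIO⟩ := J.sides h
  have hS : JSd U V ρ C I O := ⟨fun i => (hIO i).1, fun i => (hIO i).2.1, fun i => (hIO i).2.2⟩
  have hty := J.same_type h hS hSe hSf hcov hPar hH1 hCom
  by_cases h0 : 0 < (ρ (0 + 1) - ρ 0) * (ρ (0 + 2) - ρ (0 + 1))
  · -- constant orientation
    have hst : ∀ i, 0 < (ρ (i + 1) - ρ i) * (ρ (i + 2) - ρ (i + 1)) := by
      intro i
      induction i with
      | zero => exact h0
      | succ i ih => exact (hty i).1 ih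
    have hI : ∀ i, I i = I 0 := by
      intro i
      induction i with
      | zero => rfl
      | succ i ih => exact (J.junction_stay h hS (hst i)).1.trans ih
    have hIC : ∀ i, I 0 ∈ C (i + 1) := by
      intro i
      rw [hS.pair i, ← hI i]; simp
    have hfin := J.finite h hIC hE
    have hW : (evV V).Finite := hfin.subset (by rintro w ⟨j, -, rfl⟩; exact ⟨j, rfl⟩)
    have haS : I 0 ∈ S := J.C_sub 1 (hIC 0)
    obtain ⟨u, x, hu, he, hf, hxT, hxe, hxf, hin, w, ⟨j, hj, rfl⟩, hw⟩ :=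
      h.par_fill802 (a := I 0) (z := V 2) (W := evV V) (Z := odΓ V ρ) hW ⟨2, by decide, rfl⟩
        (hPar 0) (fun z hz hz1 => J.stay_bd h hst hIC hfin hz hz1)
        (fun y hy => ⟨J.odΓ_mem h hIC hy, fun h1 => hSe (J.odΓ_sub hy h1)⟩)
        (fun h1 => hSe (h1 ▸ haS)) (fun h1 => hSf (h1 ▸ haS))
    have hxS : x ∈ S := by
      rcases hcov x with h1 | h1 | h1
      · exact absurd h1 hxe
      · exact absurd h1 hxf
      · exact h1
    obtain ⟨h1, h2, h3⟩ := hH1 0 u x hu he hf hxT hxS hin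
    obtain ⟨c1, c2, c3, c4⟩ := hCom 0 e f u x hSe hSf hu he hf hxT hxS hin h1 h2 h3
    rw [hS.pair 0] at c1
    rw [hS.pair 1] at c2
    have hne := (J.junction_stay h hS (hst 0)).2
    have hx : x = I 0 := by
      rcases c1 with h4 | h4
      · exact h4
      · rw [mem_singleton_iff] at h4
        rcases c2 with h5 | h5
        · exact h5.trans (hI 1)
        · rw [mem_singleton_iff] at h5
          exact absurd (h5.symm.trans h4) hne
    subst hx
    have h5 := h.curve_in169 J.preconn_evΓ (fun w hw => J.evΓ_mem h hIC hw) hxT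
      (J.ev_mem_Γ (j := 2) (by decide)) (by rw [dist_comm]; exact c4 (hst 0)) (J.ev_mem_Γ hj)
    rw [dist_comm] at h5
    linarith
  · -- alternating orientation
    have h0' : (ρ (0 + 1) - ρ 0) * (ρ (0 + 2) - ρ (0 + 1)) < 0 :=
      lt_of_le_of_ne (not_lt.1 h0) (J.ori_ne 0)
    have hsw : ∀ i, (ρ (i + 1) - ρ i) * (ρ (i + 2) - ρ (i + 1)) < 0 := by
      intro i
      induction i with
      | zero => exact h0'
      | succ i ih =>
        refine lt_of_le_of_ne (not_lt.1 fun h1 => ?_) (J.ori_ne (i + 1))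
        exact absurd ((hty i).2 h1) (not_lt.2 ih.le)
    have hO : ∀ i, O i = O 0 := by
      intro i
      induction i with
      | zero => rfl
      | succ i ih => exact (J.junction_switch h hS (hsw i)).1.trans ih
    exact JCh.switch h J (x := O 0) (fun i => by rw [hS.pair i, ← hO i]; simp) hE hsw

end JCh

end Vale.Agent.P032.Six
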