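import Vale.Agent.P032.H169.Full
import Vale.Agent.P032.H715.Remov
import Vale.Agent.P032.S5.H360.Degree

/-!
# P032: H1 for the points of the parity lemma

* `Irr.l1_169` (L1): `e, f ∈ T u`, `e, f ∉ T z`, `y ∈ T u ∩ T z`, no exact `ef`-arc on `S(u)`,
  `p` a common point of `S(u)` and `S(z)` with at most three colours which is not a limit of points
  of `S(z)` with palette in `T z \ {y}`; then `|T p| = 3` and exact `{e,y}`- or `{f,y}`-arcs of `S(u)`
  accumulate at `p`.
* `Irr.l2_169` (L2): for some colour `y ≠ e, f` of `u` the conclusion of (L1) is impossible.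
-/

open Set Filter Topology Metric

noncomputable section

namespace Vale.Agent.P032.Six

variable {k : ℕ} {U : Fin k → Set ℂ} {T : ℂ → Set (Fin k)}

/-- a point of `S(u)` with palette in a pair of colours of `u` is in an exact arc -/
theorem Irr.arc_of_sub169 (h : Irr U T) {u q : ℂ} {a b : Fin k} (hab : a ≠ b) (ha : a ∈ T u)
    (hb : b ∈ T u) (hq : dist q u = 1) (hT : T q ⊆ {a, b}) : Arc T u q {a, b} := by
  refine ⟨hq, h.pair_open (Set.ncard_pair hab) ?_ hT⟩
  rintro i (rfl | hi)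
  · exact ha
  · rw [mem_singleton_iff] at hi
    subst hi
    exact hb

/-- on a circle the palette is no single colour of the centre -/
theorem Irr.exists_two169 (h : Irr U T) {z q : ℂ} (hq : dist q z = 1) (hsub : T q ⊆ T z)
    (i : Fin k) : ∃ j ∈ T q, j ≠ i := by
  by_contra hcon
  push Not at hcon
  obtain ⟨j, hj⟩ := h.ne q
  have hji := hcon j hj
  subst hji
  exact h.mx.notMem' (h.mem_of_single fun m hm => hcon m hm) hq (h.sub z (hsub hj))

/-- one half of (L1) -/
theorem Irr.l1_aux169 (h : Irr U T) {z u p : ℂ} {e f y : Fin k}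
    (hcov : ∀ i, i = e ∨ i = f ∨ i ∈ T z) (he : e ∈ T u) (hyu : y ∈ T u) (hyz : y ∈ T z)
    (hez : e ∉ T z) (hfp : f ∉ T p) (hep : e ∈ T p) (hp3 : (T p).ncard ≤ 3) (hpu : dist p u = 1)
    (hpz : dist p z = 1) (huz : u ≠ z) (hmid : u + z ≠ 2 * p)
    (hnot : p ∉ closure {q | dist q z = 1 ∧ T q ⊆ T z ∧ y ∉ T q}) :
    (T p).ncard = 3 ∧ p ∈ closure {g | Arc T u g {e, y}} := by
  have hye : e ≠ y := by rintro rfl; exact hez hyz
  have ezn : ∀ᶠ q in 𝓝[sphere z 1] p, T q ⊆ T p := mem_nhdsWithin_of_mem_nhds (h.nhd p)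
  have eun : ∀ᶠ q in 𝓝[sphere u 1] p, T q ⊆ T p := mem_nhdsWithin_of_mem_nhds (h.nhd p)
  have hnot' : ∀ᶠ q in 𝓝[sphere z 1] p, T q ⊆ T z → y ∈ T q := by
    have h1 : ∀ᶠ q in 𝓝 p, q ∉ {q | dist q z = 1 ∧ T q ⊆ T z ∧ y ∉ T q} := by
      rw [mem_closure_iff_frequently, not_frequently] at hnot
      exact hnot
    filter_upwards [mem_nhdsWithin_of_mem_nhds h1, self_mem_nhdsWithin] with q h2 h3 h4
    by_contra h5
    exact h2 ⟨h3, h4, h5⟩
  -- a point `q` of `S(z)` without `e`
  have hPe : ¬ ∀ᶠ q in 𝓝[sphere z 1] p, e ∈ Pal U q := by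
    intro h2
    rcases h.mx.partner_line hpz h2 hpu (h.sub u he) with h3 | h3
    · exact huz h3
    · exact hmid h3
  rw [Filter.not_eventually] at hPe
  obtain ⟨q, hq1, hq2, hq3, hq4⟩ := (hPe.and_eventually
    (ezn.and (hnot'.and self_mem_nhdsWithin))).exists
  have hqz : T q ⊆ T z := by
    intro i hi
    rcases hcov i with rfl | rfl | h1
    · exact absurd (h.sub q hi) hq1
    · exact absurd (hq2 hi) hfp
    · exact h1
  have hyq := hq3 hqz
  obtain ⟨j, hj, hjy⟩ := h.exists_two169 hq4 hqz y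
  have hjz := hqz hj
  have hje : j ≠ e := by rintro rfl; exact hez hjz
  have hTp : T p = {e, y, j} := by
    symm
    refine Set.eq_of_subset_of_ncard_le ?_ ?_ (Set.toFinite _)
    · rintro i (rfl | rfl | hi)
      · exact hep
      · exact hq2 hyq
      · rw [mem_singleton_iff] at hi; subst hi; exact hq2 hj
    · rw [Set.ncard_insert_of_notMem (by simp [hye, hje.symm]), Set.ncard_pair hjy.symm]
      exact hp3
  refine ⟨?_, ?_⟩
  · rw [hTp, Set.ncard_insert_of_notMem (by simp [hye, hje.symm]), Set.ncard_pair hjy.symm]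
  have hPj : ¬ ∀ᶠ q in 𝓝[sphere u 1] p, j ∈ Pal U q := by
    intro h2
    rcases h.mx.partner_line hpu h2 hpz (h.sub z hjz) with h3 | h3
    · exact huz h3.symm
    · exact hmid (by rw [add_comm]; exact h3)
  rw [Filter.not_eventually] at hPj
  have hfr : ∃ᶠ g in 𝓝[sphere u 1] p, g ∈ {g | Arc T u g {e, y}} := by
    refine (hPj.and_eventually (eun.and self_mem_nhdsWithin)).mono ?_
    rintro g ⟨h1, h2, h3⟩
    refine h.arc_of_sub169 hye he hyu h3 fun i hi => ?_
    have h4 := h2 hi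
    rw [hTp] at h4
    rcases h4 with rfl | rfl | h4
    · exact Or.inl rfl
    · exact Or.inr rfl
    · rw [mem_singleton_iff] at h4
      subst h4
      exact absurd (h.sub g hi) h1
  exact mem_closure_iff_frequently.2 (hfr.filter_mono nhdsWithin_le_nhds)

/-- **(L1)** -/
theorem Irr.l1_169 (h : Irr U T) {z u p : ℂ} {e f y : Fin k}
    (hcov : ∀ i, i = e ∨ i = f ∨ i ∈ T z) (he : e ∈ T u) (hf : f ∈ T u) (hef : e ≠ f)
    (hyu : y ∈ T u) (hyz : y ∈ T z) (hez : e ∉ T z) (hfz : f ∉ T z) (hp3 : (T p).ncard ≤ 3)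
    (hpu : dist p u = 1) (hpz : dist p z = 1) (hmid : u + z ≠ 2 * p)
    (hno : ∀ g, ¬ Arc T u g {e, f})
    (hnot : p ∉ closure {q | dist q z = 1 ∧ T q ⊆ T z ∧ y ∉ T q}) :
    (T p).ncard = 3 ∧
      (p ∈ closure {g | Arc T u g {e, y}} ∨ p ∈ closure {g | Arc T u g {f, y}}) := by
  have huz : u ≠ z := by rintro rfl; exact hez he
  by_cases hep : e ∈ T p
  · by_cases hfp : f ∈ T p
    · -- both: an exact `ef`-arc
      exfalso
      by_cases hi : ∃ i ∈ T p, i ≠ e ∧ i ≠ f
      · obtain ⟨i, hi, hie, hif⟩ := hi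
        have hiz : i ∈ T z := by
          rcases hcov i with h1 | h1 | h1
          · exact absurd h1 hie
          · exact absurd h1 hif
          · exact h1
        have hTp : T p = {e, f, i} := by
          symm
          refine Set.eq_of_subset_of_ncard_le ?_ ?_ (Set.toFinite _)
          · rintro m (rfl | rfl | hm)
            · exact hep
            · exact hfp
            · rw [mem_singleton_iff] at hm; subst hm; exact hi
          · rw [Set.ncard_insert_of_notMem (by simp [hef, hie.symm]), Set.ncard_pair hif.symm]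
            exact hp3
        have hP : ¬ ∀ᶠ q in 𝓝[sphere u 1] p, i ∈ Pal U q := by
          intro h2
          rcases h.mx.partner_line hpu h2 hpz (h.sub z hiz) with h3 | h3
          · exact huz h3.symm
          · exact hmid (by rw [add_comm]; exact h3)
        rw [Filter.not_eventually] at hP
        have eun : ∀ᶠ q in 𝓝[sphere u 1] p, T q ⊆ T p := mem_nhdsWithin_of_mem_nhds (h.nhd p)
        obtain ⟨g, h1, h2, h3⟩ := (hP.and_eventually (eun.and self_mem_nhdsWithin)).exists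
        refine hno g (h.arc_of_sub169 hef he hf h3 fun m hm => ?_)
        have h4 := h2 hm
        rw [hTp] at h4
        rcases h4 with rfl | rfl | h4
        · exact Or.inl rfl
        · exact Or.inr rfl
        · rw [mem_singleton_iff] at h4
          subst h4
          exact absurd (h.sub g hm) h1
      · push Not at hi
        refine hno p (h.arc_of_sub169 hef he hf hpu fun m hm => ?_)
        by_cases h1 : m = e
        · exact Or.inl h1
        · exact Or.inr (hi m hm h1)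
    · obtain ⟨h1, h2⟩ := h.l1_aux169 hcov he hyu hyz hez hfp hep hp3 hpu hpz huz hmid hnot
      exact ⟨h1, Or.inl h2⟩
  · by_cases hfp : f ∈ T p
    · have hcov' : ∀ i, i = f ∨ i = e ∨ i ∈ T z := fun i => by
        rcases hcov i with h1 | h1 | h1
        exacts [Or.inr (Or.inl h1), Or.inl h1, Or.inr (Or.inr h1)]
      obtain ⟨h1, h2⟩ := h.l1_aux169 hcov' hf hyu hyz hfz hep hfp hp3 hpu hpz huz hmid hnot
      exact ⟨h1, Or.inr h2⟩
    · -- none: `T p ⊆ T z`
      exfalso
      have hpz' : T p ⊆ T z := by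
        intro i hi
        rcases hcov i with rfl | rfl | h1
        · exact absurd hi hep
        · exact absurd hi hfp
        · exact h1
      have h1 : ∀ᶠ q in 𝓝[sphere z 1] p, y ∈ Pal U q := by
        have h2 : ∀ᶠ q in 𝓝 p, q ∉ {q | dist q z = 1 ∧ T q ⊆ T z ∧ y ∉ T q} := by
          rw [mem_closure_iff_frequently, not_frequently] at hnot
          exact hnot
        filter_upwards [mem_nhdsWithin_of_mem_nhds h2, self_mem_nhdsWithin,
          mem_nhdsWithin_of_mem_nhds (h.nhd p)] with q h3 h4 h5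
        by_contra h6
        exact h3 ⟨h4, h5.trans hpz', fun h7 => h6 (h.sub q h7)⟩
      rcases h.mx.partner_line hpz h1 hpu (h.sub u hyu) with h3 | h3
      · exact huz h3
      · exact hmid h3

/-- exact arcs of a pair in a palette of at most three colours do not exist -/
theorem Irr.no_arc_three169 (h : Irr U T) {u g : ℂ} {a b : Fin k} (hab : a ≠ b) (ha : a ∈ T u)
    (hb : b ∈ T u) (h3 : (T u).ncard ≤ 3) : ¬ Arc T u g {a, b} := by
  intro hg
  have hu : u ∈ XX U := by
    refine h.mem_XX (x := u) (y := g) (i := a) ?_ ha (h.sub g ?_)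
    · rw [dist_comm]; exact hg.1
    · rw [hg.mem]; simp
  have h1 := h.gap_two hu hg.1 (P := {a, b}) (hg.2.mono fun q hq => by rw [← hq]; exact h.sub q)
  have h2 : (T u \ {a, b}).ncard + ({a, b} : Set (Fin k)).ncard = (T u).ncard :=
    Set.ncard_sdiff_add_ncard_of_subset (by
      rintro i (rfl | hi)
      · exact ha
      · rw [mem_singleton_iff] at hi; subst hi; exact hb) (Set.toFinite _)
  rw [Set.ncard_pair hab] at h2
  omega

/-- two exact pairs in a palette of four colours are equal or disjoint -/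
theorem Irr.arcs_disj169 (h : Irr U T)
    (hmin : ∀ z, 4 ≤ (T z).ncard → ∀ s, s ⊆ T z → s ≠ T z →
      ¬ ∀ᶠ w in 𝓝 z, ∃ i ∈ s, w ∈ U i ∨ (w ∈ XX U ∧ i ∈ Pal U w))
    {u g g' : ℂ} {P Q : Set (Fin k)} (h4 : (T u).ncard = 4) (hP : P ⊆ T u) (hQ : Q ⊆ T u)
    (hP2 : P.ncard = 2) (hQ2 : Q.ncard = 2) (hg : Arc T u g P) (hg' : Arc T u g' Q) :
    P = Q ∨ Disjoint P Q := by
  have h1 := h.pairs_disjoint hmin h4 hg.1 hg'.1 (by rw [hg.mem]; exact hP)
    (by rw [hg'.mem]; exact hQ) (by rw [hg.mem]; exact hP2) (by rw [hg'.mem]; exact hQ2)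
  rwa [hg.mem, hg'.mem] at h1

/-- points of order three are not in the closure of a full arc -/
theorem full_closure169 {u p : ℂ} {a b : Fin k} {α β : ℝ} (hα : T (u + cis α) = T u)
    (hβ : T (u + cis β) = T u) (harc : ∀ θ ∈ uIoo α β, T (u + cis θ) = {a, b})
    (honly : ∀ q, dist q u = 1 → T q = {a, b} → ∃ θ ∈ uIoo α β, q = u + cis θ)
    (h4 : (T u).ncard = 4) (hab : a ≠ b) (hp3 : (T p).ncard = 3) :
    p ∉ closure {g | Arc T u g {a, b}} := by
  intro hp
  have h1 : {g | Arc T u g {a, b}} ⊆ (fun θ => u + cis θ) '' uIcc α β := by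
    intro g hg
    obtain ⟨θ, hθ, rfl⟩ := honly g hg.1 hg.mem
    exact ⟨θ, uIoo_subset_uIcc_self hθ, rfl⟩
  have h2 : IsClosed ((fun θ => u + cis θ) '' uIcc α β) :=
    (isCompact_uIcc.image (continuous_const.add continuous_cis)).isClosed
  obtain ⟨θ, hθ, hθp⟩ := closure_minimal h1 h2 hp
  simp only at hθp
  by_cases hαθ : θ = α
  · rw [← hθp, hαθ, hα, h4] at hp3
    omega
  by_cases hβθ : θ = β
  · rw [← hθp, hβθ, hβ, h4] at hp3
    omega
  have h3 : θ ∈ uIoo α β := by
    rw [uIcc, mem_Icc] at hθ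
    rw [uIoo, mem_Ioo]
    refine ⟨lt_of_le_of_ne hθ.1 ?_, lt_of_le_of_ne hθ.2 ?_⟩
    · intro h5
      rcases le_total α β with h6 | h6
      · rw [inf_eq_left.2 h6] at h5; exact hαθ h5.symm
      · rw [inf_eq_right.2 h6] at h5; exact hβθ h5.symm
    · intro h5
      rcases le_total α β with h6 | h6
      · rw [sup_eq_right.2 h6] at h5; exact hβθ h5
      · rw [sup_eq_left.2 h6] at h5; exact hαθ h5
  rw [← hθp, harc θ h3, Set.ncard_pair hab] at hp3
  omega

theorem Irr.l2_aux169 (h : Irr U T)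
    (hmin : ∀ z, 4 ≤ (T z).ncard → ∀ s, s ⊆ T z → s ≠ T z →
      ¬ ∀ᶠ w in 𝓝 z, ∃ i ∈ s, w ∈ U i ∨ (w ∈ XX U ∧ i ∈ Pal U w))
    {u g : ℂ} {e f x x' : Fin k} (hTu : T u = {e, f, x, x'}) (hef : e ≠ f) (hxe : x ≠ e)
    (hxf : x ≠ f) (hxe' : x' ≠ e) (hxf' : x' ≠ f) (hxx : x ≠ x')
    (hFu : (∃ a b c d, DPt T u a b c d) → Full T u) (hg : Arc T u g {e, x}) :
    ∃ y, (y = x ∨ y = x') ∧ ∀ p, (T p).ncard = 3 →
      p ∉ closure {g | Arc T u g {e, y}} ∧ p ∉ closure {g | Arc T u g {f, y}} := by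
  have h4 : (T u).ncard = 4 := by
    rw [hTu, Set.ncard_insert_of_notMem (by simp [hef, hxe.symm, hxe'.symm]),
      Set.ncard_insert_of_notMem (by simp [hxf.symm, hxf'.symm]), Set.ncard_pair hxx]
  have se : e ∈ T u := by rw [hTu]; simp
  have sf : f ∈ T u := by rw [hTu]; simp
  have sx : x ∈ T u := by rw [hTu]; simp
  have sx' : x' ∈ T u := by rw [hTu]; simp
  have sub : ∀ {a b : Fin k}, a ∈ T u → b ∈ T u → ({a, b} : Set (Fin k)) ⊆ T u := by
    rintro a b ha hb i (rfl | hi)
    · exact ha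
    · rw [mem_singleton_iff] at hi; subst hi; exact hb
  have nocl : ∀ {P : Set (Fin k)} {p : ℂ}, (∀ g, ¬ Arc T u g P) → p ∉ closure {g | Arc T u g P} := by
    intro P p hP
    have : {g | Arc T u g P} = ∅ := by ext g; simp [hP g]
    rw [this, closure_empty]
    exact notMem_empty p
  by_cases hg2 : ∃ g', Arc T u g' {f, x'}
  · -- `u` is a two-pair point
    obtain ⟨g', hg'⟩ := hg2
    have hpal : T u = {e, x, f, x'} := by
      rw [hTu]; ext i; simp only [mem_insert_iff, mem_singleton_iff]; tauto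
    have hD : DPt T u e x f x' :=
      ⟨hpal, hef, hxe'.symm, hxf, hxx, hxe.symm, hxf'.symm, ⟨g, hg⟩, ⟨g', hg'⟩⟩
    obtain ⟨a, b, c, d, α, β, hDab, -, -, hα, hβ, harc, honly, -⟩ := hFu ⟨e, x, f, x', hD⟩
    obtain ⟨p0, hp0⟩ := hDab.arc1
    have habs : ({a, b} : Set (Fin k)) ⊆ T u := by
      rw [hDab.pal]
      rintro i (hi | hi)
      · exact Or.inl hi
      · exact Or.inr (Or.inl hi)
    rcases h.arcs_disj169 hmin h4 habs (sub se sx) (Set.ncard_pair hDab.ab)
      (Set.ncard_pair hxe.symm) hp0 hg with h1 | h1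
    · refine ⟨x, Or.inl rfl, fun p hp3 => ⟨?_, nocl fun g'' hg'' => ?_⟩⟩
      · rw [← h1]
        exact full_closure169 hα hβ harc honly h4 hDab.ab hp3
      · rcases h.arcs_disj169 hmin h4 (sub se sx) (sub sf sx) (Set.ncard_pair hxe.symm)
          (Set.ncard_pair hxf.symm) hg hg'' with h2 | h2
        · have : f ∈ ({e, x} : Set (Fin k)) := by rw [h2]; simp
          rcases this with h3 | h3
          · exact hef h3.symm
          · exact hxf h3.symm
        · exact Set.disjoint_left.1 h2 (by simp : x ∈ ({e, x} : Set (Fin k))) (by simp)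
    · have h5 : ({a, b} : Set (Fin k)) = {f, x'} := by
        refine Set.eq_of_subset_of_ncard_le ?_ ?_ (Set.toFinite _)
        · intro i hi
          have h6 := habs hi
          rw [hTu] at h6
          rcases h6 with h6 | h6 | h6 | h6
          · exact absurd (by rw [h6]; simp) (Set.disjoint_left.1 h1 hi)
          · exact Or.inl h6
          · exact absurd (by rw [h6]; simp) (Set.disjoint_left.1 h1 hi)
          · exact Or.inr h6
        · rw [Set.ncard_pair hxf'.symm, Set.ncard_pair hDab.ab]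
      refine ⟨x', Or.inr rfl, fun p hp3 => ⟨nocl fun g'' hg'' => ?_, ?_⟩⟩
      · rcases h.arcs_disj169 hmin h4 (sub se sx) (sub se sx') (Set.ncard_pair hxe.symm)
          (Set.ncard_pair hxe'.symm) hg hg'' with h2 | h2
        · have : x ∈ ({e, x'} : Set (Fin k)) := by rw [← h2]; simp
          rcases this with h3 | h3
          · exact hxe h3
          · exact hxx h3
        · exact Set.disjoint_left.1 h2 (by simp : e ∈ ({e, x} : Set (Fin k))) (by simp)
      · rw [← h5]
        exact full_closure169 hα hβ harc honly h4 hDab.ab hp3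
  · push Not at hg2
    refine ⟨x', Or.inr rfl, fun p hp3 => ⟨nocl fun g'' hg'' => ?_, nocl fun g'' hg'' => hg2 g'' hg''⟩⟩
    rcases h.arcs_disj169 hmin h4 (sub se sx) (sub se sx') (Set.ncard_pair hxe.symm)
      (Set.ncard_pair hxe'.symm) hg hg'' with h2 | h2
    · have : x ∈ ({e, x'} : Set (Fin k)) := by rw [← h2]; simp
      rcases this with h3 | h3
      · exact hxe h3
      · exact hxx h3
    · exact Set.disjoint_left.1 h2 (by simp : e ∈ ({e, x} : Set (Fin k))) (by simp)

/-- **(L2)** -/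
theorem Irr.l2_169 (h : Irr U T)
    (hmin : ∀ z, 4 ≤ (T z).ncard → ∀ s, s ⊆ T z → s ≠ T z →
      ¬ ∀ᶠ w in 𝓝 z, ∃ i ∈ s, w ∈ U i ∨ (w ∈ XX U ∧ i ∈ Pal U w))
    {u : ℂ} {e f x : Fin k} (he : e ∈ T u) (hf : f ∈ T u) (hx : x ∈ T u) (hef : e ≠ f)
    (hxe : x ≠ e) (hxf : x ≠ f) (h4 : (T u).ncard ≤ 4)
    (hFu : (∃ a b c d, DPt T u a b c d) → Full T u) :
    ∃ y ∈ T u, y ≠ e ∧ y ≠ f ∧ ((T u).ncard ≤ 3 → y = x) ∧ ∀ p, (T p).ncard = 3 →
      p ∉ closure {g | Arc T u g {e, y}} ∧ p ∉ closure {g | Arc T u g {f, y}} := by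
  have nocl : ∀ {P : Set (Fin k)} {p : ℂ}, (∀ g, ¬ Arc T u g P) → p ∉ closure {g | Arc T u g P} := by
    intro P p hP
    have : {g | Arc T u g P} = ∅ := by ext g; simp [hP g]
    rw [this, closure_empty]
    exact notMem_empty p
  by_cases h3 : (T u).ncard ≤ 3
  · refine ⟨x, hx, hxe, hxf, fun _ => rfl, fun p _ => ⟨nocl fun g => ?_, nocl fun g => ?_⟩⟩
    · exact h.no_arc_three169 hxe.symm he hx h3
    · exact h.no_arc_three169 hxf.symm hf hx h3
  have h4' : (T u).ncard = 4 := by omega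
  -- the fourth colour
  obtain ⟨x', hx', hxe', hxf', hxx⟩ : ∃ x' ∈ T u, x' ≠ e ∧ x' ≠ f ∧ x ≠ x' := by
    by_contra hcon
    push Not at hcon
    have h5 : T u ⊆ {e, f, x} := by
      intro i hi
      by_cases h6 : i = e
      · exact Or.inl h6
      by_cases h7 : i = f
      · exact Or.inr (Or.inl h7)
      exact Or.inr (Or.inr (hcon i hi h6 h7).symm)
    have h6 := Set.ncard_le_ncard h5 (Set.toFinite _)
    rw [Set.ncard_insert_of_notMem (by simp [hef, hxe.symm]), Set.ncard_pair hxf.symm] at h6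
    omega
  have hTu : T u = {e, f, x, x'} := by
    symm
    refine Set.eq_of_subset_of_ncard_le ?_ ?_ (Set.toFinite _)
    · rintro i (rfl | rfl | rfl | hi)
      · exact he
      · exact hf
      · exact hx
      · rw [mem_singleton_iff] at hi; subst hi; exact hx'
    · rw [Set.ncard_insert_of_notMem (by simp [hef, hxe.symm, hxe'.symm]),
        Set.ncard_insert_of_notMem (by simp [hxf.symm, hxf'.symm]), Set.ncard_pair hxx]
      exact h4
  by_cases hA : ∃ g, Arc T u g {e, x}
  · obtain ⟨g, hg⟩ := hA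
    obtain ⟨y, hy, hyp⟩ := h.l2_aux169 hmin hTu hef hxe hxf hxe' hxf' hxx hFu hg
    rcases hy with rfl | rfl
    · exact ⟨y, hx, hxe, hxf, fun h => absurd h h3, hyp⟩
    · exact ⟨y, hx', hxe', hxf', fun h => absurd h h3, hyp⟩
  by_cases hB : ∃ g, Arc T u g {f, x}
  · obtain ⟨g, hg⟩ := hB
    have hTu' : T u = {f, e, x, x'} := by
      rw [hTu]; ext i; simp only [mem_insert_iff, mem_singleton_iff]; tauto
    obtain ⟨y, hy, hyp⟩ := h.l2_aux169 hmin hTu' hef.symm hxf hxe hxf' hxe' hxx hFu hg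
    rcases hy with rfl | rfl
    · exact ⟨y, hx, hxe, hxf, fun h => absurd h h3, fun p hp => (hyp p hp).symm⟩
    · exact ⟨y, hx', hxe', hxf', fun h => absurd h h3, fun p hp => (hyp p hp).symm⟩
  push Not at hA hB
  exact ⟨x, hx, hxe, hxf, fun _ => rfl, fun p _ => ⟨nocl hA, nocl hB⟩⟩

end Vale.Agent.P032.Six
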