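import Vale.Agent.P032.H169.KQF
import Vale.Agent.P032.H484.RodStay
import Vale.Agent.P032.H484.TileB

/-!
# P032: all-SWITCH chains are impossible, all-STAY chains are odd polygons of constant width

Over `QChain` (`H169/KQF.lean`), `E` = points with four colours, locally finite.

* `QChain.switch_false` : no half chain with a common outer colour.
* `QChain.stay_poly` : common inner colour `g`: the chain is a closed odd polygon, `484`'s `Poly`.
* `QChain.two_or_vertex` : if `T = {g}` in the interior of the tile (see `H169/Pure.lean`), points of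
  the closed unit disc about an interior point of the tile with the colour `g` have at most two
  colours or are vertices of the chain.
-/

open Set Filter Topology Metric

noncomputable section

namespace Vale.Agent.P032.Six

open Vale.Agent.P032.S5.H767 Vale.Agent.P032.H961 Vale.Agent.P032.H484

variable {U : Fin 6 → Set ℂ} {T : ℂ → Set (Fin 6)} {V : ℤ → ℂ} {a b : ℤ → Fin 6}

namespace QChain

theorem ord (Q : QChain T V a b) (j : ℤ) : (T (V j)).ncard = 4 := by
  obtain ⟨m, n, e, f, h1⟩ := Q.qf j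
  exact h1.ord0

theorem dp (Q : QChain T V a b) (j : ℤ) : ∃ a b c d, DPt T (V j) a b c d := by
  obtain ⟨m, n, e, f, h1⟩ := Q.qf j
  exact ⟨_, _, _, _, h1.dpt⟩

/-- **no half chain with a common outer colour** -/
theorem switch_false (h : Irr U T) (Q : QChain T V a b)
    (hE : ∀ (c : ℂ) (R : ℝ), {z | dist z c ≤ R ∧ ∃ a b c' d, DPt T z a b c' d}.Finite)
    (hsw : ∀ i : ℕ, b (i + 1) = b i) : False := by
  obtain ⟨ρ, J⟩ := Q.kch
  have hb : ∀ i : ℕ, b i = b 0 := by
    intro i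
    induction i with
    | zero => rfl
    | succ i ih => push_cast; rw [hsw i, ih]
  refine J.switch h (x := b 0) (fun i => by rw [← hb (i + 1)]; simp) (fun R => ?_) fun i => ?_
  · refine (hE 0 R).subset ?_
    rintro _ ⟨⟨i, rfl⟩, hi⟩
    exact ⟨hi, Q.dp i⟩
  · refine J.turn_out h i (b := b 0) (by rw [← hb (i + 1)]; simp) fun θ hθ => ?_
    obtain ⟨m, n, e, f, h1⟩ := Q.qf (i + 2)
    have hd : dist (arcPt (fun i : ℕ => V i) (i + 1) θ) (V (i + 2)) = 1 := by
      have := Rods.dist_arc (fun i : ℕ => V i) (i + 1) θ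
      push_cast at this
      rw [show (i : ℤ) + 1 + 1 = i + 2 by ring] at this
      exact this
    have hT : T (arcPt (fun i : ℕ => V i) (i + 1) θ) = {a (i + 2), b (i + 2)} := by
      have := J.arc (i + 1) θ hθ
      rw [this]
      push_cast
      rw [show (i : ℤ) + 1 + 1 = i + 2 by ring]
    have h2 := QF.near169 h h1 hd hT
    have h3 : b ((i : ℤ) + 2) = b 0 := by
      have := hb (i + 2)
      push_cast at this
      exact this
    rw [h3] at h2
    filter_upwards [h2] with x hx hx1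
    refine hx.1 ?_
    push_cast at hx1
    exact hx1

/-- a common inner colour: constant -/
theorem const_in (hst : ∀ j, a (j + 1) = a j) (j : ℤ) : a j = a 0 := by
  induction j using Int.induction_on with
  | zero => rfl
  | succ i ih => rw [hst, ih]
  | pred i ih => rw [← ih, ← hst (-(i : ℤ) - 1)]; congr 1; ring

/-- the inner colour on the closed arc -/
theorem col169 (h : Irr U T) {V : ℂ} {a b : Fin 6} {s t : ℝ} (hst : s < t)
    (hT : ∀ u ∈ Ioo s t, T (pt V u) = {a, b}) {g : Fin 6}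
    (hg : g ∈ ({a, b} : Set (Fin 6))) : ∀ u ∈ Icc s t, g ∈ T (pt V u) := by
  have h1 : closure (Ioo s t) ⊆ (fun u : ℝ => pt V u) ⁻¹' {p | g ∈ T p} := by
    refine closure_minimal (fun u hu => ?_) ((h.closed g).preimage (continuous_pt V))
    change g ∈ T (pt V u)
    rw [hT u hu]
    exact hg
  rw [closure_Ioo hst.ne] at h1
  exact fun u hu => h1 hu

/-- the odd period of a half chain with a common inner colour -/
theorem half_period (h : Irr U T) (Q : QChain T V a b)
    (hE : ∀ (c : ℂ) (R : ℝ), {z | dist z c ≤ R ∧ ∃ a b c' d, DPt T z a b c' d}.Finite)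
    (hst : ∀ j, a (j + 1) = a j) :
    ∃ n : ℕ, Odd n ∧ ∀ i : ℕ, V (i + 1 + n) = V (i + 1) := by
  obtain ⟨ρ, J⟩ := Q.kch
  have ha := const_in hst
  have hturn : ∀ i, 0 < (ρ (i + 1) - ρ i) * (ρ (i + 2) - ρ (i + 1)) := by
    intro i
    refine J.turn_in h i (b := a 0) ?_ fun θ hθ => ?_
    · show a 0 ∈ ({a ((i + 1 : ℕ) : ℤ), b ((i + 1 : ℕ) : ℤ)} : Set (Fin 6))
      rw [ha]; simp
    · obtain ⟨m, n, e, f, h1⟩ := Q.qf (i + 2)
      have hd : dist (arcPt (fun i : ℕ => V i) (i + 1) θ) (V (i + 2)) = 1 := by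
        have := Rods.dist_arc (fun i : ℕ => V i) (i + 1) θ
        push_cast at this
        rw [show (i : ℤ) + 1 + 1 = i + 2 by ring] at this
        exact this
      have hT : T (arcPt (fun i : ℕ => V i) (i + 1) θ) = {a (i + 2), b (i + 2)} := by
        have := J.arc (i + 1) θ hθ
        rw [this]
        push_cast
        rw [show (i : ℤ) + 1 + 1 = i + 2 by ring]
      have h2 := QF.near169 h h1 hd hT
      rw [ha] at h2
      filter_upwards [h2] with x hx hx1
      refine hx.2 ?_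
      push_cast at hx1
      exact hx1
  have hτ : ∀ i, 0 < (ρ 1 - ρ 0) * (ρ (i + 1) - ρ i) := by
    intro i
    induction i with
    | zero => exact mul_self_pos.2 (sub_ne_zero.2 (J.rods.ne 0))
    | succ i ih =>
      have h1 := hturn i
      have h3 : 0 < ((ρ 1 - ρ 0) * (ρ (i + 1) - ρ i)) *
          ((ρ (i + 1) - ρ i) * (ρ (i + 2) - ρ (i + 1))) := mul_pos ih h1
      have h4 : ((ρ 1 - ρ 0) * (ρ (i + 1) - ρ i)) *
          ((ρ (i + 1) - ρ i) * (ρ (i + 2) - ρ (i + 1))) =
          (ρ (i + 1) - ρ i) ^ 2 * ((ρ 1 - ρ 0) * (ρ (i + 1 + 1) - ρ (i + 1))) := by ring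
      rw [h4] at h3
      have h5 : 0 < (ρ (i + 1) - ρ i) ^ 2 := by
        have := sub_ne_zero.2 (J.rods.ne i)
        positivity
      exact (mul_pos_iff_of_pos_left h5).1 h3
  obtain ⟨n, hn, hper, -, -⟩ := stay_poly_fin (U := U) (T := T) (g := a 0) J.rods h hτ
    (E := {z | ∃ a b c d, DPt T z a b c d})
    (fun c r => (hE c r).subset (by rintro z ⟨hz, hz'⟩; exact ⟨hz', hz⟩))
    (fun i => Q.dp i) (fun i θ hθ => h.sub _ (J.mem_arc h (x := a 0) (fun i => by
      show a 0 ∈ ({a ((i + 1 : ℕ) : ℤ), b ((i + 1 : ℕ) : ℤ)} : Set (Fin 6))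
      rw [ha]; simp) i θ hθ))
  refine ⟨n, hn, fun i => ?_⟩
  have := (hper i).1
  push_cast at this
  exact this

/-- one step backwards -/
theorem back (Q : QChain T V a b) {p : ℤ} {j : ℤ} (h0 : V (j + p) = V j)
    (h1 : V (j + 1 + p) = V (j + 1)) : V (j - 1 + p) = V (j - 1) := by
  obtain ⟨m, n, e, f, k1⟩ := Q.qf j
  obtain ⟨m', n', e', f', k2⟩ := Q.qf (j + p)
  rw [h0] at k2
  have h2 := (QF0.det169 k1.toQF0 k2.toQF0).2
  rw [show j + p + 1 = j + 1 + p by ring, show j + p - 1 = j - 1 + p by ring, h1] at h2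
  rcases h2 with ⟨-, h2⟩ | ⟨h2, h3⟩
  · exact h2.symm
  · exact absurd h3.symm k1.ne12

/-- **a common inner colour: odd period** -/
theorem period (h : Irr U T) (Q : QChain T V a b)
    (hE : ∀ (c : ℂ) (R : ℝ), {z | dist z c ≤ R ∧ ∃ a b c' d, DPt T z a b c' d}.Finite)
    (hst : ∀ j, a (j + 1) = a j) : ∃ n : ℕ, Odd n ∧ ∀ j : ℤ, V (j + n) = V j := by
  obtain ⟨n, hn, hper⟩ := Q.half_period h hE hst
  refine ⟨n, hn, ?_⟩
  have key : ∀ q : ℕ, V (1 - q + n) = V (1 - q) ∧ V (1 - q + 1 + n) = V (1 - q + 1) := by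
    intro q
    induction q with
    | zero =>
      have h1 := hper 0
      have h2 := hper 1
      push_cast at h1 h2
      norm_num at h1 h2 ⊢
      exact ⟨h1, h2⟩
    | succ q ih =>
      have h1 := Q.back ih.1 ih.2
      push_cast
      rw [show (1 : ℤ) - (q + 1) = 1 - q - 1 by ring, sub_add_cancel]
      exact ⟨h1, ih.1⟩
  intro j
  rcases le_or_gt j 1 with h1 | h1
  · obtain ⟨q, hq⟩ := Int.eq_ofNat_of_zero_le (show 0 ≤ 1 - j by omega)
    have h2 := (key q).1
    have h3 : 1 - (q : ℤ) = j := by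
      have : (1 - j : ℤ) = q := hq
      omega
    rw [h3] at h2
    exact h2
  · obtain ⟨q, hq⟩ := Int.eq_ofNat_of_zero_le (show 0 ≤ j - 1 by omega)
    have h2 := hper q
    have h3 : (q : ℤ) + 1 = j := by
      have : (j - 1 : ℤ) = q := hq
      omega
    rw [h3] at h2
    exact h2

/-- **a common inner colour `g`: the chain is a closed odd polygon with the colour `g` on the
arcs** -/
theorem stay_poly (h : Irr U T) (Q : QChain T V a b)
    (hE : ∀ (c : ℂ) (R : ℝ), {z | dist z c ≤ R ∧ ∃ a b c' d, DPt T z a b c' d}.Finite)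
    (hst : ∀ j, a (j + 1) = a j) : ∃ (n : ℕ) (α β : ℤ → ℝ), Poly U (a 0) n V α β ∧
      ∀ j, ∀ θ ∈ uIcc (α j) (β j), T (V j + cis θ) = {a 0, b j} ∨ V j + cis θ = V (j + 1) ∨
        V j + cis θ = V (j - 1) := by
  obtain ⟨n, hn, hper⟩ := Q.period h hE hst
  have ha := const_in hst
  have hpi := Real.pi_pos
  have hang : ∀ j : ℤ, ∃ α β : ℝ, V j + cis α = V (j - 1) ∧ V j + cis β = V (j + 1) ∧ α ≠ β ∧
      |β - α| < Real.pi ∧ ∀ θ ∈ uIcc α β, a 0 ∈ Pal U (V j + cis θ) ∧
        (T (V j + cis θ) = {a 0, b j} ∨ V j + cis θ = V (j + 1) ∨ V j + cis θ = V (j - 1)) := by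
    intro j
    obtain ⟨m, n, e, f, hq⟩ := Q.qf j
    rw [ha j] at hq
    obtain ⟨s, t, g1, g2, g3, g4, g5⟩ := hq.arc
    have hcol := col169 h g1 g4 (show a 0 ∈ ({a 0, b j} : Set (Fin 6)) by simp)
    have hIcc : ∀ θ, θ ∈ Icc (s * (Real.pi / 3)) (t * (Real.pi / 3)) →
        ∃ u ∈ Icc s t, V j + cis θ = pt (V j) u := by
      intro θ hθ
      refine ⟨θ / (Real.pi / 3), ⟨?_, ?_⟩, ?_⟩
      · rw [le_div_iff₀ (by positivity)]; exact hθ.1
      · rw [div_le_iff₀ (by positivity)]; exact hθ.2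
      · unfold pt
        congr 2
        field_simp
    have hlt : s * (Real.pi / 3) < t * (Real.pi / 3) := mul_lt_mul_of_pos_right g1 (by positivity)
    have hshort : (t * (Real.pi / 3)) - (s * (Real.pi / 3)) < Real.pi := by
      have : (t - s) * (Real.pi / 3) < 1 * (Real.pi / 3) :=
        mul_lt_mul_of_pos_right (by linarith) (by positivity)
      nlinarith
    have hcl : ∀ θ, θ ∈ Icc (s * (Real.pi / 3)) (t * (Real.pi / 3)) → a 0 ∈ Pal U (V j + cis θ) ∧
        (T (V j + cis θ) = {a 0, b j} ∨ V j + cis θ = V (j + 1) ∨ V j + cis θ = V (j - 1)) := by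
      intro θ hθ
      obtain ⟨u, hu, he⟩ := hIcc θ hθ
      refine ⟨by rw [he]; exact h.sub _ (hcol u hu), ?_⟩
      rw [he]
      rcases eq_or_lt_of_le hu.1 with h1 | h1
      · subst h1
        rcases g3 with ⟨g3, g3'⟩ | ⟨g3, g3'⟩
        · exact Or.inr (Or.inr g3'.symm)
        · exact Or.inr (Or.inl g3.symm)
      · rcases eq_or_lt_of_le hu.2 with h2 | h2
        · subst h2
          rcases g3 with ⟨g3, g3'⟩ | ⟨g3, g3'⟩
          · exact Or.inr (Or.inl g3.symm)
          · exact Or.inr (Or.inr g3'.symm)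
        · exact Or.inl (g4 u ⟨h1, h2⟩)
    rcases g3 with ⟨g3, g3'⟩ | ⟨g3, g3'⟩
    · refine ⟨s * (Real.pi / 3), t * (Real.pi / 3), g3'.symm, g3.symm, hlt.ne, ?_, ?_⟩
      · rw [abs_of_pos (by linarith)]; exact hshort
      · rw [uIcc_of_le hlt.le]; exact hcl
    · refine ⟨t * (Real.pi / 3), s * (Real.pi / 3), g3'.symm, g3.symm, hlt.ne', ?_, ?_⟩
      · rw [abs_of_neg (by linarith)]; linarith
      · rw [uIcc_of_ge hlt.le]; exact hcl
  choose α β h1 h2 h3 h4 h5 using hang
  exact ⟨n, α, β, ⟨hn, hper, h1, h2, h3, h4, fun j θ hθ => (h5 j θ hθ).1⟩,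
    fun j θ hθ => (h5 j θ hθ).2⟩

/-- the points of the frontier of the tile have two colours or are vertices -/
theorem frontier_two (h : Irr U T) {g : Fin 6} {n : ℕ} {α β : ℤ → ℝ} (P : Poly U g n V α β)
    (hT : ∀ j, ∀ θ ∈ uIcc (α j) (β j), T (V j + cis θ) = {g, b j} ∨ V j + cis θ = V (j + 1) ∨
        V j + cis θ = V (j - 1)) {u : ℂ} (hu : u ∈ frontier (Tl V)) :
    (∃ j, dist u (V j) = 1 ∧ T u = {g, b j}) ∨ ∃ j, u = V j := by
  obtain ⟨j, hj⟩ := mem_iUnion.1 (P.frontier_sub h hu)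
  obtain ⟨θ, hθ, rfl⟩ := hj
  rcases hT j θ hθ with h1 | h1 | h1
  · exact Or.inl ⟨j, dist_add_cis _ _, h1⟩
  · exact Or.inr ⟨_, h1⟩
  · exact Or.inr ⟨_, h1⟩

/-- **faces with the colour `g` near the tile are at vertices**, if the tile is pure -/
theorem two_or_vertex (h : Irr U T) {g : Fin 6} {n : ℕ} {α β : ℤ → ℝ} (P : Poly U g n V α β)
    (hT : ∀ j, ∀ θ ∈ uIcc (α j) (β j), T (V j + cis θ) = {g, b j} ∨ V j + cis θ = V (j + 1) ∨
        V j + cis θ = V (j - 1)) (hp : ∀ x ∈ interior (Tl V), T x = {g}) {x u : ℂ}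
    (hx : x ∈ interior (Tl V)) (hux : dist u x ≤ 1) (hg : g ∈ T u) :
    (T u).ncard ≤ 2 ∨ ∃ j, u = V j := by
  have h1 := (P.ball_int h hx).2 u hux (h.sub _ hg)
  by_cases hi : u ∈ interior (Tl V)
  · left; rw [hp u hi, Set.ncard_singleton]; norm_num
  · rcases frontier_two h P hT ⟨subset_closure h1, hi⟩ with ⟨j, -, h2⟩ | h2
    · left; rw [h2]; exact (Set.ncard_insert_le _ _).trans (by rw [Set.ncard_singleton])
    · exact Or.inr h2

end QChain

end Vale.Agent.P032.Six
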