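import Vale.Agent.P032.H169.KCh
import Vale.Agent.P032.H961.QF

/-!
# P032: chains of quasi-full points: from `QF` to rods

* `exists_rho169` : the angles of the rods.
* `QF0.det169` : the connecting pair and the set of the two ends are determined by the vertex.
* `KCh.turn_out`, `KCh.turn_in` : a common outer (inner) colour: alternating (equal) turns.
* `QChain T V a b` : bi-infinite chain, `a j` inside, `b j` outside; `QChain.kch` : half chains.
* `QChain.switch` : no half chain with a common outer colour.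
-/

open Set Filter Topology Metric

noncomputable section

namespace Vale.Agent.P032.Six

open Vale.Agent.P032.S5.H767 Vale.Agent.P032.H961

/-- angles of the rods of a zigzag -/
theorem exists_rho169 {W : ℕ → ℂ} {x y : ℕ → ℝ} (hx : ∀ i, W i = pt (W (i + 1)) (x i))
    (hy : ∀ i, W (i + 2) = pt (W (i + 1)) (y i)) (hne : ∀ i, x i ≠ y i)
    (hlt : ∀ i, |y i - x i| ≤ 1) :
    ∃ ρ : ℕ → ℝ, Rods W ρ ∧ (∀ i, ρ (i + 1) - ρ i = (y i - x i) * (Real.pi / 3)) ∧
      ∀ i (s : ℝ), arcPt W i (ρ i + s * (Real.pi / 3)) = pt (W (i + 1)) (x i + s) := by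
  have hpi := Real.pi_pos
  obtain ⟨r, hr⟩ := exists_cis (u := W 1 - W 0) (by
    rw [← dist_eq_norm, dist_comm, hx 0]
    rw [zero_add]
    exact dist_pt _ _)
  obtain ⟨ρ, hρ0, hρs⟩ : ∃ ρ : ℕ → ℝ, ρ 0 = r ∧ ∀ i, ρ (i + 1) = ρ i + (y i - x i) * (Real.pi / 3) :=
    ⟨fun n => Nat.rec r (fun i t => t + (y i - x i) * (Real.pi / 3)) n, rfl, fun i => rfl⟩
  -- the edges
  have hedge : ∀ i, W (i + 1) = W i + (-1) ^ i * cis (ρ i) := by
    intro i
    induction i with
    | zero => rw [hρ0, ← hr]; ring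
    | succ i ih =>
      have e1 : cis (x i * (Real.pi / 3)) = W i - W (i + 1) := by
        have := hx i
        unfold pt at this
        linear_combination -this
      have e2 : cis (y i * (Real.pi / 3)) = W (i + 2) - W (i + 1) := by
        have := hy i
        unfold pt at this
        linear_combination -this
      have e3 : cis (y i * (Real.pi / 3)) =
          cis (x i * (Real.pi / 3)) * cis ((y i - x i) * (Real.pi / 3)) := by
        rw [← cis_add169]; congr 1; ring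
      rw [hρs, cis_add169, pow_succ]
      have e4 : (-1 : ℂ) ^ i * cis (ρ i) = W (i + 1) - W i := by linear_combination -ih
      have e5 : W (i + 1 + 1) = W (i + 2) := rfl
      rw [e5]
      linear_combination -e2 + e3 + cis ((y i - x i) * (Real.pi / 3)) * e1 +
        cis ((y i - x i) * (Real.pi / 3)) * e4
  refine ⟨ρ, ⟨hedge, fun i => ?_, fun i => ?_⟩, fun i => by rw [hρs]; ring, fun i s => ?_⟩
  · rw [hρs, add_sub_cancel_left, abs_mul, abs_of_pos (by positivity : (0 : ℝ) < Real.pi / 3)]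
    have := hlt i
    nlinarith
  · rw [hρs]
    intro h0
    have h1 : (y i - x i) * (Real.pi / 3) = 0 := by linarith
    rcases mul_eq_zero.1 h1 with h2 | h2
    · exact hne i (by linarith)
    · linarith
  · have e1 : cis (x i * (Real.pi / 3)) = W i - W (i + 1) := by
      have := hx i
      unfold pt at this
      linear_combination -this
    have e4 : (-1 : ℂ) ^ i * cis (ρ i) = W (i + 1) - W i := by linear_combination -(hedge i)
    unfold arcPt pt
    rw [show (x i + s) * (Real.pi / 3) = x i * (Real.pi / 3) + s * (Real.pi / 3) by ring,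
      cis_add169, cis_add169, pow_succ]
    linear_combination -(cis (s * (Real.pi / 3))) * e4 - (cis (s * (Real.pi / 3))) * e1

variable {U : Fin 6 → Set ℂ} {T : ℂ → Set (Fin 6)}

/-- points of the circle with close angles are equal only for equal angles mod 6 -/
theorem pt_eq169 {V : ℂ} {s t : ℝ} (h : pt V s = pt V t) : ∃ n : ℤ, s = t + 6 * n := by
  have hpi := Real.pi_pos
  unfold pt at h
  obtain ⟨n, hn⟩ := cis_eq802 (add_left_cancel h)
  refine ⟨n, ?_⟩
  have h1 : (s - (t + 6 * n)) * (Real.pi / 3) = 0 := by linear_combination hn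
  rcases mul_eq_zero.1 h1 with h2 | h2
  · linarith
  · linarith

/-- **the connecting pair is determined by the vertex** -/
theorem QF0.det169 {V V1 V2 V1' V2' : ℂ} {a b m n e f a' b' m' n' e' f' : Fin 6}
    (h : QF0 T V a b m n e f V1 V2) (h' : QF0 T V a' b' m' n' e' f' V1' V2') :
    ({a, b} : Set (Fin 6)) = {a', b'} ∧ (V1 = V1' ∧ V2 = V2' ∨ V1 = V2' ∧ V2 = V1') := by
  have k1 : V1' = V1 ∨ V1' = V2 := h.ord _ h'.dist1 h'.ord1.ge
  have k2 : V2' = V1 ∨ V2' = V2 := h.ord _ h'.dist2 h'.ord2.ge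
  have hne' := h'.ne12
  have hends : V1 = V1' ∧ V2 = V2' ∨ V1 = V2' ∧ V2 = V1' := by
    rcases k1 with k1 | k1 <;> rcases k2 with k2 | k2
    · exact absurd (k1.trans k2.symm) hne'
    · exact Or.inl ⟨k1.symm, k2.symm⟩
    · exact Or.inr ⟨k2.symm, k1.symm⟩
    · exact absurd (k1.trans k2.symm) hne'
  refine ⟨?_, hends⟩
  obtain ⟨s, t, g1, g2, g3, g4, -⟩ := h.arc
  obtain ⟨s', t', g1', g2', g3', g4', -⟩ := h'.arc
  -- the ends as sets
  have hset : (pt V s = pt V s' ∧ pt V t = pt V t') ∨ (pt V s = pt V t' ∧ pt V t = pt V s') := by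
    rcases hends with ⟨q1, q2⟩ | ⟨q1, q2⟩ <;> rcases g3 with ⟨g3, g3b⟩ | ⟨g3, g3b⟩ <;>
      rcases g3' with ⟨g3', g3b'⟩ | ⟨g3', g3b'⟩
    · exact Or.inl ⟨g3b.symm.trans (q2.trans g3b'), g3.symm.trans (q1.trans g3')⟩
    · exact Or.inr ⟨g3b.symm.trans (q2.trans g3b'), g3.symm.trans (q1.trans g3')⟩
    · exact Or.inr ⟨g3.symm.trans (q1.trans g3'), g3b.symm.trans (q2.trans g3b')⟩
    · exact Or.inl ⟨g3.symm.trans (q1.trans g3'), g3b.symm.trans (q2.trans g3b')⟩
    · exact Or.inr ⟨g3b.symm.trans (q2.trans g3'), g3.symm.trans (q1.trans g3b')⟩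
    · exact Or.inl ⟨g3b.symm.trans (q2.trans g3'), g3.symm.trans (q1.trans g3b')⟩
    · exact Or.inl ⟨g3.symm.trans (q1.trans g3b'), g3b.symm.trans (q2.trans g3')⟩
    · exact Or.inr ⟨g3.symm.trans (q1.trans g3b'), g3b.symm.trans (q2.trans g3')⟩
  rcases hset with ⟨q1, q2⟩ | ⟨q1, q2⟩
  · obtain ⟨n1, hn1⟩ := pt_eq169 q1
    obtain ⟨n2, hn2⟩ := pt_eq169 q2
    have h3 : (n1 : ℝ) = n2 := by
      have h4 : (6 : ℝ) * (n1 - n2) < 1 := by linarith
      have h5 : (-1 : ℝ) < 6 * (n1 - n2) := by linarith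
      have h6 : n1 - n2 < 1 := by
        have : ((n1 - n2 : ℤ) : ℝ) < 1 := by push_cast; linarith
        exact_mod_cast this
      have h7 : -1 < n1 - n2 := by
        have : (-1 : ℝ) < ((n1 - n2 : ℤ) : ℝ) := by push_cast; linarith
        exact_mod_cast this
      have h8 : n1 = n2 := by omega
      rw [h8]
    have hm := g4 ((s + t) / 2) ⟨by linarith, by linarith⟩
    have hm' := g4' ((s' + t') / 2) ⟨by linarith, by linarith⟩
    have he : pt V ((s + t) / 2) = pt V ((s' + t') / 2) := by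
      have : (s + t) / 2 = (s' + t') / 2 + 6 * (n1 : ℝ) := by rw [hn1, hn2, ← h3]; ring
      rw [this]
      unfold pt
      congr 1
      rw [cis, cis, Complex.exp_eq_exp_iff_exists_int]
      refine ⟨n1, ?_⟩
      push_cast
      ring
    rw [he] at hm
    exact hm.symm.trans hm'
  · exfalso
    obtain ⟨n1, hn1⟩ := pt_eq169 q1
    obtain ⟨n2, hn2⟩ := pt_eq169 q2
    have h4 : (6 : ℝ) * (n2 - n1) < 2 := by linarith
    have h5 : (0 : ℝ) < 6 * (n2 - n1) := by linarith
    have h6 : n2 - n1 < 1 := by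
      have : ((n2 - n1 : ℤ) : ℝ) < 1 := by push_cast; linarith
      exact_mod_cast this
    have h7 : 0 < n2 - n1 := by
      have : (0 : ℝ) < ((n2 - n1 : ℤ) : ℝ) := by push_cast; linarith
      exact_mod_cast this
    omega

/-- near an exact point of the circle the outside has the outer colour, the inside the inner -/
theorem QF.near169 (h : Irr U T) {V V1 V2 : ℂ} {a b m n e f : Fin 6}
    (hV : QF T V a b m n e f V1 V2) {y : ℂ} (hy : dist y V = 1) (hT : T y = {a, b}) :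
    ∀ᶠ x in 𝓝 y, (1 < dist x V → x ∈ U b) ∧ (dist x V < 1 → x ∈ U a) := by
  have h1 : ∀ᶠ x in 𝓝 y, T x ⊆ {a, b} := by
    have h2 : ∀ i : Fin 6, i ∉ T y → ∀ᶠ x in 𝓝 y, i ∉ T x := fun i hi =>
      (h.closed i).isOpen_compl.mem_nhds hi
    have h3 : ∀ᶠ x in 𝓝 y, ∀ i : Fin 6, i ∉ T y → i ∉ T x := by
      rw [eventually_all]
      intro i
      by_cases hi : i ∈ T y
      · exact Eventually.of_forall fun x hx => absurd hi hx
      · exact (h2 i hi).mono fun x hx _ => hx
    filter_upwards [h3] with x hx i hi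
    by_contra hcon
    exact hx i (by rw [hT]; exact hcon) hi
  filter_upwards [h1, hV.inn y hy hT] with x hx1 hx2
  refine ⟨fun h3 => h.mem_of_single fun i hi => ?_, fun h3 => h.mem_of_single fun i hi => ?_⟩
  · rcases hx1 hi with rfl | h4
    · exact absurd (hx2.2 hi) (not_le.2 h3)
    · exact h4
  · rcases hx1 hi with h4 | h4
    · exact h4
    · rw [mem_singleton_iff] at h4
      subst h4
      exact absurd (hx2.1 hi) (not_le.2 h3)

namespace KCh

variable {V : ℕ → ℂ} {ρ : ℕ → ℝ} {C : ℕ → Set (Fin 6)}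

/-- the translated point of the next arc -/
theorem shift169 (J : KCh T V ρ C) (i : ℕ) (θ θ' : ℝ) :
    dist (arcPt V (i + 1) θ' + (arcPt V i θ - V (i + 2))) (V (i + 2)) =
      ‖cis θ' - cis θ + cis (ρ (i + 1))‖ := by
  have e1 : arcPt V i θ - V (i + 2) = (-1) ^ (i + 1) * (cis θ - cis (ρ (i + 1))) := by
    rw [← J.rods.arc_right i, arcPt, arcPt]; ring
  have e2 : arcPt V (i + 1) θ' - V (i + 2) = -((-1) ^ (i + 1)) * cis θ' := by
    rw [arcPt, pow_succ]; ring
  rw [dist_eq_norm, show arcPt V (i + 1) θ' + (arcPt V i θ - V (i + 2)) - V (i + 2) =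
    (arcPt V (i + 1) θ' - V (i + 2)) + (arcPt V i θ - V (i + 2)) by ring, e1, e2,
    show -((-1 : ℂ) ^ (i + 1)) * cis θ' + (-1) ^ (i + 1) * (cis θ - cis (ρ (i + 1))) =
      (-1) ^ (i + 1) * (-(cis θ' - cis θ + cis (ρ (i + 1)))) by ring, norm_npow169, norm_neg]

/-- points of the arc near its right end -/
theorem exists_near169 (J : KCh T V ρ C) (i : ℕ) {p : ℂ → Prop} {q : ℝ → Prop} {x₀ : ℂ}
    (hp : ∀ᶠ x in 𝓝 x₀, p x) (hq : ∀ᶠ θ in 𝓝 (ρ (i + 1)), q θ) :
    ∃ θ ∈ uIoo (ρ i) (ρ (i + 1)), p (x₀ + (arcPt V i θ - V (i + 2))) ∧ q θ ∧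
      0 < (θ - ρ (i + 1)) * (ρ i - ρ (i + 1)) := by
  have hc : Tendsto (fun θ : ℝ => x₀ + (arcPt V i θ - V (i + 2))) (𝓝 (ρ (i + 1))) (𝓝 x₀) := by
    have h1 : Continuous fun θ : ℝ => x₀ + (arcPt V i θ - V (i + 2)) := by
      have := continuous_cis
      unfold arcPt
      fun_prop
    have h2 := h1.tendsto (ρ (i + 1))
    rwa [J.rods.arc_right, sub_self, add_zero] at h2
  have h3 := (hc.eventually hp).and hq
  have h4 : ρ (i + 1) ∈ closure (uIoo (ρ i) (ρ (i + 1))) := by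
    unfold uIoo
    rw [closure_Ioo (inf_lt_sup.2 (J.rods.ne i).symm).ne]
    exact right_mem_uIcc
  obtain ⟨θ, hθ, hθ'⟩ := mem_closure_iff_nhds.1 h4 _ h3
  refine ⟨θ, hθ', hθ.1, hθ.2, ?_⟩
  rcases lt_or_gt_of_ne (J.rods.ne i) with h5 | h5
  · rw [uIoo_of_ge h5.le] at hθ'
    exact mul_pos (by linarith [hθ'.1]) (by linarith)
  · rw [uIoo_of_le h5.le] at hθ'
    exact mul_pos_of_neg_of_neg (by linarith [hθ'.2]) (by linarith)

theorem exists_mid169 (J : KCh T V ρ C) (i : ℕ) : (ρ i + ρ (i + 1)) / 2 ∈ uIoo (ρ i) (ρ (i + 1)) := by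
  rcases lt_or_gt_of_ne (J.rods.ne i) with h5 | h5
  · rw [uIoo_of_ge h5.le]; exact ⟨by linarith, by linarith⟩
  · rw [uIoo_of_le h5.le]; exact ⟨by linarith, by linarith⟩

/-- **a common outer colour: the turns alternate** -/
theorem turn_out (h : Irr U T) (J : KCh T V ρ C) (i : ℕ) {b : Fin 6} (hb : b ∈ C (i + 1))
    (hout : ∀ θ ∈ uIoo (ρ (i + 1)) (ρ (i + 2)),
      ∀ᶠ x in 𝓝 (arcPt V (i + 1) θ), 1 < dist x (V (i + 2)) → x ∈ U b) :
    (ρ (i + 1) - ρ i) * (ρ (i + 2) - ρ (i + 1)) < 0 := by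
  by_contra hcon
  push Not at hcon
  have hpos : 0 < (ρ (i + 1) - ρ i) * (ρ (i + 2) - ρ (i + 1)) := by
    refine lt_of_le_of_ne hcon (Ne.symm ?_)
    exact mul_ne_zero (sub_ne_zero.2 (J.rods.ne i)) (sub_ne_zero.2 (J.rods.ne (i + 1)))
  have hm := J.exists_mid169 (i + 1)
  obtain ⟨θ', hθ'⟩ : ∃ θ', θ' = (ρ (i + 1) + ρ (i + 1 + 1)) / 2 := ⟨_, rfl⟩
  rw [← hθ'] at hm
  have hq : ∀ᶠ θ in 𝓝 (ρ (i + 1)), |θ' - θ| ≤ Real.pi / 3 ∧
      0 < (θ' - θ) * (ρ (i + 2) - ρ (i + 1)) := by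
    have h2 := J.rods.le (i + 1)
    have h3 := J.rods.ne (i + 1)
    have hpi := Real.pi_pos
    have e1 : |θ' - ρ (i + 1)| < Real.pi / 3 := by
      rw [hθ', abs_lt]
      rw [abs_le] at h2
      constructor <;> linarith [h2.1, h2.2]
    have e2 : 0 < (θ' - ρ (i + 1)) * (ρ (i + 2) - ρ (i + 1)) := by
      have : (θ' - ρ (i + 1)) * (ρ (i + 2) - ρ (i + 1)) = (ρ (i + 2) - ρ (i + 1)) ^ 2 / 2 := by
        rw [hθ']; ring
      rw [this]
      have h4 : ρ (i + 2) - ρ (i + 1) ≠ 0 := sub_ne_zero.2 h3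
      positivity
    have c1 : Continuous fun θ : ℝ => |θ' - θ| := by fun_prop
    have c2 : Continuous fun θ : ℝ => (θ' - θ) * (ρ (i + 2) - ρ (i + 1)) := by fun_prop
    filter_upwards [c1.continuousAt.eventually_lt continuousAt_const e1,
      continuousAt_const.eventually_lt c2.continuousAt e2] with θ k1 k2
    exact ⟨k1.le, k2⟩
  obtain ⟨θ, hθ, g1, ⟨g2, g3⟩, g4⟩ := J.exists_near169 i (hout θ' hm) hq
  have hle : |θ - ρ (i + 1)| ≤ Real.pi / 3 := by
    have h1 := J.rods.le i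
    rw [abs_le] at h1 ⊢
    rcases lt_or_gt_of_ne (J.rods.ne i) with h5 | h5
    · rw [uIoo_of_ge h5.le] at hθ
      constructor <;> linarith [hθ.1, hθ.2]
    · rw [uIoo_of_le h5.le] at hθ
      constructor <;> linarith [hθ.1, hθ.2]
  have hneg : (θ' - θ) * (θ - ρ (i + 1)) < 0 := by
    by_contra h6
    push Not at h6
    have h7 : 0 < ((θ - ρ (i + 1)) * (ρ i - ρ (i + 1))) * ((θ' - θ) * (ρ (i + 2) - ρ (i + 1))) :=
      mul_pos g4 g3
    have h8 : ((θ - ρ (i + 1)) * (ρ i - ρ (i + 1))) * ((θ' - θ) * (ρ (i + 2) - ρ (i + 1))) =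
        -(((θ' - θ) * (θ - ρ (i + 1))) * ((ρ (i + 1) - ρ i) * (ρ (i + 2) - ρ (i + 1)))) := by ring
    rw [h8] at h7
    nlinarith [mul_nonneg h6 hpos.le]
  have hgt := rot3_gt169 g2 hle hneg
  rw [← J.shift169 i θ θ'] at hgt
  have hU := g1 hgt
  have hd : dist (arcPt V (i + 1) θ' + (arcPt V i θ - V (i + 2))) (arcPt V i θ) = 1 := by
    rw [dist_eq_norm, show arcPt V (i + 1) θ' + (arcPt V i θ - V (i + 2)) - arcPt V i θ =
      arcPt V (i + 1) θ' - V (i + 1 + 1) by ring, ← dist_eq_norm]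
    exact Rods.dist_arc V (i + 1) θ'
  refine h.mx.notMem' hU hd (h.sub _ ?_)
  rw [J.arc i θ hθ]
  exact hb

/-- **a common inner colour: equal turns** -/
theorem turn_in (h : Irr U T) (J : KCh T V ρ C) (i : ℕ) {b : Fin 6} (hb : b ∈ C (i + 1))
    (hinn : ∀ θ ∈ uIoo (ρ (i + 1)) (ρ (i + 2)),
      ∀ᶠ x in 𝓝 (arcPt V (i + 1) θ), dist x (V (i + 2)) < 1 → x ∈ U b) :
    0 < (ρ (i + 1) - ρ i) * (ρ (i + 2) - ρ (i + 1)) := by
  by_contra hcon
  push Not at hcon
  have hneg0 : (ρ (i + 1) - ρ i) * (ρ (i + 2) - ρ (i + 1)) < 0 := by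
    refine lt_of_le_of_ne hcon ?_
    exact mul_ne_zero (sub_ne_zero.2 (J.rods.ne i)) (sub_ne_zero.2 (J.rods.ne (i + 1)))
  have hm := J.exists_mid169 (i + 1)
  obtain ⟨θ', hθ'⟩ : ∃ θ', θ' = (ρ (i + 1) + ρ (i + 1 + 1)) / 2 := ⟨_, rfl⟩
  rw [← hθ'] at hm
  have hq : ∀ᶠ θ in 𝓝 (ρ (i + 1)), |θ' - θ| ≤ Real.pi / 3 ∧
      0 < (θ' - θ) * (ρ (i + 2) - ρ (i + 1)) := by
    have h2 := J.rods.le (i + 1)
    have h3 := J.rods.ne (i + 1)
    have hpi := Real.pi_pos
    have e1 : |θ' - ρ (i + 1)| < Real.pi / 3 := by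
      rw [hθ', abs_lt]
      rw [abs_le] at h2
      constructor <;> linarith [h2.1, h2.2]
    have e2 : 0 < (θ' - ρ (i + 1)) * (ρ (i + 2) - ρ (i + 1)) := by
      have : (θ' - ρ (i + 1)) * (ρ (i + 2) - ρ (i + 1)) = (ρ (i + 2) - ρ (i + 1)) ^ 2 / 2 := by
        rw [hθ']; ring
      rw [this]
      have h4 : ρ (i + 2) - ρ (i + 1) ≠ 0 := sub_ne_zero.2 h3
      positivity
    have c1 : Continuous fun θ : ℝ => |θ' - θ| := by fun_prop
    have c2 : Continuous fun θ : ℝ => (θ' - θ) * (ρ (i + 2) - ρ (i + 1)) := by fun_prop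
    filter_upwards [c1.continuousAt.eventually_lt continuousAt_const e1,
      continuousAt_const.eventually_lt c2.continuousAt e2] with θ k1 k2
    exact ⟨k1.le, k2⟩
  obtain ⟨θ, hθ, g1, ⟨g2, g3⟩, g4⟩ := J.exists_near169 i (hinn θ' hm) hq
  have hle : |θ - ρ (i + 1)| ≤ Real.pi / 3 := by
    have h1 := J.rods.le i
    rw [abs_le] at h1 ⊢
    rcases lt_or_gt_of_ne (J.rods.ne i) with h5 | h5
    · rw [uIoo_of_ge h5.le] at hθ
      constructor <;> linarith [hθ.1, hθ.2]
    · rw [uIoo_of_le h5.le] at hθ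
      constructor <;> linarith [hθ.1, hθ.2]
  have hposs : 0 < (θ' - θ) * (θ - ρ (i + 1)) := by
    by_contra h6
    push Not at h6
    have h7 : 0 < ((θ - ρ (i + 1)) * (ρ i - ρ (i + 1))) * ((θ' - θ) * (ρ (i + 2) - ρ (i + 1))) :=
      mul_pos g4 g3
    have h8 : ((θ - ρ (i + 1)) * (ρ i - ρ (i + 1))) * ((θ' - θ) * (ρ (i + 2) - ρ (i + 1))) =
        -(((θ' - θ) * (θ - ρ (i + 1))) * ((ρ (i + 1) - ρ i) * (ρ (i + 2) - ρ (i + 1)))) := by ring
    rw [h8] at h7
    nlinarith [mul_nonneg_of_nonpos_of_nonpos h6 hneg0.le]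
  have hlt := rot3_lt169 g2 hle hposs
  rw [← J.shift169 i θ θ'] at hlt
  have hU := g1 hlt
  have hd : dist (arcPt V (i + 1) θ' + (arcPt V i θ - V (i + 2))) (arcPt V i θ) = 1 := by
    rw [dist_eq_norm, show arcPt V (i + 1) θ' + (arcPt V i θ - V (i + 2)) - arcPt V i θ =
      arcPt V (i + 1) θ' - V (i + 1 + 1) by ring, ← dist_eq_norm]
    exact Rods.dist_arc V (i + 1) θ'
  refine h.mx.notMem' hU hd (h.sub _ ?_)
  rw [J.arc i θ hθ]
  exact hb

end KCh

/-- bi-infinite chain of quasi-full points, `a j` inside, `b j` outside -/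
structure QChain (T : ℂ → Set (Fin 6)) (V : ℤ → ℂ) (a b : ℤ → Fin 6) : Prop where
  qf : ∀ j, ∃ m n e f, QF T (V j) (a j) (b j) m n e f (V (j + 1)) (V (j - 1))

namespace QChain

variable {V : ℤ → ℂ} {a b : ℤ → Fin 6}

/-- the reversed chain -/
theorem rev (Q : QChain T V a b) : QChain T (fun j => V (-j)) (fun j => a (-j)) (fun j => b (-j)) where
  qf := fun j => by
    obtain ⟨m, n, e, f, h1⟩ := Q.qf (-j)
    refine ⟨n, m, e, f, ?_⟩
    have h2 := h1.mirror
    rw [show -(j + 1) = -j - 1 by ring, show -(j - 1) = -j + 1 by ring]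
    exact h2

/-- the shifted chain -/
theorem shift (Q : QChain T V a b) (c : ℤ) :
    QChain T (fun j => V (j + c)) (fun j => a (j + c)) (fun j => b (j + c)) where
  qf := fun j => by
    obtain ⟨m, n, e, f, h1⟩ := Q.qf (j + c)
    refine ⟨m, n, e, f, ?_⟩
    rw [show j + 1 + c = j + c + 1 by ring, show j - 1 + c = j + c - 1 by ring]
    exact h1

/-- **the right half chain** -/
theorem kch (Q : QChain T V a b) :
    ∃ ρ : ℕ → ℝ, KCh T (fun i => V i) ρ (fun i => {a i, b i}) := by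
  -- the angles
  have hang : ∀ i : ℕ, ∃ x y : ℝ, V i = pt (V (i + 1)) x ∧ V (i + 2) = pt (V (i + 1)) y ∧ x ≠ y ∧
      |y - x| ≤ 1 ∧ (∀ u ∈ uIoo x y, T (pt (V (i + 1)) u) = {a (i + 1), b (i + 1)}) ∧
      ∀ q, dist q (V (i + 1)) = 1 → a (i + 1) ∈ T q → b (i + 1) ∈ T q →
        q ∈ pt (V (i + 1)) '' uIcc x y := by
    intro i
    obtain ⟨m, n, e, f, hq⟩ := Q.qf (i + 1)
    obtain ⟨s, t, g1, g2, g3, g4, g5⟩ := hq.arc
    rw [show (i : ℤ) + 1 + 1 = i + 2 by ring, show (i : ℤ) + 1 - 1 = i by ring] at g3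
    rcases g3 with ⟨g3, g3'⟩ | ⟨g3, g3'⟩
    · refine ⟨s, t, g3', g3, g1.ne, abs_le.2 ⟨by linarith, by linarith⟩, ?_, ?_⟩
      · rw [uIoo_of_le g1.le]; exact g4
      · rw [uIcc_of_le g1.le]; exact g5
    · refine ⟨t, s, g3', g3, g1.ne', abs_le.2 ⟨by linarith, by linarith⟩, ?_, ?_⟩
      · rw [uIoo_of_ge g1.le]; exact g4
      · rw [uIcc_of_ge g1.le]; exact g5
  choose x y hx hy hne hlt harc honly using hang
  obtain ⟨ρ, hρ, hd, hpt⟩ := exists_rho169 (W := fun i : ℕ => V i) (x := x) (y := y)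
    (fun i => by have := hx i; push_cast; exact this)
    (fun i => by have := hy i; push_cast; exact this) hne hlt
  have hpi := Real.pi_pos
  have hconv : ∀ i θ, θ ∈ uIoo (ρ i) (ρ (i + 1)) ↔
      x i + (θ - ρ i) / (Real.pi / 3) ∈ uIoo (x i) (y i) := by
    intro i θ
    have h1 := hd i
    rcases lt_or_gt_of_ne (hne i) with h2 | h2
    · have h3 : ρ i < ρ (i + 1) := by
        have : 0 < (y i - x i) * (Real.pi / 3) := mul_pos (by linarith) (by positivity)
        linarith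
      rw [uIoo_of_le h3.le, uIoo_of_le h2.le]
      constructor
      · rintro ⟨h4, h5⟩
        constructor
        · have : 0 < (θ - ρ i) / (Real.pi / 3) := div_pos (by linarith) (by positivity)
          linarith
        · have : (θ - ρ i) / (Real.pi / 3) < y i - x i := by
            rw [div_lt_iff₀ (by positivity)]; linarith
          linarith
      · rintro ⟨h4, h5⟩
        have e1 : θ - ρ i = (θ - ρ i) / (Real.pi / 3) * (Real.pi / 3) := by field_simp
        constructor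
        · have : 0 < (θ - ρ i) / (Real.pi / 3) * (Real.pi / 3) :=
            mul_pos (by linarith) (by positivity)
          linarith
        · have : (θ - ρ i) / (Real.pi / 3) * (Real.pi / 3) < (y i - x i) * (Real.pi / 3) :=
            mul_lt_mul_of_pos_right (by linarith) (by positivity)
          linarith
    · have h3 : ρ (i + 1) < ρ i := by
        have : 0 < (x i - y i) * (Real.pi / 3) := mul_pos (by linarith) (by positivity)
        linarith
      rw [uIoo_of_ge h3.le, uIoo_of_ge h2.le]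
      constructor
      · rintro ⟨h4, h5⟩
        constructor
        · have : y i - x i < (θ - ρ i) / (Real.pi / 3) := by
            rw [lt_div_iff₀ (by positivity)]; linarith
          linarith
        · have : (θ - ρ i) / (Real.pi / 3) < 0 := div_neg_of_neg_of_pos (by linarith) (by positivity)
          linarith
      · rintro ⟨h4, h5⟩
        have e1 : θ - ρ i = (θ - ρ i) / (Real.pi / 3) * (Real.pi / 3) := by field_simp
        constructor
        · have : (y i - x i) * (Real.pi / 3) < (θ - ρ i) / (Real.pi / 3) * (Real.pi / 3) :=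
            mul_lt_mul_of_pos_right (by linarith) (by positivity)
          linarith
        · have : (θ - ρ i) / (Real.pi / 3) * (Real.pi / 3) < 0 :=
            mul_neg_of_neg_of_pos (by linarith) (by positivity)
          linarith
  have hpt' : ∀ i θ, arcPt (fun i : ℕ => V i) i θ =
      pt (V (i + 1)) (x i + (θ - ρ i) / (Real.pi / 3)) := by
    intro i θ
    have h1 := hpt i ((θ - ρ i) / (Real.pi / 3))
    have e1 : ρ i + (θ - ρ i) / (Real.pi / 3) * (Real.pi / 3) = θ := by field_simp; ring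
    rw [e1] at h1
    rw [h1]
    push_cast
    rfl
  refine ⟨ρ, hρ, ?_, ?_, ?_⟩
  · intro i θ hθ
    rw [hpt']
    have := harc i _ ((hconv i θ).1 hθ)
    rw [this]
    push_cast
    rfl
  · intro i q hq hT
    have hq' : dist q (V (i + 1)) = 1 := by
      have := hq
      push_cast at this
      exact this
    have hT' : T q = {a (i + 1), b (i + 1)} := by
      rw [hT]; push_cast; rfl
    obtain ⟨m, n, e, f, hQ⟩ := Q.qf (i + 1)
    have hcard : (T q).ncard = 2 := by
      rw [hT']; exact Set.ncard_pair hQ.dpt.ab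
    obtain ⟨u, hu, rfl⟩ := honly i q hq' (by rw [hT']; simp) (by rw [hT']; simp)
    have hux : u ≠ x i := by
      rintro rfl
      have h2 := hQ.ord2
      rw [show (i : ℤ) + 1 - 1 = i by ring, hx i] at h2
      omega
    have huy : u ≠ y i := by
      rintro rfl
      have h2 := hQ.ord1
      rw [show (i : ℤ) + 1 + 1 = i + 2 by ring, hy i] at h2
      omega
    have hu' : u ∈ uIoo (x i) (y i) := by
      rcases le_total (x i) (y i) with h2 | h2
      · rw [uIcc_of_le h2] at hu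
        rw [uIoo_of_le h2]
        exact ⟨lt_of_le_of_ne hu.1 (Ne.symm hux), lt_of_le_of_ne hu.2 huy⟩
      · rw [uIcc_of_ge h2] at hu
        rw [uIoo_of_ge h2]
        exact ⟨lt_of_le_of_ne hu.1 (Ne.symm huy), lt_of_le_of_ne hu.2 hux⟩
    refine ⟨ρ i + (u - x i) * (Real.pi / 3), ?_, ?_⟩
    · rw [hconv]
      have : x i + (ρ i + (u - x i) * (Real.pi / 3) - ρ i) / (Real.pi / 3) = u := by
        field_simp; ring
      rw [this]; exact hu'
    · rw [hpt']
      congr 1
      field_simp; ring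
  · intro i j hij
    obtain ⟨m, n, e, f, h1⟩ := Q.qf i
    obtain ⟨m', n', e', f', h2⟩ := Q.qf j
    have hij' : V i = V j := hij
    rw [← hij'] at h2
    exact (QF0.det169 h1.toQF0 h2.toQF0).1

end QChain

end Vale.Agent.P032.Six
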