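import Vale.Agent.P032.H169.XL4
import Vale.Agent.P032.H169.KQF

/-!
# P032, row D3 of the degree theorem: one exact arc

`V` a two-pair point with the pair `a, b` plain-free, and no three points with four colours on
`S(V)`: the exact `ab`-points of `S(V)` are one open arc of length at most 60 degrees, whose two ends are
the only points of `S(V)` with four colours.
-/

open Set Filter Topology Metric

noncomputable section

namespace Vale.Agent.P032.Six

open Vale.Agent.P032.S5.H767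

variable {U : Fin 6 → Set ℂ} {T : ℂ → Set (Fin 6)} {V : ℂ} {a b m n : Fin 6}

/-- **D3: one exact arc** -/
theorem one_arc169 (h : Irr U T) (hV : DPt T V a b m n) (hp : H383.Pf T V a b)
    (hn : ∀ y1 y2 y3, dist y1 V = 1 → dist y2 V = 1 → dist y3 V = 1 → 4 ≤ (T y1).ncard →
      4 ≤ (T y2).ncard → 4 ≤ (T y3).ncard → y1 = y2 ∨ y1 = y3 ∨ y2 = y3) :
    ∃ s t : ℝ, s < t ∧ t ≤ s + 1 ∧ (∀ u ∈ Ioo s t, T (pt V u) = {a, b}) ∧
      (∀ y, dist y V = 1 → T y = {a, b} → y ∈ pt V '' Ioo s t) ∧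
      (4 ≤ (T (pt V s)).ncard ∧ a ∈ T (pt V s) ∧ b ∈ T (pt V s)) ∧
      (4 ≤ (T (pt V t)).ncard ∧ a ∈ T (pt V t) ∧ b ∈ T (pt V t)) ∧
      ∀ y, dist y V = 1 → 4 ≤ (T y).ncard → y = pt V s ∨ y = pt V t := by
  obtain ⟨p, hp1⟩ := hV.arc1
  obtain ⟨u0, -, -, hu0⟩ := exists_pt169 (V := V) hp1.1 0
  have hx0 : T (pt V u0) = {a, b} := by rw [← hu0]; exact hp1.mem
  obtain ⟨s, t, hsu, hut, hst1, hI, hs, ht⟩ := H383.exists_arc h hV hp hx0
  have hst : s < t := hsu.trans hut
  have hne : pt V s ≠ pt V t := H961.pt_ne hst (by linarith)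
  have hord : ∀ y, dist y V = 1 → 4 ≤ (T y).ncard → y = pt V s ∨ y = pt V t := by
    intro y hy h4
    rcases hn (pt V s) (pt V t) y (dist_pt _ _) (dist_pt _ _) hy hs.1 ht.1 h4 with h1 | h1 | h1
    · exact absurd h1 hne
    · exact Or.inl h1.symm
    · exact Or.inr h1.symm
  have hc2 : ({a, b} : Set (Fin 6)).ncard = 2 := Set.ncard_pair hV.ab
  refine ⟨s, t, hst, hst1, hI, fun y hy hyT => ?_, hs, ht, hord⟩
  obtain ⟨w, hw1, hw2, rfl⟩ := exists_pt169 (V := V) hy (s + 3)
  by_contra hcon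
  have hws : s < w := by linarith
  have hws6 : w ≤ s + 6 := by linarith
  have hwt : w ≠ t := by rintro rfl; rw [hyT, hc2] at ht; omega
  have htw : t < w := by
    rcases lt_or_ge t w with h1 | h1
    · exact h1
    · exact absurd ⟨w, ⟨hws, lt_of_le_of_ne h1 hwt⟩, rfl⟩ hcon
  obtain ⟨s', t', hs'w, hwt', hst1', hI', hs', ht'⟩ := H383.exists_arc h hV hp hyT
  have h1 : t ≤ s' := by
    by_contra hc
    push Not at hc
    have h3 := hI' t ⟨hc, htw.trans hwt'⟩
    rw [h3, hc2] at ht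
    omega
  have h2 : t' ≤ s + 6 := by
    by_contra hc
    push Not at hc
    have h3 := hI' (s + 6) ⟨by linarith, hc⟩
    rw [pt_six] at h3
    rw [h3, hc2] at hs
    omega
  have h3 : s' = t := by
    rcases hord _ (dist_pt V s') hs'.1 with h4 | h4
    · exfalso
      obtain ⟨k, hk⟩ := pt_eq169 h4
      have h5 : (0 : ℝ) < k := by linarith
      have h6 : (k : ℝ) < 1 := by linarith
      have h7 : (0 : ℤ) < k := by exact_mod_cast h5
      have h8 : k < (1 : ℤ) := by exact_mod_cast h6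
      omega
    · obtain ⟨k, hk⟩ := pt_eq169 h4
      have h5 : (-1 : ℝ) < k := by linarith
      have h6 : (k : ℝ) < 1 := by linarith
      have h7 : (-1 : ℤ) < k := by exact_mod_cast h5
      have h8 : k < (1 : ℤ) := by exact_mod_cast h6
      have h9 : k = 0 := by omega
      rw [hk, h9]; simp
  have h4 : s + 6 ≤ t' := by
    rcases hord _ (dist_pt V t') ht'.1 with h4 | h4
    · obtain ⟨k, hk⟩ := pt_eq169 h4
      have h5 : (0 : ℝ) < k := by linarith
      have h7 : (0 : ℤ) < k := by exact_mod_cast h5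
      have h8 : (1 : ℤ) ≤ k := by omega
      have h9 : (1 : ℝ) ≤ k := by exact_mod_cast h8
      linarith
    · obtain ⟨k, hk⟩ := pt_eq169 h4
      have h5 : (0 : ℝ) < k := by linarith
      have h7 : (0 : ℤ) < k := by exact_mod_cast h5
      have h8 : (1 : ℤ) ≤ k := by omega
      have h9 : (1 : ℝ) ≤ k := by exact_mod_cast h8
      linarith
  linarith

end Vale.Agent.P032.Six
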