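import Vale.Agent.P032.H800.XR
import Vale.Agent.P032.H169.OneArc
import Vale.Agent.P032.H383.Lk

/-!
# P032, row D4 of the degree theorem: the world of quasi-full points

World `WD U T` : `DF U T`; at every two-pair point one of the two pairs has no plain ends; no point
with four colours has three such points on its circle; the limits of exact points of a pair without
plain ends are not harmless (`hh`).

`qiw_deg169` : `WD U T → QIW T Inv` for every `Inv` without two-pair points.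
-/

open Set Filter Topology Metric

noncomputable section

namespace Vale.Agent.P032.H169

open Vale.Agent.P032.Six Vale.Agent.P032.S5.H767 Vale.Agent.P032.H961 Vale.Agent.P032.H383
  Vale.Agent.P032.H800

variable {U : Fin 6 → Set ℂ} {T : ℂ → Set (Fin 6)} {V y : ℂ} {a b c d g g' : Fin 6}

/-- the world of the degree theorem -/
structure WD (U : Fin 6 → Set ℂ) (T : ℂ → Set (Fin 6)) : Prop where
  df : DF U T
  m : ∀ {V a b c d}, DPt T V a b c d → Pf T V a b ∨ Pf T V c d
  n3 : ∀ z y1 y2 y3, 4 ≤ (T z).ncard → dist y1 z = 1 → dist y2 z = 1 → dist y3 z = 1 →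
    4 ≤ (T y1).ncard → 4 ≤ (T y2).ncard → 4 ≤ (T y3).ncard → y1 = y2 ∨ y1 = y3 ∨ y2 = y3
  hh : ∀ {V a b c d}, DPt T V a b c d → Pf T V a b → ∀ y ∈ closure (XA T V a b), ∀ A,
    ¬ Six.Harm T y A

/-- the arc -/
theorem WD.arc (X : WD U T) (hV : DPt T V a b c d) (hP : Pf T V a b) :
    ∃ s t : ℝ, s < t ∧ t ≤ s + 1 ∧ (∀ u ∈ Ioo s t, T (pt V u) = {a, b}) ∧
      (∀ y, dist y V = 1 → T y = {a, b} → y ∈ pt V '' Icc s t) ∧
      (4 ≤ (T (pt V s)).ncard ∧ a ∈ T (pt V s) ∧ b ∈ T (pt V s)) ∧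
      (4 ≤ (T (pt V t)).ncard ∧ a ∈ T (pt V t) ∧ b ∈ T (pt V t)) ∧
      ∀ y, dist y V = 1 → 4 ≤ (T y).ncard → y = pt V s ∨ y = pt V t := by
  obtain ⟨s, t, h1, h2, h3, h4, h5, h6, h7⟩ := one_arc169 X.df.irr hV hP
    (fun y1 y2 y3 => X.n3 V y1 y2 y3 (by rw [hV.ncard]))
  exact ⟨s, t, h1, h2, h3, fun y k1 k2 => image_mono Ioo_subset_Icc_self (h4 y k1 k2), h5, h6, h7⟩

/-- every point of order four of the circle is an end -/
theorem WD.mem (X : WD U T) (hV : DPt T V a b c d) (hP : Pf T V a b) (hy : dist y V = 1)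
    (h4 : 4 ≤ (T y).ncard) : y ∈ closure (XA T V a b) ∧ a ∈ T y ∧ b ∈ T y := by
  obtain ⟨s, t, hst, hts, hI, -, hs, ht, hord⟩ := X.arc hV hP
  rcases hord y hy h4 with rfl | rfl
  · exact ⟨end_in hst hI (left_mem_Icc.2 hst.le), hs.2⟩
  · exact ⟨end_in hst hI (right_mem_Icc.2 hst.le), ht.2⟩

/-- a pair of a limit point is not the pair of the arc -/
theorem not_pair (h : Irr U T) (hy : dist y V = 1) (hD : DPt T y a b c d)
    (hc : y ∈ closure (XA T V a b)) : False := by
  have hne : ∀ X : Set (Fin 6), (a ∉ X ∨ b ∉ X) → X ≠ {a, b} := by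
    rintro X (h1 | h1) rfl
    · exact h1 (by simp)
    · exact h1 (by simp)
  have hab := hD.ab
  have hac := hD.ac
  have had := hD.ad
  have hbc := hD.bc
  have hbd := hD.bd
  have key : ∀ᶠ w in 𝓝 y, dist w V = 1 → w ≠ y → T w ≠ {a, b} := by
    rcases h.germ_branch hD hy with hG | hG | hG | hG
    · refine hb_sphere460 hy (hG.1.mono fun t ht => hne _ (Or.inr fun hb => ?_))
        (hG.2.mono fun t ht => hne _ (Or.inl fun ha => ?_))
      · rcases ht hb with h1 | h1
        · exact hab h1.symm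
        · exact hbc h1
      · rcases ht ha with h1 | h1
        · exact hab h1
        · exact had h1
    · refine hb_sphere460 hy (hG.1.mono fun t ht => hne _ (Or.inr fun hb => ?_))
        (hG.2.mono fun t ht => hne _ (Or.inl fun ha => ?_))
      · rcases ht hb with h1 | h1
        · exact hab h1.symm
        · exact hbd h1
      · rcases ht ha with h1 | h1
        · exact hab h1
        · exact hac h1
    · refine hb_sphere460 hy (hG.1.mono fun t ht => hne _ (Or.inl fun ha => ?_))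
        (hG.2.mono fun t ht => hne _ (Or.inr fun hb => ?_))
      · rcases ht ha with h1 | h1
        · exact hab h1
        · exact hac h1
      · rcases ht hb with h1 | h1
        · exact hab h1.symm
        · exact hbd h1
    · refine hb_sphere460 hy (hG.1.mono fun t ht => hne _ (Or.inl fun ha => ?_))
        (hG.2.mono fun t ht => hne _ (Or.inr fun hb => ?_))
      · rcases ht ha with h1 | h1
        · exact hab h1
        · exact had h1
      · rcases ht hb with h1 | h1
        · exact hab h1.symm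
        · exact hbc h1
  obtain ⟨w, hw, hw'⟩ := ((mem_closure_iff_frequently.1 hc).and_eventually key).exists
  refine hw' hw.1 ?_ hw.2
  rintro rfl
  have h1 := hD.ncard
  rw [hw.2, Set.ncard_pair hab] at h1
  omega

/-- a two-pair end of the arc is at one of the four borders -/
theorem WD.split (X : WD U T) (hV : DPt T V a b c d) (hP : Pf T V a b) (hy : dist y V = 1)
    {p q r s : Fin 6} (hD : DPt T y p q r s) :
    ∃ g, (DPt T y a c b g ∨ DPt T y b d a g) ∨ (DPt T y a d b g ∨ DPt T y b c a g) := by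
  have h4 : 4 ≤ (T y).ncard := by rw [hD.ncard]
  obtain ⟨hcl, ha, hb⟩ := X.mem hV hP hy h4
  by_cases hc : c ∈ T y
  · rcases X.df.irr.k_border460 hV hy hD ha hb hc with ⟨e, he⟩ | ⟨e, he⟩
    · exact ⟨e, Or.inl (Or.inl he)⟩
    · exact ⟨e, Or.inr (Or.inr he)⟩
  by_cases hd : d ∈ T y
  · rcases X.df.irr.k_border460 hV.swap34 hy hD ha hb hd with ⟨e, he⟩ | ⟨e, he⟩
    · exact ⟨e, Or.inr (Or.inl he)⟩
    · exact ⟨e, Or.inl (Or.inr he)⟩
  exfalso
  have hV4 : 4 ≤ (T V).ncard := by rw [hV.ncard]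
  have hVy : dist V y = 1 := by rw [dist_comm]; exact hy
  -- the common colours are `a`, `b`
  have key : ∀ {p q r s : Fin 6}, DPt T y p q r s → Pf T y p q → False := by
    intro p q r s hD hPy
    obtain ⟨-, hp, hq⟩ := X.mem hD hPy hVy hV4
    have hpy : p ∈ T y := by rw [hD.pal]; simp
    have hqy : q ∈ T y := by rw [hD.pal]; simp
    have k : ∀ i, i ∈ T V → i ∈ T y → i = a ∨ i = b := by
      intro i hi hi'
      rw [hV.pal] at hi
      rcases hi with rfl | rfl | rfl | hi
      · exact Or.inl rfl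
      · exact Or.inr rfl
      · exact absurd hi' hc
      · rw [mem_singleton_iff] at hi
        subst hi
        exact absurd hi' hd
    rcases k p hp hpy with rfl | rfl <;> rcases k q hq hqy with rfl | rfl
    · exact hD.ab rfl
    · exact not_pair X.df.irr hy hD hcl
    · exact not_pair X.df.irr hy hD.swap12 hcl
    · exact hD.ab rfl
  rcases X.m hD with h1 | h1
  · exact key hD h1
  · exact key hD.swap h1

/-- the sides at all the exact points -/
theorem inn_of (h : Irr U T) (hV : DPt T V a b c d) {s t r : ℝ} (hst : s < t)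
    (hA : ∀ w ∈ Ioo s t, T (pt V w) = {a, b})
    (hall : ∀ y, dist y V = 1 → T y = {a, b} → y ∈ pt V '' Icc s t) (hr : r ∈ Icc s t)
    (hs : Sd U V (pt V r) a b) : ∀ y, dist y V = 1 → T y = {a, b} →
      ∀ᶠ x in 𝓝 y, (b ∈ T x → 1 ≤ dist x V) ∧ (a ∈ T x → dist x V ≤ 1) := by
  intro y hy hT
  obtain ⟨w, hw, rfl⟩ := hall y hy hT
  exact inn_of_sd h (sd_const h hV hst hA hr hs w hw)

/-- an exact arc does not join the borders `ac` and `bd` -/
theorem no_join169 (h : Irr U T) (hV : DPt T V a b c d) {s t : ℝ} (hst : s < t)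
    (hts : t ≤ s + 1) (hA : ∀ w ∈ Ioo s t, T (pt V w) = {a, b})
    (hall : ∀ y, dist y V = 1 → T y = {a, b} → y ∈ pt V '' Icc s t)
    (h1 : DPt T (pt V s) a c b g) (h2 : DPt T (pt V t) b d a g') : False := by
  have c1 : c ∈ T (pt V s) := by rw [h1.pal]; simp
  have d2 : d ∈ T (pt V t) := by rw [h2.pal]; simp
  have n1 : c ≠ g := h1.bd
  have n2 : d ≠ g' := h2.bd
  rcases h.sides hV (dist_pt V s) with hs | hs
  · rcases lk_ends h hV hst hts rfl rfl hA (inn_of h hV hst hA hall (left_mem_Icc.2 hst.le) hs)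
      h2.swap h1 with ⟨-, -, h3, -⟩ | ⟨h3, -⟩
    · exact n1 (h3 c1)
    · exact n2 (h3 d2)
  · have hA' : ∀ w ∈ Ioo s t, T (pt V w) = {b, a} := fun w hw => by rw [hA w hw, Set.pair_comm]
    have hall' : ∀ y, dist y V = 1 → T y = {b, a} → y ∈ pt V '' Icc s t := fun y h3 h4 =>
      hall y h3 (by rw [h4, Set.pair_comm])
    rcases lk_ends h hV.swap12 hst hts rfl rfl hA'
      (inn_of h hV.swap12 hst hA' hall' (left_mem_Icc.2 hst.le) hs) h2 h1.swap with
      ⟨-, h3, -⟩ | ⟨-, -, -, h3⟩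
    · exact n2 (h3 d2)
    · exact n1 (h3 c1)

/-- **the two ends of the arc are at borders of different types** -/
theorem WD.types (X : WD U T) (hV : DPt T V a b c d) {s t : ℝ} (hst : s < t)
    (hts : t ≤ s + 1) (hA : ∀ w ∈ Ioo s t, T (pt V w) = {a, b})
    (hall : ∀ y, dist y V = 1 → T y = {a, b} → y ∈ pt V '' Icc s t)
    (h1 : DPt T (pt V s) a c b g ∨ DPt T (pt V s) b d a g)
    (h2 : DPt T (pt V t) a c b g' ∨ DPt T (pt V t) b d a g') : False := by
  have hne := H800.pt_ne (V := V) hst hts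
  rcases h1 with h1 | h1 <;> rcases h2 with h2 | h2
  · exact hne (X.df.irr.border_uniq460 hV (dist_pt V s) (dist_pt V t) h1 h2)
  · exact no_join169 X.df.irr hV hst hts hA hall h1 h2
  · exact no_join169 X.df.irr hV.swap12.swap34 hst hts
      (fun w hw => by rw [hA w hw, Set.pair_comm])
      (fun y h3 h4 => hall y h3 (by rw [h4, Set.pair_comm])) h1 h2
  · exact hne (X.df.irr.border_uniq460 hV.swap12.swap34 (dist_pt V s) (dist_pt V t) h1 h2)

/-- an end of the arc is a two-pair point at a border -/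
theorem WD.end_split (X : WD U T) (hV : DPt T V a b c d) (hP : Pf T V a b)
    (hy : dist y V = 1) (h4 : 4 ≤ (T y).ncard) :
    ∃ g, (DPt T y a c b g ∨ DPt T y b d a g) ∨ (DPt T y a d b g ∨ DPt T y b c a g) := by
  rcases X.df.harm_or h4 with ⟨A, hA⟩ | ⟨p, q, r, s, hD⟩
  · exact (X.hh hV hP y (X.mem hV hP hy h4).1 A hA).elim
  · exact X.split hV hP hy hD

/-- **the record of a quasi-full point with a given second end** -/
theorem WD.mk' (X : WD U T) {Inv : ℂ → ℂ → Prop} {Y : ℂ} (hV : DPt T V a b c d)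
    (hP : Pf T V a b) (hY : dist Y V = 1) (hYD : DPt T Y a d b g ∨ DPt T Y c b a g)
    (hs : Sd U V Y a b) : ∃ e f W, QI T Inv V a b c d e f W Y := by
  obtain ⟨e, f, nd⟩ := hV.exists_nodup
  obtain ⟨s, t, hst, hts, hIoo, hall, h4s, h4t, hord⟩ := X.arc hV hP
  have hYD' : DPt T Y a d b g ∨ DPt T Y b c a g := hYD.imp_right DPt.swap12
  have hY4 : 4 ≤ (T Y).ncard := by
    rcases hYD with hD | hD <;> rw [hD.ncard]
  -- the record for the two ends `W`, `Y`
  have key : ∀ W, (W = pt V t ∧ Y = pt V s ∨ W = pt V s ∧ Y = pt V t) →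
      ((∃ g, DPt T W a c b g ∨ DPt T W b d a g)) → QI T Inv V a b c d e f W Y := by
    intro W hW hWD
    refine ⟨⟨nd, hV, ⟨s, t, hst, hts, hW, hIoo, hall⟩, ?_, ⟨g, hYD⟩, ?_⟩, ?_⟩
    · obtain ⟨g, hg⟩ := hWD
      exact ⟨g, hg.imp_right DPt.swap12⟩
    · intro y hy h4
      rcases hord y hy h4 with h1 | h1 <;> rcases hW with ⟨h2, h3⟩ | ⟨h2, h3⟩
      · exact Or.inr (Or.inl (h1.trans h3.symm))
      · exact Or.inl (h1.trans h2.symm)
      · exact Or.inl (h1.trans h2.symm)
      · exact Or.inr (Or.inl (h1.trans h3.symm))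
    · intro y hy hTy
      obtain ⟨r, hr, rfl⟩ := hall y hy hTy
      refine inn_of_sd X.df.irr ?_
      rcases hW with ⟨-, h3⟩ | ⟨-, h3⟩
      · exact sd_const X.df.irr hV hst hIoo (left_mem_Icc.2 hst.le) (h3 ▸ hs) r hr
      · exact sd_const X.df.irr hV hst hIoo (right_mem_Icc.2 hst.le) (h3 ▸ hs) r hr
  rcases hord Y hY hY4 with hYs | hYt
  · obtain ⟨g', hg' | hg'⟩ := X.end_split hV hP (dist_pt V t) h4t.1
    · exact ⟨e, f, pt V t, key _ (Or.inl ⟨rfl, hYs⟩) ⟨g', hg'⟩⟩
    · exact (X.types hV.swap34 hst hts hIoo hall (hYs ▸ hYD') hg').elim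
  · obtain ⟨g', hg' | hg'⟩ := X.end_split hV hP (dist_pt V s) h4s.1
    · exact ⟨e, f, pt V s, key _ (Or.inr ⟨rfl, hYt⟩) ⟨g', hg'⟩⟩
    · exact (X.types hV.swap34 hst hts hIoo hall hg' (hYt ▸ hYD')).elim

/-- existence of the record, for a pair without plain ends -/
theorem WD.exists_qi (X : WD U T) {Inv : ℂ → ℂ → Prop} (hV : DPt T V a b c d)
    (hP : Pf T V a b) : ∃ (a b m n e f : Fin 6) (V1 V2 : ℂ), QI T Inv V a b m n e f V1 V2 := by
  obtain ⟨s, t, hst, hts, hIoo, hall, h4s, h4t, hord⟩ := X.arc hV hP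
  have hd := dist_pt V s
  obtain ⟨g, hg⟩ := X.end_split hV hP hd h4s.1
  rcases X.df.irr.sides hV hd with hs | hs
  · rcases hg with hg | hg
    · obtain ⟨e, f, W, hQ⟩ := X.mk' (Inv := Inv) hV.swap34 hP hd (hg.imp_right DPt.swap12) hs
      exact ⟨_, _, _, _, _, _, _, _, hQ⟩
    · obtain ⟨e, f, W, hQ⟩ := X.mk' (Inv := Inv) hV hP hd (hg.imp_right DPt.swap12) hs
      exact ⟨_, _, _, _, _, _, _, _, hQ⟩
  · rcases hg with hg | hg
    · obtain ⟨e, f, W, hQ⟩ := X.mk' (Inv := Inv) (g := g) hV.swap12 (H800.Pf.symm hP) hd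
        (hg.symm.imp_right DPt.swap12) hs
      exact ⟨_, _, _, _, _, _, _, _, hQ⟩
    · obtain ⟨e, f, W, hQ⟩ := X.mk' (Inv := Inv) (g := g) hV.swap12.swap34 (H800.Pf.symm hP) hd
        (hg.symm.imp_right DPt.swap12) hs
      exact ⟨_, _, _, _, _, _, _, _, hQ⟩

/-- the pair of the border of a link is without plain ends, unless the other colour is in `T V` -/
theorem WD.pf_link (X : WD U T) (hV4 : 4 ≤ (T V).ncard) (hy : dist y V = 1)
    (hD : DPt T y a c b g) (hg : g ∉ T V) : Pf T y a c := by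
  rcases X.m hD with h1 | h1
  · exact h1
  · exact absurd (X.mem hD.swap h1 (by rw [dist_comm]; exact hy) hV4).2.2 hg

/-- **the link at the first end** -/
theorem WD.link (X : WD U T) {Inv : ℂ → ℂ → Prop} {m n e f : Fin 6} {V1 V2 : ℂ}
    (hQ : QI T Inv V a b m n e f V1 V2) : LinkI T Inv V a b m n V1 := by
  have hs := sd_of_qi X.df.irr hQ
  have hV := hQ.dpt
  have hV4 : 4 ≤ (T V).ncard := by rw [hV.ncard]
  have hd := hQ.dist1
  have hd' : dist V V1 = 1 := by rw [dist_comm]; exact hd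
  -- STAY
  have stay : ∀ g, DPt T V1 a m b g → Pf T V1 a m → LinkI T Inv V a b m n V1 := by
    intro g hD hP1
    obtain ⟨e', f', W, hQ1⟩ := X.mk' hD.swap34 hP1 hd' (Or.inl hV)
      (link_sd X.df.irr hV hd hD hs)
    exact ⟨g, e', f', W, Or.inl hQ1⟩
  -- SWITCH
  have switch : ∀ g, DPt T V1 n b a g → Pf T V1 n b → LinkI T Inv V a b m n V1 := by
    intro g hD hP1
    obtain ⟨e', f', W, hQ1⟩ := X.mk' hD hP1 hd' (Or.inr hV.swap34)
      (link_sd' X.df.irr hV.swap12.swap34 hd hD.swap12 hs)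
    exact ⟨g, e', f', W, Or.inr hQ1⟩
  obtain ⟨g, hD | hD⟩ := hQ.lk1
  · by_cases hg : g ∈ T V
    · have hgn : g = n := by
        rw [hV.pal] at hg
        rcases hg with rfl | rfl | rfl | hg
        · exact (hD.ad rfl).elim
        · exact (hD.cd rfl).elim
        · exact (hD.bd rfl).elim
        · exact hg
      subst hgn
      rcases X.m hD with h1 | h1
      · exact stay g hD h1
      · exact switch m hD.swap.swap12 (H800.Pf.symm h1)
    · exact stay g hD (X.pf_link hV4 hd hD hg)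
  · by_cases hg : g ∈ T V
    · have hgm : g = m := by
        rw [hV.pal] at hg
        rcases hg with rfl | rfl | hg | hg
        · exact (hD.cd rfl).elim
        · exact (hD.bd rfl).elim
        · exact hg
        · rw [mem_singleton_iff] at hg
          exact (hD.ad hg.symm).elim
      subst hgm
      rcases X.m hD with h1 | h1
      · exact switch g hD h1
      · exact stay n hD.swap.swap34 h1
    · exact switch g hD (H800.Pf.symm (X.pf_link hV4 hd hD.swap12 hg))

/-- **D4: the world of quasi-full points** -/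
theorem qiw_deg169 (X : WD U T) {Inv : ℂ → ℂ → Prop}
    (hI' : ∀ V y, Inv V y → ∀ a b c d, ¬ DPt T y a b c d) : QIW T Inv where
  qf := fun {V a b c d} hV => by
    rcases X.m hV with hP | hP
    · exact X.exists_qi hV hP
    · exact X.exists_qi hV.swap hP
  link := fun hQ => X.link hQ
  inv := fun {V y V1 V2 a b m n e f} h1 _ hQ _ _ => hI' V y h1 _ _ _ _ hQ.dpt

/-- D1 from `NoSplit` -/
theorem pf_of_split (h : Irr U T) (hS : ∀ z v q, dist v z = 1 → dist q z = 1 →
    (T z).ncard = 4 → (T v).ncard = 3 → (T q).ncard = 3 → ¬ T z ⊆ T v ∪ T q)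
    (hV : DPt T V a b c d) : Pf T V a b ∨ Pf T V c d := by
  by_contra hcon
  rw [not_or] at hcon
  obtain ⟨h1, h2⟩ := hcon
  unfold Pf at h1 h2
  push Not at h1 h2
  obtain ⟨v, hv, hv3, hvc⟩ := h1
  obtain ⟨q, hq, hq3, hqc⟩ := h2
  have k1 := closure_minimal XA_sub (EV_closed h) hvc
  have k2 := closure_minimal XA_sub (EV_closed h) hqc
  refine hS V v q hv hq (hV.ncard) hv3 hq3 fun i hi => ?_
  rw [hV.pal] at hi
  rcases hi with rfl | rfl | rfl | hi
  · exact Or.inl k1.2.1
  · exact Or.inl k1.2.2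
  · exact Or.inr k2.2.1
  · rw [mem_singleton_iff] at hi
    exact Or.inr (hi ▸ k2.2.2)

end Vale.Agent.P032.H169
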