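import Vale.Agent.P032.H484.Polys
import Vale.Agent.P032.H416.Props

/-!
# P032: tiles can be made pure

In the interior of a tile of the colour `g` (`H484/Tile.lean`) every point is in `U g`, but the
palettes `T` may have other colours there (the sets `U i` overlap).  Replace `T` by `{g}` there, for
all tiles at once.

* `PgI U T g n V α β O` : a tile (`Pg`) with two-pair points as vertices, `O j` outside.
* `exists_pure` : for `DF U T`, `NoComp T` there is `T'` with `DF U T'`, `NoComp T'` and `T' = {g}` in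
  the interior of all tiles of `T'`; the two-pair points of `T` and `T'` are the same.
-/

open Set Filter Topology Metric

noncomputable section

namespace Vale.Agent.P032.Six

open Vale.Agent.P032.H484

variable {U : Fin 6 → Set ℂ} {T : ℂ → Set (Fin 6)} {g g' : Fin 6} {n : ℕ} {V : ℤ → ℂ}
  {α β : ℤ → ℝ} {O : ℤ → Fin 6} {Q Q' : Set ℂ}

/-- a tile with two-pair points as vertices, the colours `O j` are outside -/
structure PgI (U : Fin 6 → Set ℂ) (T : ℂ → Set (Fin 6)) (g : Fin 6) (n : ℕ) (V : ℤ → ℂ)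
    (α β : ℤ → ℝ) (O : ℤ → Fin 6) : Prop extends Pg U T g n V α β O where
  dp : ∀ j, ∃ a b c d, DPt T (V j) a b c d
  ne : ∀ j, O j ≠ g
  inn : ∀ j y, dist y (V j) = 1 → T y = {g, O j} → ∀ᶠ w in 𝓝 y, O j ∈ T w → 1 ≤ dist w (V j)

/-- the set of the two-pair points -/
def DpS (T : ℂ → Set (Fin 6)) : Set ℂ := {z | ∃ a b c d, DPt T z a b c d}

/-- `Q` is a tile of the colour `g` -/
def IsT (U : Fin 6 → Set ℂ) (T : ℂ → Set (Fin 6)) (g : Fin 6) (Q : Set ℂ) : Prop :=
  ∃ n V α β O, PgI U T g n V α β O ∧ Q = Tl V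

theorem IsT.isPg (h : IsT U T g Q) : IsPg U T (DpS T) g Q := by
  obtain ⟨n, V, α, β, O, P, rfl⟩ := h
  exact ⟨n, V, α, β, O, P.toPg, P.dp, rfl⟩

theorem isT_dis (h : Irr U T) (P : IsT U T g Q) (P' : IsT U T g' Q') {x : ℂ} (hx : x ∈ Q)
    (hx' : x ∈ Q') : g = g' ∧ Q = Q' := isPg_dis h P.isPg P'.isPg hx hx'

theorem IsT.isClosed (P : IsT U T g Q) : IsClosed Q := P.isPg.isClosed

theorem IsT.int_sub (h : Irr U T) (P : IsT U T g Q) : interior Q ⊆ U g := by
  obtain ⟨n, V, α, β, O, P, rfl⟩ := P
  exact P.poly.tile_int h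

theorem IsT.frontier (h : Irr U T) (P : IsT U T g Q) {x : ℂ} (hx : x ∈ Q) (hx' : x ∉ interior Q) :
    g ∈ T x := by
  obtain ⟨n, V, α, β, O, P, rfl⟩ := P
  exact P.T_frontier h ⟨subset_closure hx, hx'⟩

/-- the tiles are locally finite -/
theorem isT_lf (h : DF U T) (x : ℂ) : ∀ᶠ y in 𝓝 x, ∀ g Q, IsT U T g Q → y ∈ Q → x ∈ Q := by
  have h1 := isPg_lf (U := U) (T := T) (E := DpS T) h.irr (fun c r => by
    refine (h.fin c r).subset ?_
    rintro z ⟨hz, hz'⟩
    exact ⟨hz', hz⟩) x
  filter_upwards [h1] with y hy g Q hQ hyQ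
  exact hy g Q hQ.isPg hyQ

/-- no point of the interior of a tile on a circle has a colour of the centre -/
theorem IsT.off169 (h : Irr U T) (P : IsT U T g Q) {q z : ℂ} (hq : q ∈ interior Q)
    (hd : dist q z = 1) {i : Fin 6} (hi : i ∈ T q) (hz : z ∈ closure (U i)) : False := by
  have h1 : q ∈ U g := P.int_sub h hq
  have h2 : q ∉ XX U := fun hX => hX g h1
  exact h.mx.notMem' (h.off q h2 i hi) hd hz

/-- the points in the interior of a tile -/
def InT (U : Fin 6 → Set ℂ) (T : ℂ → Set (Fin 6)) (x : ℂ) : Prop :=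
  ∃ g Q, IsT U T g Q ∧ x ∈ interior Q

open Classical in
/-- the pure palettes -/
def pureT (U : Fin 6 → Set ℂ) (T : ℂ → Set (Fin 6)) (x : ℂ) : Set (Fin 6) :=
  if h : InT U T x then {h.choose} else T x

theorem pureT_of (h : Irr U T) (P : IsT U T g Q) {x : ℂ} (hx : x ∈ interior Q) :
    pureT U T x = {g} := by
  have h1 : InT U T x := ⟨g, Q, P, hx⟩
  obtain ⟨Q', hQ', hx'⟩ := h1.choose_spec
  have h2 := (isT_dis h hQ' P (interior_subset hx') (interior_subset hx)).1
  unfold pureT
  rw [dif_pos h1, h2]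

theorem pureT_off {x : ℂ} (hx : ¬ InT U T x) : pureT U T x = T x := by
  unfold pureT
  rw [dif_neg hx]

theorem pureT_single (h : Irr U T) {x : ℂ} (hx : InT U T x) : ∃ g, pureT U T x = {g} := by
  obtain ⟨g, Q, P, hxQ⟩ := hx
  exact ⟨g, pureT_of h P hxQ⟩

theorem pureT_card (h : Irr U T) {x : ℂ} (hx : 2 ≤ (pureT U T x).ncard) :
    ¬ InT U T x ∧ pureT U T x = T x := by
  have h1 : ¬ InT U T x := by
    intro h1
    obtain ⟨g, hg⟩ := pureT_single h h1
    rw [hg, Set.ncard_singleton] at hx
    omega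
  exact ⟨h1, pureT_off h1⟩

/-- outside the middle of an arc only the outer colour -/
theorem PgI.outer (h : Irr U T) (P : PgI U T g n V α β O) (j : ℤ) {t : ℝ}
    (ht : t ∈ uIoo (α j) (β j)) :
    ∀ᶠ w in 𝓝 (V j + cis t), 1 < dist w (V j) → w ∈ U (O j) := by
  have hy : V j + cis t ∈ Tl V := P.poly.arc_mem h j (uIoo_sub_uIcc ht)
  filter_upwards [P.poly.near_memT h hy, ev_sub h (V j + cis t)] with w h1 h2 h3
  rw [P.ex j t ht] at h2
  refine h.mem_of_single fun i hi => ?_
  rcases h2 hi with rfl | h4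
  · have := h1 hi j
    linarith
  · exact h4

theorem norm_sqP169 (z : ℂ) : ‖z‖ ^ 2 = z.re ^ 2 + z.im ^ 2 := by
  rw [Complex.sq_norm, Complex.normSq_apply]; ring

/-- near a vertex `V j` the colour `O j` is not in the interior of the tile -/
theorem PgI.vertex_off (h : Irr U T) (P : PgI U T g n V α β O) (j : ℤ) :
    ∀ᶠ w in 𝓝 (V j), O j ∈ T w → w ∉ interior (Tl V) := by
  obtain ⟨t, ht⟩ := exists_mem_uIoo (P.poly.ne j)
  have hy : V j + cis t ∈ Tl V := P.poly.arc_mem h j (uIoo_sub_uIcc ht)
  have hc : Tendsto (fun w : ℂ => V j + cis t + (w - V j)) (𝓝 (V j)) (𝓝 (V j + cis t)) := by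
    have h1 : Continuous fun w : ℂ => V j + cis t + (w - V j) := by fun_prop
    have h2 := h1.tendsto (V j)
    simpa using h2
  filter_upwards [hc.eventually (P.outer h j ht)] with w hw hO hwi
  -- the translate is outside
  have h1 : dist w (V j + cis t) < 1 := P.poly.int_lt h hwi hy
  have hn : ‖cis t‖ = 1 := norm_cis t
  obtain ⟨u, hu⟩ : ∃ u, u = w - V j := ⟨_, rfl⟩
  have e1 : w - (V j + cis t) = u - cis t := by rw [hu]; ring
  rw [dist_eq_norm, e1] at h1
  have h2 : 1 < dist (V j + cis t + (w - V j)) (V j) := by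
    rw [dist_eq_norm, show V j + cis t + (w - V j) - V j = cis t + u by rw [hu]; ring]
    have k1 := norm_sqP169 (u - cis t)
    have k2 := norm_sqP169 (cis t + u)
    have k3 := norm_sqP169 (cis t)
    rw [hn] at k3
    simp only [Complex.sub_re, Complex.sub_im, Complex.add_re, Complex.add_im] at k1 k2
    have k4 : ‖u - cis t‖ ^ 2 < 1 := by
      have := norm_nonneg (u - cis t)
      nlinarith
    have k5 : 1 < ‖cis t + u‖ ^ 2 := by
      rw [k2]
      rw [k1] at k4
      nlinarith [sq_nonneg u.re, sq_nonneg u.im]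
    by_contra hcon
    push Not at hcon
    have := norm_nonneg (cis t + u)
    nlinarith
  have h3 := hw h2
  refine h.mx.notMem' h3 (y := w) ?_ (h.sub w hO)
  rw [dist_eq_norm, show V j + cis t + (w - V j) - w = cis t by ring, hn]

/-- **purity from outside**: at a point of the frontier every other colour occurs alone outside the
interior of the tile -/
theorem PgI.freq_out (h : Irr U T) (P : PgI U T g n V α β O) {x : ℂ}
    (hx : x ∈ frontier (Tl V)) {i : Fin 6} (hi : i ∈ T x) (hig : i ≠ g) :
    x ∈ closure {w | T w = {i} ∧ w ∉ interior (Tl V)} := by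
  -- open arcs
  have harc : ∀ j, ∀ t ∈ uIoo (α j) (β j),
      V j + cis t ∈ closure {w | T w = {O j} ∧ w ∉ interior (Tl V)} := by
    intro j t ht
    have h1 : T (V j + cis t) = {g, O j} := P.ex j t ht
    have h2 : ∃ᶠ w in 𝓝 (V j + cis t), T w = {O j} := h.pure _ _ (by rw [h1]; simp)
    have h3 := P.inn j _ (dist_add_cis _ _) h1
    rw [mem_closure_iff_frequently]
    refine (h2.and_eventually h3).mono fun w hw => ⟨hw.1, fun hwi => ?_⟩
    have h4 := hw.2 (by rw [hw.1]; rfl)
    have h5 := P.poly.int_lt_vertex h hwi j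
    linarith
  -- closed arcs
  have hcl : ∀ j, ∀ t ∈ uIcc (α j) (β j),
      V j + cis t ∈ closure {w | T w = {O j} ∧ w ∉ interior (Tl V)} := by
    intro j t ht
    have hc : Continuous fun s : ℝ => V j + cis s := continuous_const.add continuous_cis
    have h1 : closure (uIoo (α j) (β j)) ⊆
        (fun s : ℝ => V j + cis s) ⁻¹' closure {w | T w = {O j} ∧ w ∉ interior (Tl V)} :=
      closure_minimal (fun s hs => harc j s hs) (isClosed_closure.preimage hc)
    rw [closure_uIoo' (P.poly.ne j)] at h1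
    exact h1 ht
  -- vertices
  have hver : ∀ j, ∀ i ∈ T (V j), i ≠ g →
      V j ∈ closure {w | T w = {i} ∧ w ∉ interior (Tl V)} := by
    intro j i hi hig
    rcases P.pal j hi with h1 | h1 | h1 | h1
    · exact absurd h1 hig
    · subst h1
      have h2 : ∃ᶠ w in 𝓝 (V j), T w = {O j} := h.pure _ _ hi
      rw [mem_closure_iff_frequently]
      exact (h2.and_eventually (P.vertex_off h j)).mono fun w hw =>
        ⟨hw.1, hw.2 (by rw [hw.1]; rfl)⟩
    · subst h1
      have h2 := hcl (j + 1) (α (j + 1)) left_mem_uIcc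
      rwa [P.poly.left (j + 1), add_sub_cancel_right] at h2
    · rw [mem_singleton_iff] at h1
      subst h1
      have h2 := hcl (j - 1) (β (j - 1)) right_mem_uIcc
      rwa [P.poly.right (j - 1), sub_add_cancel] at h2
  obtain ⟨j, hj⟩ := P.on_arc h hx
  obtain ⟨t, ht, rfl⟩ := hj
  change i ∈ T (V j + cis t) at hi
  change V j + cis t ∈ _
  by_cases h1 : t = α j
  · rw [h1, P.poly.left j] at hi ⊢
    exact hver _ i hi hig
  by_cases h2 : t = β j
  · rw [h2, P.poly.right j] at hi ⊢
    exact hver _ i hi hig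
  have ht' : t ∈ uIoo (α j) (β j) := by
    rcases le_total (α j) (β j) with h3 | h3
    · rw [uIcc_of_le h3] at ht
      rw [uIoo_of_le h3]
      exact ⟨lt_of_le_of_ne ht.1 (Ne.symm h1), lt_of_le_of_ne ht.2 h2⟩
    · rw [uIcc_of_ge h3] at ht
      rw [uIoo_of_ge h3]
      exact ⟨lt_of_le_of_ne ht.1 (Ne.symm h2), lt_of_le_of_ne ht.2 h1⟩
  have h3 := P.ex j t ht'
  rw [h3] at hi
  rcases hi with hi | hi
  · exact absurd hi hig
  · rw [mem_singleton_iff] at hi
    subst hi
    exact harc j t ht'

/-- **the pure palettes are irredundant** -/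
theorem irr_pure (h : DF U T) : Irr U (pureT U T) where
  mx := h.irr.mx
  max := h.irr.max
  closed := by
    intro i
    rw [← isOpen_compl_iff, isOpen_iff_mem_nhds]
    intro x hx
    have hx : i ∉ pureT U T x := hx
    by_cases hI : InT U T x
    · obtain ⟨g, Q, P, hxQ⟩ := hI
      rw [pureT_of h.irr P hxQ] at hx
      filter_upwards [isOpen_interior.mem_nhds hxQ] with y hy
      show i ∉ pureT U T y
      rw [pureT_of h.irr P hy]
      exact hx
    · rw [pureT_off hI] at hx
      filter_upwards [(h.irr.closed i).isOpen_compl.mem_nhds hx, isT_lf h x] with y hy hlf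
      show i ∉ pureT U T y
      by_cases hIy : InT U T y
      · obtain ⟨g, Q, P, hyQ⟩ := hIy
        rw [pureT_of h.irr P hyQ]
        rintro rfl
        have h1 := hlf _ Q P (interior_subset hyQ)
        exact hx (P.frontier h.irr h1 fun h2 => hI ⟨_, Q, P, h2⟩)
      · rw [pureT_off hIy]
        exact hy
  ne := by
    intro x
    by_cases hI : InT U T x
    · obtain ⟨g, hg⟩ := pureT_single h.irr hI
      rw [hg]; exact singleton_nonempty g
    · rw [pureT_off hI]; exact h.irr.ne x
  sub := by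
    intro x
    by_cases hI : InT U T x
    · obtain ⟨g, Q, P, hxQ⟩ := hI
      rw [pureT_of h.irr P hxQ]
      rintro i hi
      rw [mem_singleton_iff] at hi
      subst hi
      exact subset_closure (P.int_sub h.irr hxQ)
    · rw [pureT_off hI]; exact h.irr.sub x
  off := by
    intro x hX i hi
    by_cases hI : InT U T x
    · obtain ⟨g, Q, P, hxQ⟩ := hI
      rw [pureT_of h.irr P hxQ, mem_singleton_iff] at hi
      subst hi
      exact P.int_sub h.irr hxQ
    · rw [pureT_off hI] at hi; exact h.irr.off x hX i hi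
  pure := by
    intro x i hi
    by_cases hI : InT U T x
    · obtain ⟨g, Q, P, hxQ⟩ := hI
      rw [pureT_of h.irr P hxQ, mem_singleton_iff] at hi
      subst hi
      have h1 : ∀ᶠ w in 𝓝 x, pureT U T w = {i} := by
        filter_upwards [isOpen_interior.mem_nhds hxQ] with y hy
        exact pureT_of h.irr P hy
      exact h1.frequently
    · rw [pureT_off hI] at hi
      by_cases hT : ∃ g Q, IsT U T g Q ∧ x ∈ Q
      · obtain ⟨g, Q, hQ, hxQ⟩ := hT
        have hxi : x ∉ interior Q := fun h1 => hI ⟨g, Q, hQ, h1⟩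
        -- near `x` only this tile
        have hnear : ∀ᶠ y in 𝓝 x, InT U T y → y ∈ interior Q := by
          filter_upwards [isT_lf h x] with y hy hIy
          obtain ⟨g', Q', hQ', hyQ'⟩ := hIy
          have h1 := hy g' Q' hQ' (interior_subset hyQ')
          rw [(isT_dis h.irr hQ hQ' hxQ h1).2]
          exact hyQ'
        obtain ⟨n, V, α, β, O, P, rfl⟩ := hQ
        by_cases hig : i = g
        · subst hig
          have h1 : x ∈ closure (interior (Tl V)) := by
            rw [P.poly.closure_interior h.irr (P.poly.int_nonempty h.irr)]; exact hxQ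
          refine (mem_closure_iff_frequently.1 h1).mono fun w hw => ?_
          exact pureT_of h.irr ⟨n, V, α, β, O, P, rfl⟩ hw
        · have h1 := P.freq_out h.irr ⟨subset_closure hxQ, hxi⟩ hi hig
          refine ((mem_closure_iff_frequently.1 h1).and_eventually hnear).mono fun w hw => ?_
          rw [pureT_off fun hIw => hw.1.2 (hw.2 hIw)]
          exact hw.1.1
      · push Not at hT
        have h1 : ∀ᶠ y in 𝓝 x, pureT U T y = T y := by
          filter_upwards [isT_lf h x] with y hy
          refine pureT_off fun hIy => ?_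
          obtain ⟨g, Q, P, hyQ⟩ := hIy
          exact hT g Q P (hy g Q P (interior_subset hyQ))
        refine ((h.irr.pure x i hi).and_eventually h1).mono fun w hw => ?_
        rw [hw.2]; exact hw.1

/-- a two-pair point is in the interior of no tile -/
theorem dpt_off (h : Irr U T) {z : ℂ} {a b c d : Fin 6} (hz : DPt T z a b c d) :
    ¬ InT U T z := by
  rintro ⟨g, Q, P, hzQ⟩
  obtain ⟨p, hp, hpJ⟩ := hz.arc1
  have h1 : T p = {a, b} := hpJ.self_of_nhdsWithin hp
  refine P.off169 h hzQ (z := p) (by rw [dist_comm]; exact hp) (i := a) (by rw [hz.pal]; simp) ?_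
  exact h.sub p (by rw [h1]; simp)

/-- near a point of the circle of a point with a colour of both outside the interiors -/
theorem off_circle (h : Irr U T) {q z : ℂ} (hd : dist q z = 1) {i : Fin 6} (hi : i ∈ T q)
    (hz : z ∈ closure (U i)) : ¬ InT U T q := by
  rintro ⟨g, Q, P, hqQ⟩
  exact P.off169 h hqQ hd hi hz

theorem dpt_pure (h : Irr U T) {z : ℂ} {a b c d : Fin 6} (hz : DPt T z a b c d) :
    DPt (pureT U T) z a b c d := by
  have h0 := pureT_off (dpt_off h hz)
  have key : ∀ {a b : Fin 6}, a ∈ T z → (∃ p, Arc T z p {a, b}) → ∃ p, Arc (pureT U T) z p {a, b} := by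
    rintro a b ha ⟨p, hp, hpJ⟩
    refine ⟨p, hp, ?_⟩
    filter_upwards [hpJ, self_mem_nhdsWithin] with q hq hqs
    rw [pureT_off (off_circle h (q := q) (z := z) hqs (i := a) (by rw [hq]; simp) (h.sub z ha))]
    exact hq
  exact ⟨h0.trans hz.pal, hz.ac, hz.ad, hz.bc, hz.bd, hz.ab, hz.cd,
    key (by rw [hz.pal]; simp) hz.arc1, key (by rw [hz.pal]; simp) hz.arc2⟩

theorem dpt_of_pure (h : Irr U T) {z : ℂ} {a b c d : Fin 6} (hz : DPt (pureT U T) z a b c d) :
    DPt T z a b c d := by
  have hcard : (pureT U T z).ncard = 4 := by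
    rw [hz.pal, Set.ncard_insert_of_notMem (by simp [hz.ab, hz.ac, hz.ad]),
      Set.ncard_insert_of_notMem (by simp [hz.bc, hz.bd]), Set.ncard_pair hz.cd]
  have h0 := (pureT_card h (x := z) (by omega)).2
  have key : ∀ {a b : Fin 6}, a ≠ b → (∃ p, Arc (pureT U T) z p {a, b}) → ∃ p, Arc T z p {a, b} := by
    rintro a b hab ⟨p, hp, hpJ⟩
    refine ⟨p, hp, ?_⟩
    filter_upwards [hpJ] with q hq
    rw [← (pureT_card h (x := q) (by rw [hq, Set.ncard_pair hab])).2]
    exact hq
  exact ⟨h0.symm.trans hz.pal, hz.ac, hz.ad, hz.bc, hz.bd, hz.ab, hz.cd, key hz.ab hz.arc1,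
    key hz.cd hz.arc2⟩

/-- **the frame `DF` for the pure palettes** -/
theorem df_pure (h : DF U T) : DF U (pureT U T) where
  irr := irr_pure h
  mn := by
    intro z hz s hs hne
    have h0 := (pureT_card h.irr (x := z) (by omega)).2
    rw [h0] at hz hs hne
    exact h.mn z hz s hs hne
  le4 := by
    intro z
    by_cases hI : InT U T z
    · obtain ⟨g, hg⟩ := pureT_single h.irr hI
      rw [hg, Set.ncard_singleton]; norm_num
    · rw [pureT_off hI]; exact h.le4 z
  fin := by
    intro c R
    refine (h.fin c R).subset ?_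
    rintro z ⟨hz, a, b, c', d, hD⟩
    exact ⟨hz, a, b, c', d, dpt_of_pure h.irr hD⟩

theorem noComp_pure (h : Irr U T) (hN : NoComp T) : NoComp (pureT U T) := by
  intro z hz v q hv hq hv3 hqv
  have h1 := (pureT_card h (x := z) (by omega)).2
  have h2 := (pureT_card h (x := v) (by omega)).2
  have h3 : (pureT U T q).ncard = 3 := by
    have h4 := Set.ncard_add_ncard_compl (pureT U T v)
    rw [hqv]
    rw [Nat.card_eq_fintype_card, Fintype.card_fin] at h4
    omega
  have h4 := (pureT_card h (x := q) (by omega)).2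
  rw [h1] at hz
  rw [h2] at hv3 hqv
  rw [h4] at hqv
  exact hN z hz v q hv hq hv3 hqv

/-- **the tiles of the pure palettes are tiles** -/
theorem isT_of_pure (h : DF U T) (P : PgI U (pureT U T) g n V α β O) : PgI U T g n V α β O := by
  have hi := irr_pure h
  have hn2 : ∀ j, (({g, O j} : Set (Fin 6))).ncard = 2 := fun j =>
    Set.ncard_pair (P.ne j).symm
  have hg : ∀ j, V j ∈ closure (U g) := fun j => P.poly.tile_pal hi _ (P.poly.mem_tl hi j)
  refine ⟨⟨P.poly, ?_, ?_, ?_⟩, ?_, P.ne, ?_⟩
  · intro j t ht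
    have h1 := P.ex j t ht
    rw [← (pureT_card h.irr (x := V j + cis t) (by rw [h1, hn2])).2]
    exact h1
  · intro j q hq hT
    have h1 : ¬ InT U T q := off_circle h.irr hq (i := g) (by rw [hT]; simp) (hg j)
    exact P.only j q hq (by rw [pureT_off h1]; exact hT)
  · intro j
    obtain ⟨a, b, c, d, hD⟩ := P.dp j
    have h1 := P.pal j
    rwa [pureT_off (dpt_off h.irr (dpt_of_pure h.irr hD))] at h1
  · intro j
    obtain ⟨a, b, c, d, hD⟩ := P.dp j
    exact ⟨a, b, c, d, dpt_of_pure h.irr hD⟩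
  · intro j y hy hT
    have h1 : ¬ InT U T y := off_circle h.irr hy (i := g) (by rw [hT]; simp) (hg j)
    have h2 := P.inn j y hy (by rw [pureT_off h1]; exact hT)
    by_cases hQ : ∃ g' Q, IsT U T g' Q ∧ y ∈ Q
    · obtain ⟨g', Q, hQ, hyQ⟩ := hQ
      have hyi : y ∉ interior Q := fun h3 => h1 ⟨g', Q, hQ, h3⟩
      have hnear : ∀ᶠ w in 𝓝 y, InT U T w → w ∈ interior Q := by
        filter_upwards [isT_lf h y] with w hw hIw
        obtain ⟨g'', Q'', hQ'', hwQ''⟩ := hIw
        have h3 := hw g'' Q'' hQ'' (interior_subset hwQ'')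
        rw [(isT_dis h.irr hQ hQ'' hyQ h3).2]
        exact hwQ''
      obtain ⟨n', V', α', β', O', P', rfl⟩ := hQ
      obtain ⟨i, hi'⟩ := P'.on_arc h.irr ⟨subset_closure hyQ, hyi⟩
      obtain ⟨t, ht, hyt⟩ := hi'
      change V' i + cis t = y at hyt
      -- `y` is in the open arc
      have hT' : T y = {g', O' i} := by
        have h4 : ∀ m, (T (V' m)).ncard = 4 := fun m => by
          obtain ⟨a, b, c, d, hD⟩ := P'.dp m
          rw [hD.pal, Set.ncard_insert_of_notMem (by simp [hD.ab, hD.ac, hD.ad]),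
            Set.ncard_insert_of_notMem (by simp [hD.bc, hD.bd]), Set.ncard_pair hD.cd]
        have h5 : (T y).ncard = 2 := by rw [hT, hn2]
        have n1 : t ≠ α' i := by
          rintro rfl
          rw [P'.poly.left i] at hyt
          rw [← hyt, h4] at h5
          omega
        have n2 : t ≠ β' i := by
          rintro rfl
          rw [P'.poly.right i] at hyt
          rw [← hyt, h4] at h5
          omega
        have ht' : t ∈ uIoo (α' i) (β' i) := by
          rcases le_total (α' i) (β' i) with h3 | h3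
          · rw [uIcc_of_le h3] at ht
            rw [uIoo_of_le h3]
            exact ⟨lt_of_le_of_ne ht.1 (Ne.symm n1), lt_of_le_of_ne ht.2 n2⟩
          · rw [uIcc_of_ge h3] at ht
            rw [uIoo_of_ge h3]
            exact ⟨lt_of_le_of_ne ht.1 (Ne.symm n2), lt_of_le_of_ne ht.2 n1⟩
        rw [← hyt]
        exact P'.ex i t ht'
      have h6 := P'.inn i y (by rw [← hyt]; exact dist_add_cis _ _) hT'
      filter_upwards [h2, hnear, h6, ev_sub h.irr y] with w w1 w2 w3 w4 hO
      by_cases hIw : InT U T w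
      · have h7 := w2 hIw
        have h8 := P'.poly.int_lt_vertex h.irr h7 i
        have h9 : O j = g' := by
          have h10 := w4 hO
          rw [hT'] at h10
          rcases h10 with h10 | h10
          · exact h10
          · rw [mem_singleton_iff] at h10
            rw [h10] at hO
            have := w3 hO
            linarith
        refine w1 ?_
        rw [pureT_of h.irr ⟨n', V', α', β', O', P', rfl⟩ h7, h9]
        rfl
      · exact w1 (by rw [pureT_off hIw]; exact hO)
    · have hnear : ∀ᶠ w in 𝓝 y, ¬ InT U T w := by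
        filter_upwards [isT_lf h y] with w hw hIw
        obtain ⟨g', Q, P', hwQ⟩ := hIw
        exact hQ ⟨g', Q, P', hw g' Q P' (interior_subset hwQ)⟩
      filter_upwards [h2, hnear] with w w1 w2 hO
      exact w1 (by rw [pureT_off w2]; exact hO)

/-- **pure palettes exist** -/
theorem exists_pure (h : DF U T) (hN : NoComp T) : ∃ T', DF U T' ∧ NoComp T' ∧
    (∀ g n V α β O, PgI U T' g n V α β O → ∀ x ∈ interior (Tl V), T' x = {g}) ∧
    ∀ z a b c d, DPt T z a b c d ↔ DPt T' z a b c d := by
  refine ⟨pureT U T, df_pure h, noComp_pure h.irr hN, fun g n V α β O P x hx => ?_,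
    fun z a b c d => ⟨dpt_pure h.irr, dpt_of_pure h.irr⟩⟩
  exact pureT_of h.irr ⟨n, V, α, β, O, isT_of_pure h P, rfl⟩ hx

end Vale.Agent.P032.Six
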