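import Vale.Agent.P032.H169.Chain

/-!
# P032: the parity lemma avoids removable points

`Rem169 T e f u` : `u` has arbitrarily small open neighbourhoods with no point of both colours `e`, `f`
on the boundary.

* `Par.refine` : the point of the parity lemma can be chosen not removable (or on the circle).
* `Irr.rem_of_arc` : `e, f ∈ T u` and an exact `ef`-arc on `S(u)`: `u` is removable.
-/

open Set Filter Topology Metric

noncomputable section

namespace Vale.Agent.P032.Six

variable {k : ℕ} {U : Fin k → Set ℂ} {T : ℂ → Set (Fin k)}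

/-- removable points for the colours `e`, `f` -/
def Rem169 (T : ℂ → Set (Fin k)) (e f : Fin k) (u : ℂ) : Prop :=
  ∀ B ∈ 𝓝 u, ∃ N, IsOpen N ∧ u ∈ N ∧ closure N ⊆ B ∧ ∀ w ∈ frontier N, ¬ (e ∈ T w ∧ f ∈ T w)

/-- the refined parity statement -/
def ParR169 (T : ℂ → Set (Fin k)) (z : ℂ) (e f : Fin k) : Prop :=
  ∀ T' : ℂ → Set (Fin k), (∀ i, IsClosed {x | i ∈ T' x}) → (∀ x, (T' x).Nonempty) →
    (∀ q, dist q z = 1 → T' q = T q) →
    ∃ u x, dist u z ≤ 1 ∧ e ∈ T' u ∧ f ∈ T' u ∧ x ≠ e ∧ x ≠ f ∧ InnO T' z u x ∧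
      (dist u z < 1 → ¬ Rem169 T' e f u)

/-- **refined parity** -/
theorem Par.refine {z : ℂ} {e f x0 : Fin k} (hP : Par T z e f) (h0e : x0 ≠ e) (h0f : x0 ≠ f) :
    ParR169 T z e f := by
  intro T' hcl hne hag
  by_contra hcon
  push Not at hcon
  -- the compact set of the candidates
  set K : Set ℂ := closedBall z 1 ∩ ({w | e ∈ T' w} ∩ ({w | f ∈ T' w} ∩
    ⋃ x ∈ {x : Fin k | x ≠ e ∧ x ≠ f}, {u | InnO T' z u x})) with hK
  have hKc : IsCompact K := by
    refine (isCompact_closedBall z 1).inter_right ((hcl e).inter ((hcl f).inter ?_))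
    refine Set.Finite.isClosed_biUnion (Set.toFinite _) fun x _ => ?_
    exact isClosed_closure
  have hKm : ∀ {u}, u ∈ K → dist u z < 1 ∧ Rem169 T' e f u := by
    rintro u ⟨h1, h2, h3, h4⟩
    obtain ⟨x, hx, h5⟩ := mem_iUnion₂.1 h4
    exact hcon u x h1 h2 h3 hx.1 hx.2 h5
  -- a finite cover by good neighbourhoods
  have hN : ∀ u ∈ K, ∃ N, IsOpen N ∧ u ∈ N ∧ closure N ⊆ ball z 1 ∧
      ∀ w ∈ frontier N, ¬ (e ∈ T' w ∧ f ∈ T' w) := fun u hu =>
    (hKm hu).2 (ball z 1) (isOpen_ball.mem_nhds (hKm hu).1)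
  choose! N hNo hNu hNb hNf using hN
  obtain ⟨t, htK, hcov⟩ := hKc.elim_nhds_subcover N fun u hu => (hNo u hu).mem_nhds (hNu u hu)
  set M : Set ℂ := ⋃ u ∈ t, N u with hM
  have hMo : IsOpen M := isOpen_biUnion fun u hu => hNo u (htK u hu)
  have hMcl : closure M = ⋃ u ∈ t, closure (N u) := by
    rw [hM]; exact t.finite_toSet.closure_biUnion N
  have hMb : closure M ⊆ ball z 1 := by
    rw [hMcl]
    exact iUnion₂_subset fun u hu => hNb u (htK u hu)
  have hMf : ∀ w ∈ closure M, w ∉ M → ¬ (e ∈ T' w ∧ f ∈ T' w) := by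
    intro w hw hwM
    rw [hMcl] at hw
    obtain ⟨u, hu, hwu⟩ := mem_iUnion₂.1 hw
    refine hNf u (htK u hu) w ⟨hwu, fun h1 => hwM ?_⟩
    exact mem_iUnion₂.2 ⟨u, hu, interior_subset h1⟩
  -- the recoloured cover
  obtain ⟨u, x, h1, h2, h3, h4, h5, h6⟩ := hP
    (fun w => {i | (i ∈ T' w ∧ ((i = e ∨ i = f) → w ∉ M)) ∨ (i = x0 ∧ w ∈ closure M)})
    (fun i => by
      have e1 : {w | i ∈ {i | (i ∈ T' w ∧ ((i = e ∨ i = f) → w ∉ M)) ∨ (i = x0 ∧ w ∈ closure M)}} =
          ({w | i ∈ T' w} ∩ {w | (i = e ∨ i = f) → w ∉ M}) ∪ {w | i = x0 ∧ w ∈ closure M} := rfl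
      rw [e1]
      refine ((hcl i).inter ?_).union ?_
      · by_cases hi : i = e ∨ i = f
        · have : {w | (i = e ∨ i = f) → w ∉ M} = Mᶜ := by ext w; simp [hi]
          rw [this]; exact hMo.isClosed_compl
        · have : {w | (i = e ∨ i = f) → w ∉ M} = univ := by ext w; simp [hi]
          rw [this]; exact isClosed_univ
      · by_cases hi : i = x0
        · have : {w | i = x0 ∧ w ∈ closure M} = closure M := by ext w; simp [hi]
          rw [this]; exact isClosed_closure
        · have : {w | i = x0 ∧ w ∈ closure M} = ∅ := by ext w; simp [hi]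
          rw [this]; exact isClosed_empty)
    (fun w => by
      by_cases hw : w ∈ M
      · exact ⟨x0, Or.inr ⟨rfl, subset_closure hw⟩⟩
      · obtain ⟨i, hi⟩ := hne w
        exact ⟨i, Or.inl ⟨hi, fun _ => hw⟩⟩)
    (fun q hq => by
      have hqM : q ∉ closure M := fun h1 => by
        have := hMb h1
        rw [mem_ball, hq] at this
        exact lt_irrefl _ this
      rw [← hag q hq]
      ext i
      constructor
      · rintro (h1 | h1)
        · exact h1.1
        · exact absurd h1.2 hqM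
      · intro h1
        exact Or.inl ⟨h1, fun _ h2 => hqM (subset_closure h2)⟩)
  have he : e ∈ T' u ∧ u ∉ M := by
    rcases h2 with h2 | h2
    · exact ⟨h2.1, h2.2 (Or.inl rfl)⟩
    · exact absurd h2.1.symm h0e
  have hf : f ∈ T' u := by
    rcases h3 with h3 | h3
    · exact h3.1
    · exact absurd h3.1.symm h0f
  by_cases huM : u ∈ closure M
  · exact hMf u huM he.2 ⟨he.1, hf⟩
  · -- the third colour is a colour of `T'`
    have hin : InnO T' z u x := by
      have h7 : {w | dist w z < 1 ∧ x ∈ {i | (i ∈ T' w ∧ ((i = e ∨ i = f) → w ∉ M)) ∨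
          (i = x0 ∧ w ∈ closure M)}} ⊆ {w | dist w z < 1 ∧ x ∈ T' w} ∪ closure M := by
        rintro w ⟨h8, h9 | h9⟩
        · exact Or.inl ⟨h8, h9.1⟩
        · exact Or.inr h9.2
      have h8 := closure_mono h7 h6
      rw [closure_union, closure_closure] at h8
      exact h8.resolve_right huM
    have huK : u ∈ K := ⟨h1, he.1, hf, mem_iUnion₂.2 ⟨x, ⟨h4, h5⟩, hin⟩⟩
    exact he.2 (hcov huK)

/-- removability is local -/
theorem Rem169.congr {T T' : ℂ → Set (Fin k)} {e f : Fin k} {u : ℂ} (h : Rem169 T e f u)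
    (hT : ∀ᶠ w in 𝓝 u, T' w = T w) : Rem169 T' e f u := by
  intro B hB
  obtain ⟨N, h1, h2, h3, h4⟩ := h (B ∩ {w | T' w = T w}) (inter_mem hB hT)
  refine ⟨N, h1, h2, h3.trans inter_subset_left, fun w hw => ?_⟩
  have h5 : T' w = T w := (h3 (frontier_subset_closure hw)).2
  rw [h5]
  exact h4 w hw

/-- elementary: the chord through the middle of an arc separates its ends -/
theorem wedge_real169 {α β c s : ℝ} (hα : 0 < α) (hα1 : α < 1) (hab : α ^ 2 + β ^ 2 = 2 * α)
    (hcs : s ^ 2 + c ^ 2 = 1) (hc : 0 < c) (hc1 : c < 1) :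
    (2 * α - 2 * (α * c + β * s)) * (2 * α - 2 * (α * c - β * s)) < 0 := by
  have h1 : β ^ 2 = α * (2 - α) := by nlinarith
  have h2 : s ^ 2 = (1 - c) * (1 + c) := by nlinarith
  have h3 : (2 * α - 2 * (α * c + β * s)) * (2 * α - 2 * (α * c - β * s)) =
      4 * (α ^ 2 * (1 - c) ^ 2 - β ^ 2 * s ^ 2) := by ring
  rw [h3, h1, h2]
  have h4 : 4 * (α ^ 2 * (1 - c) ^ 2 - α * (2 - α) * ((1 - c) * (1 + c))) =
      -(8 * (α * (1 - c) * (1 + c - α))) := by ring
  rw [h4]
  have : 0 < α * (1 - c) * (1 + c - α) := by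
    apply mul_pos (mul_pos hα (by linarith)) (by linarith)
  linarith

theorem wedge_real2_169 {a b c s ε : ℝ} (hε : 0 < ε) (hε1 : ε ≤ 1) (hyy : ε ^ 2 = a ^ 2 + b ^ 2)
    (h0 : (a - 1) ^ 2 + (b - 0) ^ 2 = 1) (hsc : s ^ 2 + c ^ 2 = 1) (hc : 0 < c) (hc1 : c < 1) :
    ((a - c) ^ 2 + (b - s) ^ 2 - 1) * ((a - c) ^ 2 + (b - -s) ^ 2 - 1) < 0 := by
  have h3 : a ^ 2 + b ^ 2 = 2 * a := by linarith
  have hε2 : 0 < ε ^ 2 := pow_pos hε 2
  have hε3 : ε ^ 2 ≤ 1 := pow_le_one₀ hε.le hε1
  have key := wedge_real169 (α := a) (β := b) (c := c) (s := s) (by linarith) (by linarith) h3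
    hsc hc hc1
  have e1 : (a - c) ^ 2 + (b - s) ^ 2 - 1 = 2 * a - 2 * (a * c + b * s) := by linarith
  have e2 : (a - c) ^ 2 + (b - -s) ^ 2 - 1 = 2 * a - 2 * (a * c - b * s) := by linarith
  rw [e1, e2]
  exact key

/-- **a point whose circle carries an exact `ef`-arc is removable** -/
theorem Irr.rem_of_arc (h : Irr U T) {u g : ℂ} {e f : Fin k} (he : e ∈ T u) (hf : f ∈ T u)
    (hg : Arc T u g {e, f}) : Rem169 T e f u := by
  obtain ⟨t0, ht0⟩ := exists_cis (u := g - u) (by rw [← dist_eq_norm]; exact hg.1)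
  have hgt : g = u + cis t0 := by rw [← ht0]; ring
  subst hgt
  obtain ⟨η', hη', harc⟩ := hg.exists_eta
  -- a smaller angle
  obtain ⟨η, hη0, hηη, hη1⟩ : ∃ η : ℝ, 0 < η ∧ η < η' ∧ η ≤ 1 :=
    ⟨min (η' / 2) 1, by positivity, lt_of_le_of_lt (min_le_left _ _) (by linarith), min_le_right _ _⟩
  have hcos0 : 0 < Real.cos η :=
    Real.cos_pos_of_mem_Ioo ⟨by linarith [Real.pi_pos], by linarith [Real.pi_gt_three]⟩
  have hcos1 : Real.cos η < 1 := by
    have := Real.cos_lt_cos_of_nonneg_of_le_pi (x := 0) (y := η) le_rfl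
      (by linarith [Real.pi_gt_three]) hη0
    rwa [Real.cos_zero] at this
  -- crossing: `e` is absent at points whose circle separates the ends of the arc
  have hcross : ∀ w, w ≠ u → dist w u < 2 →
      (dist (u + cis (t0 + η)) w ^ 2 - 1) * (dist (u + cis (t0 - η)) w ^ 2 - 1) < 0 →
      e ∉ Pal U w := by
    intro w hwu hwu2 hneg hew
    have hcont : Continuous fun t : ℝ => dist (u + cis t) w ^ 2 - 1 :=
      (((continuous_const.add continuous_cis).dist continuous_const).pow 2).sub continuous_const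
    have hz : (0 : ℝ) ∈ uIcc (dist (u + cis (t0 - η)) w ^ 2 - 1)
        (dist (u + cis (t0 + η)) w ^ 2 - 1) := by
      rcases mul_neg_iff.1 hneg with ⟨h1, h2⟩ | ⟨h1, h2⟩
      · rw [uIcc_of_le (by linarith)]; exact ⟨h2.le, h1.le⟩
      · rw [uIcc_of_ge (by linarith)]; exact ⟨h1.le, h2.le⟩
    obtain ⟨t, ht, ht2⟩ := intermediate_value_uIcc (a := t0 - η) (b := t0 + η)
      hcont.continuousOn hz
    rw [uIcc_of_le (by linarith)] at ht
    have hd1 : dist (u + cis t) w = 1 := by
      have h1 : dist (u + cis t) w ^ 2 = 1 := by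
        have : dist (u + cis t) w ^ 2 - 1 = 0 := ht2
        linarith
      have h2 := dist_nonneg (x := u + cis t) (y := w)
      nlinarith
    have hev : ∀ᶠ q in 𝓝[sphere u 1] (u + cis t), e ∈ Pal U q := by
      have hTt : T (u + cis t) = {e, f} := harc t (by rw [abs_lt]; constructor <;> linarith [ht.1, ht.2])
      have h1 : ∀ᶠ q in 𝓝[sphere u 1] (u + cis t), T q ⊆ {e, f} := by
        filter_upwards [(h.nhd (u + cis t)).filter_mono nhdsWithin_le_nhds] with q hq
        rwa [hTt] at hq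
      filter_upwards [h1, self_mem_nhdsWithin] with q hq hqs
      by_contra hcon
      have h2 : T q ⊆ {f} := by
        intro i hi
        rcases hq hi with rfl | h3
        · exact absurd (h.sub q hi) hcon
        · exact h3
      exact h.mx.notMem' (h.mem_of_single h2) hqs (h.sub u hf)
    rcases h.mx.partner_line (dist_add_cis u t) hev hd1 hew with h1 | h1
    · exact hwu h1
    · have h2 : w - u = 2 * cis t := by linear_combination h1
      have h3 : dist w u = 2 := by
        rw [dist_eq_norm, h2, norm_mul, norm_cis, mul_one]; norm_num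
      linarith
  intro B hB
  obtain ⟨ε0, hε0, hball⟩ := Metric.mem_nhds_iff.1 hB
  obtain ⟨ε, hε, hεε, hε1⟩ : ∃ ε : ℝ, 0 < ε ∧ ε < ε0 ∧ ε ≤ 1 :=
    ⟨min (ε0 / 2) 1, by positivity, lt_of_le_of_lt (min_le_left _ _) (by linarith), min_le_right _ _⟩
  -- the compact part of the small circle off the wedge
  set Wd : Set ℂ := {w | (dist (u + cis (t0 + η)) w ^ 2 - 1) *
    (dist (u + cis (t0 - η)) w ^ 2 - 1) < 0} with hWd
  have hWo : IsOpen Wd := by
    have : Continuous fun w => (dist (u + cis (t0 + η)) w ^ 2 - 1) *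
        (dist (u + cis (t0 - η)) w ^ 2 - 1) :=
      (((continuous_const.dist continuous_id).pow 2).sub continuous_const).mul
        (((continuous_const.dist continuous_id).pow 2).sub continuous_const)
    exact isOpen_lt this continuous_const
  have hCc : IsCompact (sphere u ε \ Wd) := (isCompact_sphere u ε).diff hWo
  have hpos : ∀ w ∈ sphere u ε \ Wd, 0 < |dist w (u + cis t0) - 1| := by
    rintro w ⟨hw1, hw2⟩
    rw [abs_pos, sub_ne_zero]
    intro hw3
    apply hw2
    -- coordinates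
    set y := (w - u) * cis (-t0) with hy
    have hwy : w - u = y * cis t0 := by
      rw [hy, mul_assoc, ← cis_add169, neg_add_cancel, cis_zero169, mul_one]
    have hyn : ‖y‖ = ε := by
      have h1 : ‖w - u‖ = ε := by rw [← dist_eq_norm]; exact hw1
      rw [hwy, norm_mul, norm_cis, mul_one] at h1
      exact h1
    have hd : ∀ s : ℝ, dist (u + cis (t0 + s)) w ^ 2 = (y.re - Real.cos s) ^ 2 +
        (y.im - Real.sin s) ^ 2 := by
      intro s
      have e1 : w - (u + cis (t0 + s)) = (y - cis s) * cis t0 := by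
        rw [cis_add169]
        linear_combination hwy
      rw [dist_comm, dist_eq_norm, e1, norm_mul, norm_cis, mul_one, norm_sq169]
      simp only [Complex.sub_re, Complex.sub_im, cis_re, cis_im]
    have h0 := hd 0
    rw [add_zero, dist_comm, hw3, Real.cos_zero, Real.sin_zero] at h0
    have hyy := norm_sq169 y
    rw [hyn] at hyy
    have h1 := hd η
    have h2 := hd (-η)
    rw [Real.cos_neg, Real.sin_neg] at h2
    show (dist (u + cis (t0 + η)) w ^ 2 - 1) * (dist (u + cis (t0 - η)) w ^ 2 - 1) < 0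
    rw [sub_eq_add_neg t0 η, h1, h2]
    refine wedge_real2_169 hε hε1 hyy ?_ (Real.sin_sq_add_cos_sq η) hcos0 hcos1
    rw [← h0]; norm_num
  obtain ⟨m, hm, hmC⟩ : ∃ m > 0, ∀ w ∈ sphere u ε \ Wd, m ≤ |dist w (u + cis t0) - 1| := by
    rcases (sphere u ε \ Wd).eq_empty_or_nonempty with h1 | h1
    · exact ⟨1, one_pos, fun w hw => by rw [h1] at hw; exact absurd hw (notMem_empty w)⟩
    · obtain ⟨w0, hw0, hmin⟩ := hCc.exists_isMinOn h1 (f := fun w => |dist w (u + cis t0) - 1|)
        (by fun_prop)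
      exact ⟨_, hpos w0 hw0, fun w hw => hmin hw⟩
  -- pure points close to the arc on both sides
  have hnear : ∀ᶠ q in 𝓝 (u + cis t0), T q ⊆ {e, f} := by
    have := h.nhd (u + cis t0)
    rw [hg.mem] at this
    exact this
  obtain ⟨r1, hr1, hb1⟩ := Metric.eventually_nhds_iff.1 hnear
  have hpure : ∀ O : Set ℂ, IsOpen O → (O ∩ ball (u + cis t0) (min r1 m)).Nonempty →
      ∃ q ∈ O, dist q (u + cis t0) < m ∧ ∃ i, (i = e ∨ i = f) ∧ q ∈ U i := by
    rintro O hO ⟨x, hxO, hxb⟩
    obtain ⟨i, hi⟩ := h.ne x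
    obtain ⟨w, hwT, hwO⟩ := ((h.pure x i hi).and_eventually
      ((hO.inter isOpen_ball).mem_nhds ⟨hxO, hxb⟩)).exists
    have hwd : dist w (u + cis t0) < min r1 m := hwO.2
    have h1 := hb1 (lt_of_lt_of_le hwd (min_le_left _ _))
    rw [hwT] at h1
    refine ⟨w, hwO.1, lt_of_lt_of_le hwd (min_le_right _ _), i, ?_, h.mem_of_single (by rw [hwT])⟩
    simpa using h1 (mem_singleton i)
  have hmm : 0 < min r1 m := lt_min hr1 hm
  -- inside
  obtain ⟨q1, hq1, hq1m, i1, hi1, hq1U⟩ := hpure (ball u 1) isOpen_ball (by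
    set s := min (min r1 m / 2) (1 / 2) with hs
    have hs0 : 0 < s := by positivity
    refine ⟨u + ((1 - s : ℝ) : ℂ) * cis t0, ?_, ?_⟩
    · rw [mem_ball, dist_eq_norm, add_sub_cancel_left, norm_mul, norm_cis, mul_one,
        Complex.norm_real, Real.norm_of_nonneg (by linarith [min_le_right (min r1 m / 2) (1 / 2 : ℝ)])]
      linarith
    · rw [mem_ball, dist_eq_norm]
      have : u + ((1 - s : ℝ) : ℂ) * cis t0 - (u + cis t0) = -((s : ℝ) : ℂ) * cis t0 := by
        push_cast; ring
      rw [this, norm_mul, norm_cis, mul_one, norm_neg, Complex.norm_real,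
        Real.norm_of_nonneg hs0.le]
      exact lt_of_le_of_lt (min_le_left _ _) (by linarith))
  -- outside
  obtain ⟨q2, hq2, hq2m, i2, hi2, hq2U⟩ := hpure {x | 1 < dist x u}
    (isOpen_lt continuous_const (continuous_id.dist continuous_const)) (by
    set s := min r1 m / 2 with hs
    have hs0 : 0 < s := by positivity
    refine ⟨u + ((1 + s : ℝ) : ℂ) * cis t0, ?_, ?_⟩
    · show 1 < dist (u + ((1 + s : ℝ) : ℂ) * cis t0) u
      rw [dist_eq_norm, add_sub_cancel_left, norm_mul, norm_cis, mul_one,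
        Complex.norm_real, Real.norm_of_nonneg (by linarith)]
      linarith
    · rw [mem_ball, dist_eq_norm]
      have : u + ((1 + s : ℝ) : ℂ) * cis t0 - (u + cis t0) = ((s : ℝ) : ℂ) * cis t0 := by
        push_cast; ring
      rw [this, norm_mul, norm_cis, mul_one, Complex.norm_real, Real.norm_of_nonneg hs0.le]
      linarith)
  have hq2' : 1 < dist q2 u := hq2
  have hoff : ∀ q i, (i = e ∨ i = f) → q ∈ U i → ∀ w, dist q w = 1 → ¬ (e ∈ T w ∧ f ∈ T w) := by
    rintro q i hi hqU w hqw ⟨h1, h2⟩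
    rcases hi with rfl | rfl
    · exact h.mx.notMem' hqU hqw (h.sub w h1)
    · exact h.mx.notMem' hqU hqw (h.sub w h2)
  -- the neighbourhood
  refine ⟨ball u ε ∩ ({w | dist w q1 < 1} ∩ {w | 1 < dist w q2}), ?_, ?_, ?_, ?_⟩
  · exact isOpen_ball.inter ((isOpen_lt (continuous_id.dist continuous_const)
      continuous_const).inter (isOpen_lt continuous_const (continuous_id.dist continuous_const)))
  · refine ⟨mem_ball_self hε, ?_, ?_⟩
    · show dist u q1 < 1
      rw [dist_comm]; exact hq1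
    · show 1 < dist u q2
      rw [dist_comm]; exact hq2'
  · refine (closure_mono inter_subset_left).trans (closure_ball_subset_closedBall.trans ?_)
    exact (closedBall_subset_ball hεε).trans hball
  · intro w hw
    have hwcl := frontier_subset_closure hw
    have c1 : dist w u ≤ ε := by
      have := closure_mono (inter_subset_left (s := ball u ε)) hwcl
      exact mem_closedBall.1 (closure_ball_subset_closedBall this)
    have c2 : dist w q1 ≤ 1 := by
      have hcl : IsClosed {w : ℂ | dist w q1 ≤ 1} :=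
        isClosed_le (continuous_id.dist continuous_const) continuous_const
      refine closure_minimal (fun x hx => ?_) hcl hwcl
      have h1 : dist x q1 < 1 := hx.2.1
      exact h1.le
    have c3 : 1 ≤ dist w q2 := by
      have hcl : IsClosed {w : ℂ | 1 ≤ dist w q2} :=
        isClosed_le continuous_const (continuous_id.dist continuous_const)
      refine closure_minimal (fun x hx => ?_) hcl hwcl
      have h1 : 1 < dist x q2 := hx.2.2
      exact h1.le
    by_cases d2 : dist w q1 = 1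
    · exact hoff q1 i1 hi1 hq1U w (by rw [dist_comm]; exact d2)
    by_cases d3 : dist w q2 = 1
    · exact hoff q2 i2 hi2 hq2U w (by rw [dist_comm]; exact d3)
    have d1 : dist w u = ε := by
      by_contra hlt
      have hwin : w ∈ ball u ε ∩ ({w | dist w q1 < 1} ∩ {w | 1 < dist w q2}) :=
        ⟨lt_of_le_of_ne c1 hlt, lt_of_le_of_ne c2 d2, lt_of_le_of_ne c3 (Ne.symm d3)⟩
      have hopen : IsOpen (ball u ε ∩ ({w | dist w q1 < 1} ∩ {w | 1 < dist w q2})) :=
        isOpen_ball.inter ((isOpen_lt (continuous_id.dist continuous_const)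
          continuous_const).inter (isOpen_lt continuous_const
          (continuous_id.dist continuous_const)))
      rw [frontier, hopen.interior_eq] at hw
      exact hw.2 hwin
    have hWw : w ∈ Wd := by
      by_contra hnW
      have h1 := hmC w ⟨d1, hnW⟩
      have h2 : dist w (u + cis t0) < 1 + m := by
        have := dist_triangle w q1 (u + cis t0)
        linarith
      have h3 : 1 - m < dist w (u + cis t0) := by
        have := dist_triangle w (u + cis t0) q2
        rw [dist_comm (u + cis t0) q2] at this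
        linarith
      have h4 : |dist w (u + cis t0) - 1| < m := by
        rw [abs_lt]; constructor <;> linarith
      linarith
    rintro ⟨h1, -⟩
    refine hcross w ?_ (by linarith) hWw (h.sub w h1)
    rintro rfl
    rw [dist_self] at d1
    linarith

end Vale.Agent.P032.Six
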