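import Vale.Agent.P032.S5.H80.Ray

/-!
# P032: chains of rods

`Rods V ρ`: `V (i+1) = V i + (-1)^i cis (ρ i)`; the rod turns about `V (i+1)` from `ρ i` to
`ρ (i+1)`, `|ρ (i+1) - ρ i| ≤ π/3`.  `arcPt V i θ` is the moving end.

* `Rods.switch_false` : a closed chain with alternating orientations, whose moving ends of the same
  parity are at distance at most one, has two equal vertices of different parity.
* `Rods.stay_pt` : constant orientation; a point of all closed unit discs about the even vertices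
  which is on one of the circles is on the curve of the odd vertices.
-/

open Set Filter Topology Metric

noncomputable section

namespace Vale.Agent.P032.Six

/-- a chain of rods -/
structure Rods (V : ℕ → ℂ) (ρ : ℕ → ℝ) : Prop where
  edge : ∀ i, V (i + 1) = V i + (-1) ^ i * cis (ρ i)
  le : ∀ i, |ρ (i + 1) - ρ i| ≤ Real.pi / 3
  ne : ∀ i, ρ (i + 1) ≠ ρ i

/-- the moving end of the rod turning about `V (i+1)` -/
def arcPt (V : ℕ → ℂ) (i : ℕ) (θ : ℝ) : ℂ := V (i + 1) + (-1) ^ (i + 1) * cis θ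

theorem norm_npow169 (i : ℕ) (x : ℂ) : ‖(-1) ^ i * x‖ = ‖x‖ := by
  rw [norm_mul, norm_pow, norm_neg, norm_one, one_pow, one_mul]

theorem npow_sq169 (i : ℕ) : ((-1 : ℂ) ^ i) * (-1) ^ i = 1 := by
  rw [← mul_pow]; norm_num

theorem cis_add169 (s t : ℝ) : cis (s + t) = cis s * cis t := by
  rw [cis, cis, cis, ← Complex.exp_add]; congr 1; push_cast; ring

theorem cis_zero169 : cis 0 = 1 := by simp [cis]

theorem cis_add_pi169 (s : ℝ) : cis (s + Real.pi) = -cis s := by
  rw [cis_add169]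
  have : cis Real.pi = -1 := by simp [cis, Complex.exp_pi_mul_I]
  rw [this]; ring

theorem norm_sq169 (z : ℂ) : ‖z‖ ^ 2 = z.re ^ 2 + z.im ^ 2 := by
  rw [Complex.sq_norm, Complex.normSq_apply]; ring

/-- strict convexity: opposite unit vectors -/
theorem eq_neg_of_le169 {d e : ℂ} (he : ‖e‖ = 1) (h1 : ‖d‖ ≤ 1) (h2 : ‖d + 2 * e‖ ≤ 1) :
    d = -e := by
  have e1 : ‖d + e‖ ^ 2 ≤ 0 := by
    have h3 : ‖d‖ ^ 2 ≤ 1 := by nlinarith [norm_nonneg d]
    have h4 : ‖d + 2 * e‖ ^ 2 ≤ 1 := by nlinarith [norm_nonneg (d + 2 * e)]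
    have h5 : ‖e‖ ^ 2 = 1 := by rw [he]; norm_num
    rw [norm_sq169] at *
    simp only [Complex.add_re, Complex.add_im, Complex.mul_re, Complex.mul_im, Complex.re_ofNat,
      Complex.im_ofNat] at *
    nlinarith
  have e2 : ‖d + e‖ = 0 := by
    have := norm_nonneg (d + e)
    nlinarith
  have e3 : d + e = 0 := norm_eq_zero.1 e2
  linear_combination e3

/-- discrete intermediate value theorem, open form -/
theorem exists_uIoo169 {ρ : ℕ → ℝ} {t : ℝ} (hne : ∀ k, ρ k ≠ t) {m n : ℕ} (hm : ρ m < t)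
    (hn : t < ρ n) : ∃ k, t ∈ uIoo (ρ k) (ρ (k + 1)) := by
  by_contra hcon
  push Not at hcon
  have key : ∀ k, (ρ k < t ↔ ρ (k + 1) < t) := by
    intro k
    have h1 := hcon k
    constructor
    · intro h2
      by_contra h3
      have h4 : t < ρ (k + 1) := lt_of_le_of_ne (not_lt.1 h3) (hne (k + 1)).symm
      exact h1 ⟨lt_of_le_of_lt inf_le_left h2, lt_of_lt_of_le h4 le_sup_right⟩
    · intro h2
      by_contra h3
      have h4 : t < ρ k := lt_of_le_of_ne (not_lt.1 h3) (hne k).symm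
      exact h1 ⟨lt_of_le_of_lt inf_le_right h2, lt_of_lt_of_le h4 le_sup_left⟩
  have key2 : ∀ k, (ρ k < t ↔ ρ 0 < t) := by
    intro k
    induction k with
    | zero => exact Iff.rfl
    | succ k ih => exact (key k).symm.trans ih
  have h3 := (key2 n).2 ((key2 m).1 hm)
  linarith

/-- closed form -/
theorem exists_uIcc169 {ρ : ℕ → ℝ} {t : ℝ} {m n : ℕ} (hm : ρ m ≤ t)
    (hn : t ≤ ρ n) : ∃ k, t ∈ uIcc (ρ k) (ρ (k + 1)) := by
  by_cases hne : ∀ k, ρ k ≠ t
  · obtain ⟨k, hk⟩ := exists_uIoo169 hne (lt_of_le_of_ne hm (hne m)) (lt_of_le_of_ne hn (hne n).symm)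
    exact ⟨k, ⟨hk.1.le, hk.2.le⟩⟩
  · push Not at hne
    obtain ⟨k, hk⟩ := hne
    exact ⟨k, by rw [← hk]; exact left_mem_uIcc⟩

namespace Rods

variable {V : ℕ → ℂ} {ρ : ℕ → ℝ}

theorem arc_left (h : Rods V ρ) (i : ℕ) : arcPt V i (ρ i) = V i := by
  rw [arcPt, h.edge i, pow_succ]; ring

theorem arc_right (h : Rods V ρ) (i : ℕ) : arcPt V i (ρ (i + 1)) = V (i + 2) := by
  rw [arcPt, h.edge (i + 1)]

theorem two (h : Rods V ρ) (i : ℕ) :
    V (i + 2) = V i + (-1) ^ i * (cis (ρ i) - cis (ρ (i + 1))) := by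
  rw [h.edge (i + 1), h.edge i, pow_succ]; ring

theorem dist_arc (V : ℕ → ℂ) (i : ℕ) (θ : ℝ) : dist (arcPt V i θ) (V (i + 1)) = 1 := by
  rw [arcPt, dist_eq_norm, add_sub_cancel_left, norm_npow169, norm_cis]

theorem unit (h : Rods V ρ) (i : ℕ) : dist (V i) (V (i + 1)) = 1 := by
  rw [← h.arc_left i]; exact dist_arc V i _

/-- the range of the angle of a closed chain with alternating orientations is larger than `π` -/
theorem range_gt (h : Rods V ρ) {N : ℕ} (hN : 0 < N) (hper : V (2 * N) = V 0) {τ : ℝ}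
    (hτ : ∀ i, 0 < τ * (-1) ^ i * (ρ (i + 1) - ρ i)) : ∃ m n, Real.pi < ρ n - ρ m := by
  by_contra hcon
  push Not at hcon
  obtain ⟨m0, -, hm0⟩ := Finset.exists_min_image (Finset.range (2 * N + 1)) ρ ⟨0, by simp⟩
  set c := ρ m0 + Real.pi / 2 with hc
  have hin : ∀ i, i ≤ 2 * N → ρ i - c ∈ Icc (-(Real.pi / 2)) (Real.pi / 2) := by
    intro i hi
    have h1 := hm0 i (Finset.mem_range.2 (by omega))
    have h2 := hcon m0 i
    constructor
    · linarith
    · linarith
  have hstep : ∀ n, n < N → 0 < τ * ((V (2 * n) * cis (-c)).im - (V (2 * n + 2) * cis (-c)).im) := by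
    intro n hn
    have e1 := h.two (2 * n)
    have e2 : ((-1 : ℂ)) ^ (2 * n) = 1 := by rw [pow_mul]; norm_num
    rw [e2, one_mul] at e1
    have e3 : ∀ s : ℝ, cis s * cis (-c) = cis (s - c) := by
      intro s; rw [← cis_add169]; rfl
    have e4 : (V (2 * n + 2) * cis (-c)).im = (V (2 * n) * cis (-c)).im +
        (Real.sin (ρ (2 * n) - c) - Real.sin (ρ (2 * n + 1) - c)) := by
      rw [e1]
      have : (V (2 * n) + (cis (ρ (2 * n)) - cis (ρ (2 * n + 1)))) * cis (-c) =
          V (2 * n) * cis (-c) + (cis (ρ (2 * n)) * cis (-c) - cis (ρ (2 * n + 1)) * cis (-c)) := by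
        ring
      rw [this, e3, e3, Complex.add_im, Complex.sub_im, cis_im, cis_im]
    rw [e4]
    have h3 := hτ (2 * n)
    have e5 : ((-1 : ℝ)) ^ (2 * n) = 1 := by rw [pow_mul]; norm_num
    rw [e5, mul_one] at h3
    have i1 := hin (2 * n) (by omega)
    have i2 := hin (2 * n + 1) (by omega)
    have e6 : τ * ((V (2 * n) * cis (-c)).im - ((V (2 * n) * cis (-c)).im +
        (Real.sin (ρ (2 * n) - c) - Real.sin (ρ (2 * n + 1) - c)))) =
        τ * (Real.sin (ρ (2 * n + 1) - c) - Real.sin (ρ (2 * n) - c)) := by ring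
    rw [e6]
    rcases lt_trichotomy τ 0 with ht | ht | ht
    · have h4 : ρ (2 * n + 1) < ρ (2 * n) := by
        by_contra h5
        push Not at h5
        nlinarith
      have := Real.strictMonoOn_sin i2 i1 (by linarith)
      nlinarith
    · rw [ht, zero_mul] at h3
      exact absurd h3 (lt_irrefl _)
    · have h4 : ρ (2 * n) < ρ (2 * n + 1) := by
        by_contra h5
        push Not at h5
        nlinarith
      have := Real.strictMonoOn_sin i1 i2 (by linarith)
      nlinarith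
  have hdec : ∀ n, n ≤ N → 0 < n →
      0 < τ * ((V 0 * cis (-c)).im - (V (2 * n) * cis (-c)).im) := by
    intro n
    induction n with
    | zero => intro _ h0; exact absurd h0 (lt_irrefl _)
    | succ n ih =>
      intro hn _
      have h1 := hstep n (by omega)
      rw [show 2 * (n + 1) = 2 * n + 2 by ring]
      rcases Nat.eq_zero_or_pos n with h0 | h0
      · subst h0
        simpa using h1
      · have h2 := ih (by omega) h0
        nlinarith
  have h1 := hdec N le_rfl hN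
  rw [hper, sub_self, mul_zero] at h1
  exact lt_irrefl _ h1

/-- `cis` is injective on short intervals -/
theorem cis_ne169 {s t : ℝ} (h1 : s < t) (h2 : t < s + 1) : cis s ≠ cis t := by
  intro h
  have h3 : cis (t - s) = 1 := by
    have h4 : cis t * cis (-s) = cis (t - s) := by rw [← cis_add169]; rfl
    rw [← h4, ← h, ← cis_add169, add_neg_cancel, cis_zero169]
  have h5 : Real.cos (t - s) = 1 := by
    have := congrArg Complex.re h3
    simpa [cis_re] using this
  have h6 := Real.cos_lt_cos_of_nonneg_of_le_pi (x := 0) (y := t - s) le_rfl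
    (by linarith [Real.pi_gt_three]) (by linarith)
  rw [Real.cos_zero] at h6
  linarith

/-- **no closed chain with alternating orientations** -/
theorem switch_false (h : Rods V ρ) {N : ℕ} (hN : 0 < N) (hper : V (2 * N) = V 0) {τ : ℝ}
    (hτ : ∀ i, 0 < τ * (-1) ^ i * (ρ (i + 1) - ρ i))
    (hd : ∀ i j, (Even i ↔ Even j) → ∀ θ ∈ uIcc (ρ i) (ρ (i + 1)), ∀ θ' ∈ uIcc (ρ j) (ρ (j + 1)),
      dist (arcPt V i θ) (arcPt V j θ') ≤ 1)
    (hpar : ∀ i j, Even i → Odd j → V i ≠ V j) : False := by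
  obtain ⟨m, n, hmn⟩ := h.range_gt hN hper hτ
  -- a generic angle
  obtain ⟨t, ht, ht2⟩ : ∃ t ∈ (range ρ ∪ range fun k => ρ k - Real.pi)ᶜ,
      t ∈ Ioo (ρ m) (ρ n - Real.pi) :=
    (((countable_range ρ).union (countable_range fun k => ρ k - Real.pi)).dense_compl
      ℝ).exists_between (by linarith)
  rw [mem_compl_iff, mem_union, not_or] at ht
  obtain ⟨k, hk⟩ := exists_uIoo169 (ρ := ρ) (t := t) (m := m) (n := n)
    (fun k hk => ht.1 ⟨k, hk⟩) ht2.1 (by have := ht2.2; have := Real.pi_pos; linarith)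
  obtain ⟨l, hl⟩ := exists_uIoo169 (ρ := ρ) (t := t + Real.pi) (m := m) (n := n)
    (fun k hk => ht.2 ⟨k, by simp only; linarith⟩)
    (by have := ht2.1; have := Real.pi_pos; linarith) (by have := ht2.2; linarith)
  -- a second angle
  have hk' : ∀ᶠ s in 𝓝 t, s ∈ uIoo (ρ k) (ρ (k + 1)) := by
    unfold uIoo at hk ⊢
    exact Ioo_mem_nhds hk.1 hk.2
  have hl' : ∀ᶠ s in 𝓝 t, s + Real.pi ∈ uIoo (ρ l) (ρ (l + 1)) := by
    have h1 : Tendsto (fun s : ℝ => s + Real.pi) (𝓝 t) (𝓝 (t + Real.pi)) := by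
      have : Continuous fun s : ℝ => s + Real.pi := by fun_prop
      exact this.tendsto t
    refine h1.eventually ?_
    unfold uIoo at hl ⊢
    exact Ioo_mem_nhds hl.1 hl.2
  obtain ⟨r, hr, hball⟩ := Metric.eventually_nhds_iff.1 (hk'.and hl')
  set t' := t + min (r / 2) (1 / 2) with ht'
  have hpos : 0 < min (r / 2) (1 / 2) := by positivity
  have hdt : dist t' t < r := by
    rw [ht', Real.dist_eq, add_sub_cancel_left, abs_of_pos hpos]
    exact lt_of_le_of_lt (min_le_left _ _) (by linarith)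
  have hcis : cis t ≠ cis t' := cis_ne169 (by rw [ht']; linarith) (by
    have := min_le_right (r / 2) (1 / 2 : ℝ)
    rw [ht']; linarith)
  -- the two ends
  have hmem : ∀ {i : ℕ} {s : ℝ}, s ∈ uIoo (ρ i) (ρ (i + 1)) → s ∈ uIcc (ρ i) (ρ (i + 1)) :=
    fun hs => ⟨hs.1.le, hs.2.le⟩
  have hvert : ∀ i, V (i + 1) = arcPt V (i + 1) (ρ (i + 1)) := fun i => (h.arc_left (i + 1)).symm
  have heo : ∀ {s : ℝ}, s ∈ uIoo (ρ k) (ρ (k + 1)) → s + Real.pi ∈ uIoo (ρ l) (ρ (l + 1)) →
      (Odd k → Odd l → V (k + 1) - V (l + 1) = -cis s) ∧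
      (Even k → Even l → V (k + 1) - V (l + 1) = cis s) ∧
      ((Odd k ∧ Even l ∨ Even k ∧ Odd l) → V (k + 1) = V (l + 1)) := by
    intro s hs1 hs2
    have a1 : ∀ i, Odd i → ∀ x, arcPt V i x = V (i + 1) + cis x := by
      intro i hi x
      rw [arcPt, Even.neg_one_pow (by rcases hi with ⟨q, rfl⟩; exact ⟨q + 1, by ring⟩), one_mul]
    have a2 : ∀ i, Even i → ∀ x, arcPt V i x = V (i + 1) - cis x := by
      intro i hi x
      rw [arcPt, Odd.neg_one_pow hi.add_one]; ring
    have b1 : ∀ i, Odd i → Even (i + 1) := fun i hi => hi.add_one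
    have b2 : ∀ i, Even i → Odd (i + 1) := fun i hi => hi.add_one
    have hn : ‖cis s‖ = 1 := norm_cis s
    refine ⟨fun hk1 hl1 => ?_, fun hk1 hl1 => ?_, ?_⟩
    · have d1 := hd (k + 1) (l + 1) (iff_of_true (b1 k hk1) (b1 l hl1)) _ left_mem_uIcc _
        left_mem_uIcc
      rw [← hvert, ← hvert, dist_eq_norm] at d1
      have d2 := hd k l (iff_of_false (Nat.not_even_iff_odd.2 hk1) (Nat.not_even_iff_odd.2 hl1)) _
        (hmem hs1) _ (hmem hs2)
      rw [a1 k hk1, a1 l hl1, cis_add_pi169, dist_eq_norm] at d2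
      refine eq_neg_of_le169 hn d1 ?_
      rwa [show V (k + 1) - V (l + 1) + 2 * cis s = V (k + 1) + cis s - (V (l + 1) + -cis s) by ring]
    · have d1 := hd (k + 1) (l + 1) (iff_of_false (Nat.not_even_iff_odd.2 (b2 k hk1))
        (Nat.not_even_iff_odd.2 (b2 l hl1))) _ left_mem_uIcc _ left_mem_uIcc
      rw [← hvert, ← hvert, dist_eq_norm] at d1
      have d2 := hd k l (iff_of_true hk1 hl1) _ (hmem hs1) _ (hmem hs2)
      rw [a2 k hk1, a2 l hl1, cis_add_pi169, dist_eq_norm] at d2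
      have e := eq_neg_of_le169 (d := V (k + 1) - cis s - (V (l + 1) - -cis s)) hn d2 (by
        rwa [show V (k + 1) - cis s - (V (l + 1) - -cis s) + 2 * cis s =
          V (k + 1) - V (l + 1) by ring])
      linear_combination e
    · rintro (⟨hk1, hl1⟩ | ⟨hk1, hl1⟩)
      · have d1 := hd (k + 1) l (iff_of_true (b1 k hk1) hl1) _ left_mem_uIcc _ (hmem hs2)
        rw [← hvert, a2 l hl1, cis_add_pi169, dist_eq_norm] at d1
        have d2 := hd k (l + 1) (iff_of_false (Nat.not_even_iff_odd.2 hk1)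
          (Nat.not_even_iff_odd.2 (b2 l hl1))) _ (hmem hs1) _ left_mem_uIcc
        rw [← hvert, a1 k hk1, dist_eq_norm] at d2
        have e := eq_neg_of_le169 (d := V (k + 1) - (V (l + 1) - -cis s)) hn d1 (by
          rwa [show V (k + 1) - (V (l + 1) - -cis s) + 2 * cis s =
            V (k + 1) + cis s - V (l + 1) by ring])
        linear_combination e
      · have d1 := hd k (l + 1) (iff_of_true hk1 (b1 l hl1)) _ (hmem hs1) _ left_mem_uIcc
        rw [← hvert, a2 k hk1, dist_eq_norm] at d1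
        have d2 := hd (k + 1) l (iff_of_false (Nat.not_even_iff_odd.2 (b2 k hk1))
          (Nat.not_even_iff_odd.2 hl1)) _ left_mem_uIcc _ (hmem hs2)
        rw [← hvert, a1 l hl1, cis_add_pi169, dist_eq_norm] at d2
        have e := eq_neg_of_le169 (d := V (k + 1) - cis s - V (l + 1)) hn d1 (by
          rwa [show V (k + 1) - cis s - V (l + 1) + 2 * cis s =
            V (k + 1) - (V (l + 1) + -cis s) by ring])
        linear_combination e
  obtain ⟨p1, p2, p3⟩ := heo hk hl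
  obtain ⟨q1, q2, -⟩ := heo (hball hdt).1 (hball hdt).2
  rcases Nat.even_or_odd k with hk1 | hk1 <;> rcases Nat.even_or_odd l with hl1 | hl1
  · exact hcis ((p2 hk1 hl1).symm.trans (q2 hk1 hl1))
  · exact hpar _ _ hl1.add_one hk1.add_one (p3 (Or.inr ⟨hk1, hl1⟩)).symm
  · exact hpar _ _ hk1.add_one hl1.add_one (p3 (Or.inl ⟨hk1, hl1⟩))
  · exact hcis (neg_injective ((p1 hk1 hl1).symm.trans (q1 hk1 hl1)))

/-- constant orientation: every direction occurs -/
theorem stay_cover (h : Rods V ρ) {N : ℕ} (hN : 0 < N) (hper : ∀ i, V (i + 2 * N) = V i)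
    {τ : ℝ} (hτ : ∀ i, 0 < τ * (ρ (i + 1) - ρ i)) (φ : ℝ) :
    ∃ i, ∃ θ ∈ uIcc (ρ i) (ρ (i + 1)), cis θ = cis φ := by
  -- the total angle
  have e1 : cis (ρ (2 * N)) = cis (ρ 0) := by
    have h1 := h.edge 0
    have h2 := h.edge (2 * N)
    have h3 := hper 0
    have h4 := hper 1
    rw [zero_add] at h3
    rw [add_comm] at h4
    rw [h4, h3, h1, pow_mul] at h2
    norm_num at h2
    exact h2.symm
  have e2 : ∃ n : ℤ, ρ (2 * N) - ρ 0 = 2 * Real.pi * n := by
    have h1 : cis (ρ (2 * N) - ρ 0) = 1 := by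
      have : cis (ρ (2 * N) - ρ 0) = cis (ρ (2 * N)) * cis (-ρ 0) := by
        rw [← cis_add169]; rfl
      rw [this, e1, ← cis_add169, add_neg_cancel, cis_zero169]
    rw [cis, Complex.exp_eq_one_iff] at h1
    obtain ⟨n, hn⟩ := h1
    refine ⟨n, ?_⟩
    have h2 := congrArg Complex.im hn
    simp at h2
    rw [h2]; ring
  obtain ⟨n, hn⟩ := e2
  have hmono : ∀ j, 0 < j → 0 < τ * (ρ j - ρ 0) := by
    intro j
    induction j with
    | zero => intro h0; exact absurd h0 (lt_irrefl _)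
    | succ j ih =>
      intro _
      have h1 := hτ j
      rcases Nat.eq_zero_or_pos j with h0 | h0
      · subst h0; simpa using h1
      · have := ih h0
        nlinarith
  have h1 := hmono (2 * N) (by omega)
  rw [hn] at h1
  have hpi := Real.pi_pos
  have hn0 : n ≠ 0 := by
    rintro rfl
    simp at h1
  rcases lt_or_gt_of_ne hn0 with h2 | h2
  · -- negative
    have h3 : (n : ℝ) ≤ -1 := by exact_mod_cast (by omega : n ≤ -1)
    have h4 : ρ (2 * N) + 2 * Real.pi ≤ ρ 0 := by nlinarith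
    have h5 := toIcoMod_mem_Ico Real.two_pi_pos (ρ (2 * N)) φ
    obtain ⟨k, hk⟩ := exists_uIcc169 (ρ := ρ) (t := toIcoMod Real.two_pi_pos (ρ (2 * N)) φ)
      (m := 2 * N) (n := 0) h5.1 (by have := h5.2; linarith)
    refine ⟨k, _, hk, ?_⟩
    rw [toIcoMod, cis, cis, Complex.exp_eq_exp_iff_exists_int]
    refine ⟨-toIcoDiv Real.two_pi_pos (ρ (2 * N)) φ, ?_⟩
    push_cast
    simp
    ring
  · have h3 : (1 : ℝ) ≤ n := by exact_mod_cast (by omega : 1 ≤ n)
    have h4 : ρ 0 + 2 * Real.pi ≤ ρ (2 * N) := by nlinarith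
    have h5 := toIcoMod_mem_Ico Real.two_pi_pos (ρ 0) φ
    obtain ⟨k, hk⟩ := exists_uIcc169 (ρ := ρ) (t := toIcoMod Real.two_pi_pos (ρ 0) φ)
      (m := 0) (n := 2 * N) h5.1 (by have := h5.2; linarith)
    refine ⟨k, _, hk, ?_⟩
    rw [toIcoMod, cis, cis, Complex.exp_eq_exp_iff_exists_int]
    refine ⟨-toIcoDiv Real.two_pi_pos (ρ 0) φ, ?_⟩
    push_cast
    simp
    ring

end Rods

end Vale.Agent.P032.Six
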