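import Vale.Agent.P032.H169.Chain
import Vale.Agent.P032.S5.H394.Arc

/-!
# P032: the four sectors at a vertex of a J-chain

`JSd U V ρ C I O`: `I i` is the inner, `O i` the outer colour of the arc number `i`.

* `JCh.sectors` : near `V (i+1)` the inside of both neighbouring circles is in `U (I i)`, the outside
  of both is in `U (O i)`.
* `JCh.junction` : same orientation: `I (i+1) = I i`; opposite orientation: `O (i+1) = O i`.
-/

open Set Filter Topology Metric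

noncomputable section

namespace Vale.Agent.P032.Six

variable {k : ℕ} {U : Fin k → Set ℂ} {T : ℂ → Set (Fin k)}

/-- inner and outer colours of the arcs -/
structure JSd (U : Fin k → Set ℂ) (V : ℕ → ℂ) (ρ : ℕ → ℝ) (C : ℕ → Set (Fin k))
    (I O : ℕ → Fin k) : Prop where
  ne : ∀ i, I i ≠ O i
  pair : ∀ i, C (i + 1) = {I i, O i}
  sd : ∀ i, ∀ θ ∈ uIcc (ρ i) (ρ (i + 1)), Sd U (V (i + 1)) (arcPt V i θ) (I i) (O i)

theorem ip_add_left169 (a b c : ℂ) : ip (a + b) c = ip a c + ip b c := by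
  unfold ip; simp only [Complex.add_re, Complex.add_im]; ring

theorem ip_add_right169 (a b c : ℂ) : ip a (b + c) = ip a b + ip a c := by
  unfold ip; simp only [Complex.add_re, Complex.add_im]; ring

theorem ip_smul_left169 (s : ℝ) (a b : ℂ) : ip (s * a) b = s * ip a b := by
  unfold ip; rw [Complex.re_ofReal_mul, Complex.im_ofReal_mul]; ring

theorem ip_smul_right169 (s : ℝ) (a b : ℂ) : ip a (s * b) = s * ip a b := by
  unfold ip; rw [Complex.re_ofReal_mul, Complex.im_ofReal_mul]; ring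

/-- prescribed inner products -/
theorem exists_ip169 {p r : ℂ} (h : cr p r ≠ 0) (α β : ℝ) : ∃ y, ip y p = α ∧ ip y r = β := by
  refine ⟨(β / cr p r : ℝ) * (Complex.I * p) + (-(α / cr p r) : ℝ) * (Complex.I * r), ?_, ?_⟩
  · rw [ip_add_left169, ip_smul_left169, ip_smul_left169, ip_I, ip_I]
    have e1 : cr p p = 0 := by unfold cr; ring
    have e2 : cr r p = -cr p r := by unfold cr; ring
    rw [e1, e2, mul_zero, zero_add, neg_mul_neg, div_mul_cancel₀ _ h]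
  · rw [ip_add_left169, ip_smul_left169, ip_smul_left169, ip_I, ip_I]
    have e1 : cr r r = 0 := by unfold cr; ring
    rw [e1, mul_zero, add_zero, div_mul_cancel₀ _ h]

theorem ray_in169 {v z y : ℂ} (hv : dist v z = 1) (hy : 0 < ip y (z - v)) :
    ∀ᶠ t : ℝ in 𝓝[>] 0, dist (v + t * y) z < 1 := by
  have h0 : 0 ≤ ip y y := by unfold ip; nlinarith [sq_nonneg y.re, sq_nonneg y.im]
  have h1 : ∀ᶠ t : ℝ in 𝓝[>] 0, t * (ip y y + 1) < ip y (z - v) := by
    have : Tendsto (fun t : ℝ => t * (ip y y + 1)) (𝓝[>] 0) (𝓝 0) := by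
      have h2 : Continuous fun t : ℝ => t * (ip y y + 1) := by fun_prop
      have h3 := h2.tendsto 0
      simp only [zero_mul] at h3
      exact h3.mono_left nhdsWithin_le_nhds
    exact this.eventually (Iio_mem_nhds hy)
  filter_upwards [h1, self_mem_nhdsWithin] with t h2 h3
  rw [mem_Ioi] at h3
  have h4 := sq_line v y z t
  rw [hv] at h4
  have h5 := dist_nonneg (x := v + t * y) (y := z)
  by_contra hcon
  push Not at hcon
  nlinarith

theorem ray_out169 {v z y : ℂ} (hv : dist v z = 1) (hy : ip y (z - v) < 0) :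
    ∀ᶠ t : ℝ in 𝓝[>] 0, 1 < dist (v + t * y) z := by
  have h0 : 0 ≤ ip y y := by unfold ip; nlinarith [sq_nonneg y.re, sq_nonneg y.im]
  filter_upwards [self_mem_nhdsWithin] with t h3
  rw [mem_Ioi] at h3
  have h4 := sq_line v y z t
  rw [hv] at h4
  have h5 := dist_nonneg (x := v + t * y) (y := z)
  by_contra hcon
  push Not at hcon
  nlinarith [mul_pos h3 (neg_pos.2 hy), mul_nonneg (sq_nonneg t) h0]

theorem tendsto_ray169 (v y : ℂ) : Tendsto (fun t : ℝ => v + t * y) (𝓝[>] 0) (𝓝 v) := by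
  have : Continuous fun t : ℝ => v + t * y := by fun_prop
  have h2 := this.tendsto 0
  simp only [Complex.ofReal_zero, zero_mul, add_zero] at h2
  exact h2.mono_left nhdsWithin_le_nhds

/-- inside and outside palettes at a point of the circle about a two-pair centre -/
theorem Irr.inout169 (h : Irr U T) {z v : ℂ} {a b c d : Fin k} (hz : DPt T z a b c d)
    (hv : dist v z = 1) (hT : T v = T z) :
    ∃ P Q : Set (Fin k), P.ncard = 2 ∧ Q.ncard = 2 ∧ Disjoint P Q ∧ T z = P ∪ Q ∧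
      ∀ᶠ x in 𝓝 v, (dist x z < 1 → T x ⊆ P) ∧ (1 < dist x z → T x ⊆ Q) := by
  have key : ∀ a b c d : Fin k, DPt T z a b c d → Sd U z v a b → Sd U z v c d →
      ∀ᶠ x in 𝓝 v, (dist x z < 1 → T x ⊆ {a, c}) ∧ (1 < dist x z → T x ⊆ {b, d}) := by
    intro a b c d hz h1 h2
    filter_upwards [h1, h2, h.nhd v] with x h3 h4 h5
    rw [hT, hz.pal] at h5
    constructor
    · intro h6 i hi
      rcases h5 hi with rfl | rfl | rfl | h7
      · simp
      · exact absurd (h.sub x hi) (h3.2 h6)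
      · simp
      · rw [mem_singleton_iff] at h7
        subst h7
        exact absurd (h.sub x hi) (h4.2 h6)
    · intro h6 i hi
      rcases h5 hi with rfl | rfl | rfl | h7
      · exact absurd (h.sub x hi) (h3.1 h6)
      · simp
      · exact absurd (h.sub x hi) (h4.1 h6)
      · rw [mem_singleton_iff] at h7
        subst h7
        simp
  have key2 : ∀ a b c d : Fin k, DPt T z a b c d → Sd U z v a b → Sd U z v c d →
      ∃ P Q : Set (Fin k), P.ncard = 2 ∧ Q.ncard = 2 ∧ Disjoint P Q ∧ T z = P ∪ Q ∧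
      ∀ᶠ x in 𝓝 v, (dist x z < 1 → T x ⊆ P) ∧ (1 < dist x z → T x ⊆ Q) := by
    intro a b c d hz h1 h2
    refine ⟨{a, c}, {b, d}, Set.ncard_pair hz.ac, Set.ncard_pair hz.bd, ?_, ?_,
      key a b c d hz h1 h2⟩
    · rw [Set.disjoint_left]
      rintro x (rfl | hx) (h3 | h3)
      · exact hz.ab h3
      · exact hz.ad h3
      · rw [mem_singleton_iff] at hx; exact hz.bc (h3.symm.trans hx)
      · rw [mem_singleton_iff] at hx h3; exact hz.cd (hx.symm.trans h3)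
    · rw [hz.pal]
      ext x
      simp only [mem_insert_iff, mem_singleton_iff, mem_union]
      tauto
  rcases h.sides hz hv with h1 | h1 <;> rcases h.sides hz.swap hv with h2 | h2
  · exact key2 a b c d hz h1 h2
  · exact key2 a b d c hz.swap34 h1 h2
  · exact key2 b a c d hz.swap12 h1 h2
  · exact key2 b a d c hz.swap12.swap34 h1 h2

/-- points in the four regions near a crossing of two circles -/
theorem region169 {p r v : ℂ} (hvp : dist v p = 1) (hvr : dist v r = 1)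
    (hcr : cr (p - v) (r - v) ≠ 0) {α β : ℝ} (hα : α ≠ 0) (hβ : β ≠ 0) :
    ∃ y, ip y (p - v) = α ∧ ip y (r - v) = β ∧
      ∀ᶠ t : ℝ in 𝓝[>] 0, (0 < α → dist (v + t * y) p < 1) ∧ (α < 0 → 1 < dist (v + t * y) p) ∧
      (0 < β → dist (v + t * y) r < 1) ∧ (β < 0 → 1 < dist (v + t * y) r) := by
  obtain ⟨y, hy1, hy2⟩ := exists_ip169 hcr α β
  have t1 : ∀ᶠ t : ℝ in 𝓝[>] 0, (0 < α → dist (v + t * y) p < 1) ∧
      (α < 0 → 1 < dist (v + t * y) p) := by
    rcases lt_or_gt_of_ne hα with h1 | h1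
    · filter_upwards [ray_out169 hvp (by rw [hy1]; exact h1)] with t ht
      exact ⟨fun h2 => absurd h2 (not_lt.2 h1.le), fun _ => ht⟩
    · filter_upwards [ray_in169 hvp (by rw [hy1]; exact h1)] with t ht
      exact ⟨fun _ => ht, fun h2 => absurd h2 (not_lt.2 h1.le)⟩
  have t2 : ∀ᶠ t : ℝ in 𝓝[>] 0, (0 < β → dist (v + t * y) r < 1) ∧
      (β < 0 → 1 < dist (v + t * y) r) := by
    rcases lt_or_gt_of_ne hβ with h1 | h1
    · filter_upwards [ray_out169 hvr (by rw [hy2]; exact h1)] with t ht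
      exact ⟨fun h2 => absurd h2 (not_lt.2 h1.le), fun _ => ht⟩
    · filter_upwards [ray_in169 hvr (by rw [hy2]; exact h1)] with t ht
      exact ⟨fun _ => ht, fun h2 => absurd h2 (not_lt.2 h1.le)⟩
  refine ⟨y, hy1, hy2, ?_⟩
  filter_upwards [t1, t2] with t h1 h2
  exact ⟨h1.1, h1.2, h2.1, h2.2⟩

theorem pair_eq169 {P : Set (Fin k)} (hP : P.ncard = 2) {x y : Fin k} (hx : x ∈ P) (hy : y ∈ P)
    (hxy : x ≠ y) : P = {x, y} := by
  symm
  refine Set.eq_of_subset_of_ncard_le ?_ ?_ (Set.toFinite _)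
  · rintro i (rfl | hi)
    · exact hx
    · rw [mem_singleton_iff] at hi; subst hi; exact hy
  · rw [hP, Set.ncard_pair hxy]

/-- the four sectors at the crossing of two circles about two-pair centres -/
theorem Irr.cross169 (h : Irr U T) {p r v : ℂ} (hp : ∃ a b c d, DPt T p a b c d)
    (hr : ∃ a b c d, DPt T r a b c d) (hvp : dist v p = 1) (hvr : dist v r = 1)
    (hTp : T v = T p) (hTr : T v = T r) (hcr : cr (p - v) (r - v) ≠ 0) :
    ∃ c1 c2 c3 c4 : Fin k, c1 ≠ c2 ∧ c1 ≠ c3 ∧ c1 ≠ c4 ∧ c2 ≠ c3 ∧ c2 ≠ c4 ∧ c3 ≠ c4 ∧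
      T v = {c1, c2, c3, c4} ∧
      ∀ᶠ x in 𝓝 v, (dist x p < 1 → T x ⊆ {c1, c2}) ∧ (1 < dist x p → T x ⊆ {c3, c4}) ∧
        (dist x r < 1 → T x ⊆ {c1, c3}) ∧ (1 < dist x r → T x ⊆ {c2, c4}) := by
  obtain ⟨a, b, c, d, hp⟩ := hp
  obtain ⟨a', b', c', d', hr⟩ := hr
  obtain ⟨P, Q, nP, nQ, dPQ, hPQ, hP⟩ := h.inout169 hp hvp hTp
  obtain ⟨P', Q', nP', nQ', dPQ', hPQ', hR⟩ := h.inout169 hr hvr hTr
  have w11 : ∃ i, i ∈ P ∧ i ∈ P' := by
    obtain ⟨y, -, -, hy⟩ := region169 hvp hvr hcr (α := 1) (β := 1) one_ne_zero one_ne_zero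
    obtain ⟨t, ht, h1, h2⟩ := (hy.and (((tendsto_ray169 v y).eventually hP).and
      ((tendsto_ray169 v y).eventually hR))).exists
    obtain ⟨i, hi⟩ := h.ne (v + t * y)
    exact ⟨i, h1.1 (ht.1 one_pos) hi, h2.1 (ht.2.2.1 one_pos) hi⟩
  have w12 : ∃ i, i ∈ P ∧ i ∈ Q' := by
    obtain ⟨y, -, -, hy⟩ := region169 hvp hvr hcr (α := 1) (β := -1) one_ne_zero (by norm_num)
    obtain ⟨t, ht, h1, h2⟩ := (hy.and (((tendsto_ray169 v y).eventually hP).and
      ((tendsto_ray169 v y).eventually hR))).exists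
    obtain ⟨i, hi⟩ := h.ne (v + t * y)
    exact ⟨i, h1.1 (ht.1 one_pos) hi, h2.2 (ht.2.2.2 (by norm_num)) hi⟩
  have w21 : ∃ i, i ∈ Q ∧ i ∈ P' := by
    obtain ⟨y, -, -, hy⟩ := region169 hvp hvr hcr (α := -1) (β := 1) (by norm_num) one_ne_zero
    obtain ⟨t, ht, h1, h2⟩ := (hy.and (((tendsto_ray169 v y).eventually hP).and
      ((tendsto_ray169 v y).eventually hR))).exists
    obtain ⟨i, hi⟩ := h.ne (v + t * y)
    exact ⟨i, h1.2 (ht.2.1 (by norm_num)) hi, h2.1 (ht.2.2.1 one_pos) hi⟩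
  have w22 : ∃ i, i ∈ Q ∧ i ∈ Q' := by
    obtain ⟨y, -, -, hy⟩ := region169 hvp hvr hcr (α := -1) (β := -1) (by norm_num) (by norm_num)
    obtain ⟨t, ht, h1, h2⟩ := (hy.and (((tendsto_ray169 v y).eventually hP).and
      ((tendsto_ray169 v y).eventually hR))).exists
    obtain ⟨i, hi⟩ := h.ne (v + t * y)
    exact ⟨i, h1.2 (ht.2.1 (by norm_num)) hi, h2.2 (ht.2.2.2 (by norm_num)) hi⟩
  obtain ⟨c1, hc1, hc1'⟩ := w11
  obtain ⟨c2, hc2, hc2'⟩ := w12
  obtain ⟨c3, hc3, hc3'⟩ := w21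
  obtain ⟨c4, hc4, hc4'⟩ := w22
  rw [Set.disjoint_left] at dPQ dPQ'
  have n12 : c1 ≠ c2 := by rintro rfl; exact dPQ' hc1' hc2'
  have n34 : c3 ≠ c4 := by rintro rfl; exact dPQ' hc3' hc4'
  have n13 : c1 ≠ c3 := by rintro rfl; exact dPQ hc1 hc3
  have n24 : c2 ≠ c4 := by rintro rfl; exact dPQ hc2 hc4
  have n14 : c1 ≠ c4 := by rintro rfl; exact dPQ hc1 hc4
  have n23 : c2 ≠ c3 := by rintro rfl; exact dPQ hc2 hc3
  have g1 := pair_eq169 nP hc1 hc2 n12
  have g2 := pair_eq169 nQ hc3 hc4 n34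
  have g3 := pair_eq169 nP' hc1' hc3' n13
  have g4 := pair_eq169 nQ' hc2' hc4' n24
  rw [g1, g2] at hP hPQ
  rw [g3, g4] at hR
  refine ⟨c1, c2, c3, c4, n12, n13, n14, n23, n24, n34, ?_, ?_⟩
  · rw [hTp, hPQ]
    ext x; simp only [mem_insert_iff, mem_singleton_iff, mem_union]; tauto
  · filter_upwards [hP, hR] with x h1 h2
    exact ⟨h1.1, h1.2, h2.1, h2.2⟩

/-- **the four sectors at a vertex** with the colours of an exact arc between the two centres -/
theorem Irr.vertex169 (h : Irr U T) {p r v g : ℂ} {I O : Fin k} (hp : ∃ a b c d, DPt T p a b c d)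
    (hr : ∃ a b c d, DPt T r a b c d) (hvp : dist v p = 1) (hvr : dist v r = 1)
    (hTp : T v = T p) (hTr : T v = T r) (hcr : cr (p - v) (r - v) ≠ 0) {l m : ℝ} (hl : 0 < l)
    (hm : 0 < m) (hg : g - v = l * (p - v) + m * (r - v)) (hga : Arc T v g {I, O})
    (hgs : Sd U v g I O) (hI : I ∈ T v) (hO : O ∈ T v) :
    ∃ c2 c3 : Fin k, I ≠ c2 ∧ I ≠ c3 ∧ I ≠ O ∧ c2 ≠ c3 ∧ c2 ≠ O ∧ c3 ≠ O ∧
      T v = {I, c2, c3, O} ∧
      ∀ᶠ x in 𝓝 v, (dist x p < 1 → T x ⊆ {I, c2}) ∧ (1 < dist x p → T x ⊆ {c3, O}) ∧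
        (dist x r < 1 → T x ⊆ {I, c3}) ∧ (1 < dist x r → T x ⊆ {c2, O}) := by
  obtain ⟨c1, c2, c3, c4, n12, n13, n14, n23, n24, n34, hT, hx⟩ :=
    h.cross169 hp hr hvp hvr hTp hTr hcr
  have hc := h.sd_center hga hgs
  have hgv : dist v g = 1 := by rw [dist_comm]; exact hga.1
  -- test points
  have test : ∀ α β : ℝ, α ≠ 0 → β ≠ 0 → ∃ x, (0 < α → dist x p < 1) ∧ (α < 0 → 1 < dist x p) ∧
      (0 < β → dist x r < 1) ∧ (β < 0 → 1 < dist x r) ∧
      (0 < l * α + m * β → O ∉ Pal U x) ∧ (l * α + m * β < 0 → I ∉ Pal U x) ∧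
      (dist x p < 1 → T x ⊆ {c1, c2}) ∧ (1 < dist x p → T x ⊆ {c3, c4}) ∧
        (dist x r < 1 → T x ⊆ {c1, c3}) ∧ (1 < dist x r → T x ⊆ {c2, c4}) := by
    intro α β hα hβ
    obtain ⟨y, hy1, hy2, hy⟩ := region169 hvp hvr hcr hα hβ
    have hy3 : ip y (g - v) = l * α + m * β := by
      rw [hg, ip_add_right169, ip_smul_right169, ip_smul_right169, hy1, hy2]
    have t3 : ∀ᶠ t : ℝ in 𝓝[>] 0, (0 < l * α + m * β → dist (v + t * y) g < 1) ∧
        (l * α + m * β < 0 → 1 < dist (v + t * y) g) := by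
      rcases lt_trichotomy (l * α + m * β) 0 with h1 | h1 | h1
      · filter_upwards [ray_out169 hgv (by rw [hy3]; exact h1)] with t ht
        exact ⟨fun h2 => absurd h2 (not_lt.2 h1.le), fun _ => ht⟩
      · exact Eventually.of_forall fun t => ⟨fun h2 => absurd h1 h2.ne', fun h2 => absurd h1 h2.ne⟩
      · filter_upwards [ray_in169 hgv (by rw [hy3]; exact h1)] with t ht
        exact ⟨fun _ => ht, fun h2 => absurd h2 (not_lt.2 h1.le)⟩
    obtain ⟨t, ht1, ht3, ht4, ht5⟩ := (hy.and (t3.and (((tendsto_ray169 v y).eventually hc).and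
      ((tendsto_ray169 v y).eventually hx)))).exists
    exact ⟨_, ht1.1, ht1.2.1, ht1.2.2.1, ht1.2.2.2, fun h1 => ht4.2 (ht3.1 h1),
      fun h1 => ht4.1 (ht3.2 h1), ht5⟩
  -- the colour in each sector
  have s1 : ∀ {x : ℂ}, T x ⊆ {c1, c2} → T x ⊆ {c1, c3} → c1 ∈ T x := by
    intro x h1 h2
    obtain ⟨i, hi⟩ := h.ne x
    rcases h1 hi with rfl | h3
    · exact hi
    · rw [mem_singleton_iff] at h3
      subst h3
      rcases h2 hi with h4 | h4
      · exact absurd h4.symm n12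
      · exact absurd h4 n23
  have s2 : ∀ {x : ℂ}, T x ⊆ {c1, c2} → T x ⊆ {c2, c4} → c2 ∈ T x := by
    intro x h1 h2
    obtain ⟨i, hi⟩ := h.ne x
    rcases h1 hi with rfl | h3
    · rcases h2 hi with h4 | h4
      · exact absurd h4 n12
      · exact absurd h4 n14
    · rw [mem_singleton_iff] at h3
      subst h3
      exact hi
  have s3 : ∀ {x : ℂ}, T x ⊆ {c3, c4} → T x ⊆ {c1, c3} → c3 ∈ T x := by
    intro x h1 h2
    obtain ⟨i, hi⟩ := h.ne x
    rcases h1 hi with rfl | h3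
    · exact hi
    · rw [mem_singleton_iff] at h3
      subst h3
      rcases h2 hi with h4 | h4
      · exact absurd h4.symm n14
      · exact absurd h4.symm n34
  have s4 : ∀ {x : ℂ}, T x ⊆ {c3, c4} → T x ⊆ {c2, c4} → c4 ∈ T x := by
    intro x h1 h2
    obtain ⟨i, hi⟩ := h.ne x
    rcases h1 hi with rfl | h3
    · rcases h2 hi with h4 | h4
      · exact absurd h4.symm n23
      · exact absurd h4 n34
    · rw [mem_singleton_iff] at h3
      subst h3
      exact hi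
  have hI2 : I ≠ c2 := by
    rintro rfl
    obtain ⟨x, x1, -, -, x4, -, x6, x7, -, -, x10⟩ := test m (-(l + 1)) hm.ne' (by linarith)
    exact x6 (by nlinarith) (h.sub x (s2 (x7 (x1 hm)) (x10 (x4 (by linarith)))))
  have hI3 : I ≠ c3 := by
    rintro rfl
    obtain ⟨x, -, x2, x3, -, -, x6, -, x8, x9, -⟩ := test (-(m + 1)) l (by linarith) hl.ne'
    exact x6 (by nlinarith) (h.sub x (s3 (x8 (x2 (by linarith))) (x9 (x3 hl))))
  have hI4 : I ≠ c4 := by
    rintro rfl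
    obtain ⟨x, -, x2, -, x4, -, x6, -, x8, -, x10⟩ := test (-1) (-1) (by norm_num) (by norm_num)
    exact x6 (by linarith) (h.sub x (s4 (x8 (x2 (by norm_num))) (x10 (x4 (by norm_num)))))
  have hO1 : O ≠ c1 := by
    rintro rfl
    obtain ⟨x, x1, -, x3, -, x5, -, x7, -, x9, -⟩ := test 1 1 one_ne_zero one_ne_zero
    exact x5 (by linarith) (h.sub x (s1 (x7 (x1 one_pos)) (x9 (x3 one_pos))))
  have hO2 : O ≠ c2 := by
    rintro rfl
    obtain ⟨x, x1, -, -, x4, x5, -, x7, -, -, x10⟩ := test (m + 1) (-l) (by linarith) (by linarith)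
    exact x5 (by nlinarith) (h.sub x (s2 (x7 (x1 (by linarith))) (x10 (x4 (by linarith)))))
  have hO3 : O ≠ c3 := by
    rintro rfl
    obtain ⟨x, -, x2, x3, -, x5, -, -, x8, x9, -⟩ := test (-m) (l + 1) (by linarith) (by linarith)
    exact x5 (by nlinarith) (h.sub x (s3 (x8 (x2 (by linarith))) (x9 (x3 (by linarith)))))
  rw [hT] at hI hO
  have e1 : I = c1 := by
    rcases hI with h1 | h1 | h1 | h1
    · exact h1
    · exact absurd h1 hI2
    · exact absurd h1 hI3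
    · exact absurd h1 hI4
  have e4 : O = c4 := by
    rcases hO with h1 | h1 | h1 | h1
    · exact absurd h1 hO1
    · exact absurd h1 hO2
    · exact absurd h1 hO3
    · exact h1
  subst e1
  subst e4
  exact ⟨c2, c3, n12, n13, n14, n23, n24, n34, hT, hx⟩

namespace JCh

variable {V : ℕ → ℂ} {ρ : ℕ → ℝ} {S : Set (Fin k)} {C : ℕ → Set (Fin k)}

theorem exD (J : JCh T V ρ S C) (i : ℕ) : ∃ a b c d, DPt T (V i) a b c d := by
  obtain ⟨a, b, c, d, -, h⟩ := J.dpt i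
  exact ⟨a, b, c, d, h⟩

theorem C_sub (J : JCh T V ρ S C) (i : ℕ) : C i ⊆ S := by
  obtain ⟨a, b, c, d, hC, h⟩ := J.dpt i
  rw [← J.pal i, h.pal, hC]
  rintro x (rfl | hx)
  · simp
  · rw [mem_singleton_iff] at hx; subst hx; simp

theorem C_card (J : JCh T V ρ S C) (i : ℕ) : (C i).ncard = 2 := by
  obtain ⟨a, b, c, d, hC, h⟩ := J.dpt i
  rw [hC]
  exact Set.ncard_pair h.ab

theorem S_card (J : JCh T V ρ S C) : S.ncard = 4 := by
  obtain ⟨a, b, c, d, hC, h⟩ := J.dpt 0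
  rw [← J.pal 0, h.pal, Set.ncard_insert_of_notMem, Set.ncard_insert_of_notMem,
    Set.ncard_pair h.cd]
  · simp [h.bc, h.bd]
  · simp [h.ab, h.ac, h.ad]

theorem Arc (J : JCh T V ρ S C) (h : Irr U T) {i : ℕ} {θ : ℝ}
    (hθ : θ ∈ uIoo (ρ i) (ρ (i + 1))) : Arc T (V (i + 1)) (arcPt V i θ) (C (i + 1)) :=
  ⟨Rods.dist_arc V i θ, h.pair_open (J.C_card (i + 1)) (by rw [J.pal]; exact J.C_sub (i + 1))
    (le_of_eq (J.arc i θ hθ))⟩

/-- the point of the arc as a combination of the two ends -/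
theorem arc_comb (J : JCh T V ρ S C) {i : ℕ} {θ : ℝ} (hθ : θ ∈ uIoo (ρ i) (ρ (i + 1))) :
    ∃ l m : ℝ, 0 < l ∧ 0 < m ∧
      arcPt V i θ - V (i + 1) = l * (V i - V (i + 1)) + m * (V (i + 2) - V (i + 1)) := by
  obtain ⟨l, m, -, -, hc, -, hlm⟩ := cone169 (J.rods.le i) (J.rods.ne i) ⟨hθ.1.le, hθ.2.le⟩
  obtain ⟨hl, hm⟩ := hlm hθ
  refine ⟨l, m, hl, hm, ?_⟩
  have e1 : V i - V (i + 1) = (-1) ^ (i + 1) * cis (ρ i) := by
    rw [J.rods.edge i, pow_succ]; ring
  have e2 : V (i + 2) - V (i + 1) = (-1) ^ (i + 1) * cis (ρ (i + 1)) := by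
    rw [J.rods.edge (i + 1)]; ring
  rw [e1, e2, arcPt, hc]; ring

theorem cr_ne (J : JCh T V ρ S C) (i : ℕ) : cr (V i - V (i + 1)) (V (i + 2) - V (i + 1)) ≠ 0 := by
  have e1 : V i - V (i + 1) = (-1) ^ (i + 1) * cis (ρ i) := by
    rw [J.rods.edge i, pow_succ]; ring
  have e2 : V (i + 2) - V (i + 1) = (-1) ^ (i + 1) * cis (ρ (i + 1)) := by
    rw [J.rods.edge (i + 1)]; ring
  have e3 : cr (cis (ρ i)) (cis (ρ (i + 1))) = Real.sin (ρ (i + 1) - ρ i) := by
    unfold cr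
    rw [cis_re, cis_im, cis_re, cis_im, Real.sin_sub]; ring
  have e4 : cr (V i - V (i + 1)) (V (i + 2) - V (i + 1)) = Real.sin (ρ (i + 1) - ρ i) := by
    rw [e1, e2, ← e3]
    rcases Nat.even_or_odd (i + 1) with h1 | h1
    · rw [h1.neg_one_pow, one_mul, one_mul]
    · rw [h1.neg_one_pow]
      unfold cr
      simp
  rw [e4]
  have h1 := J.rods.le i
  have h2 := sub_ne_zero.2 (J.rods.ne i)
  have hpi := Real.pi_pos
  rw [abs_le] at h1
  rcases lt_or_gt_of_ne h2 with h3 | h3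
  · exact (Real.sin_neg_of_neg_of_neg_pi_lt h3 (by linarith)).ne
  · exact (Real.sin_pos_of_pos_of_lt_pi h3 (by linarith)).ne'

theorem exists_uIoo (J : JCh T V ρ S C) (i : ℕ) : ∃ θ, θ ∈ uIoo (ρ i) (ρ (i + 1)) := by
  unfold uIoo
  have h1 : ρ i ⊓ ρ (i + 1) < ρ i ⊔ ρ (i + 1) := inf_lt_sup.2 (J.rods.ne i).symm
  exact exists_between h1

/-- the four sectors at `V (i+1)` -/
theorem vertex (J : JCh T V ρ S C) (h : Irr U T) {I O : ℕ → Fin k} (hS : JSd U V ρ C I O)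
    (i : ℕ) : ∃ c2 c3 : Fin k, I i ≠ c2 ∧ I i ≠ c3 ∧ I i ≠ O i ∧ c2 ≠ c3 ∧ c2 ≠ O i ∧ c3 ≠ O i ∧
      S = {I i, c2, c3, O i} ∧
      ∀ᶠ x in 𝓝 (V (i + 1)), (dist x (V i) < 1 → T x ⊆ {I i, c2}) ∧
        (1 < dist x (V i) → T x ⊆ {c3, O i}) ∧ (dist x (V (i + 2)) < 1 → T x ⊆ {I i, c3}) ∧
        (1 < dist x (V (i + 2)) → T x ⊆ {c2, O i}) := by
  obtain ⟨θ, hθ⟩ := J.exists_uIoo i
  obtain ⟨l, m, hl, hm, hg⟩ := J.arc_comb hθ
  have ha := J.Arc h hθ
  rw [hS.pair i] at ha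
  have hs := hS.sd i θ ⟨hθ.1.le, hθ.2.le⟩
  have hsub := J.C_sub (i + 1)
  rw [hS.pair i] at hsub
  have := h.vertex169 (J.exD i) (J.exD (i + 2)) (by rw [dist_comm]; exact J.rods.unit i)
    (J.rods.unit (i + 1)) (by rw [J.pal, J.pal]) (by rw [J.pal, J.pal]) (J.cr_ne i) hl hm hg ha hs
    (by rw [J.pal]; exact hsub (by simp)) (by rw [J.pal]; exact hsub (by simp))
  rw [J.pal] at this
  exact this

/-- **sectors** -/
theorem sectors (J : JCh T V ρ S C) (h : Irr U T) {I O : ℕ → Fin k} (hS : JSd U V ρ C I O)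
    (i : ℕ) : ∀ᶠ x in 𝓝 (V (i + 1)),
      (dist x (V i) < 1 → dist x (V (i + 2)) < 1 → x ∈ U (I i)) ∧
      (1 < dist x (V i) → 1 < dist x (V (i + 2)) → x ∈ U (O i)) := by
  obtain ⟨c2, c3, n1, n2, n3, n4, n5, n6, -, hx⟩ := J.vertex h hS i
  filter_upwards [hx] with x hx
  constructor
  · intro h1 h2
    refine h.mem_of_single fun j hj => ?_
    rcases hx.1 h1 hj with h3 | h3
    · exact h3
    · rcases hx.2.2.1 h2 hj with h4 | h4
      · exact h4
      · rw [mem_singleton_iff] at h3 h4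
        exact absurd (h3.symm.trans h4) n4
  · intro h1 h2
    refine h.mem_of_single fun j hj => ?_
    rcases hx.2.1 h1 hj with h3 | h3
    · rcases hx.2.2.2 h2 hj with h4 | h4
      · exact absurd (h4.symm.trans h3) n4
      · exact h4
    · exact h3

/-- points of the arc `i+1` near its first end -/
theorem arc_near (J : JCh T V ρ S C) (i : ℕ) {p : ℂ → Prop} (hp : ∀ᶠ x in 𝓝 (V i), p x) :
    ∃ θ ∈ uIoo (ρ i) (ρ (i + 1)), p (arcPt V i θ) := by
  have h1 : Tendsto (arcPt V i) (𝓝 (ρ i)) (𝓝 (V i)) := by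
    have h2 : Continuous (arcPt V i) := by
      unfold arcPt
      exact continuous_const.add (continuous_const.mul continuous_cis)
    have h3 := h2.tendsto (ρ i)
    rwa [J.rods.arc_left] at h3
  have h2 := h1.eventually hp
  obtain ⟨ε, hε, hb⟩ := Metric.eventually_nhds_iff.1 h2
  rcases lt_or_gt_of_ne (J.rods.ne i) with h3 | h3
  · obtain ⟨θ, hθ1, hθ2⟩ := exists_between (show max (ρ (i + 1)) (ρ i - ε) < ρ i from
      max_lt h3 (by linarith))
    refine ⟨θ, ?_, hb ?_⟩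
    · unfold uIoo
      rw [inf_eq_right.2 h3.le, sup_eq_left.2 h3.le]
      exact ⟨lt_of_le_of_lt (le_max_left _ _) hθ1, hθ2⟩
    · rw [Real.dist_eq, abs_lt]
      have := lt_of_le_of_lt (le_max_right (ρ (i + 1)) (ρ i - ε)) hθ1
      constructor <;> linarith
  · obtain ⟨θ, hθ1, hθ2⟩ := exists_between (show ρ i < min (ρ (i + 1)) (ρ i + ε) from
      lt_min h3 (by linarith))
    refine ⟨θ, ?_, hb ?_⟩
    · unfold uIoo
      rw [inf_eq_left.2 h3.le, sup_eq_right.2 h3.le]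
      exact ⟨hθ1, lt_of_lt_of_le hθ2 (min_le_left _ _)⟩
    · rw [Real.dist_eq, abs_lt]
      have := lt_of_lt_of_le hθ2 (min_le_right (ρ (i + 1)) (ρ i + ε))
      constructor <;> linarith

/-- angle differences on an arc -/
theorem abs_sub_le (J : JCh T V ρ S C) {i : ℕ} {θ : ℝ} (hθ : θ ∈ uIcc (ρ i) (ρ (i + 1))) :
    |θ - ρ i| ≤ Real.pi / 3 := by
  have h1 := J.rods.le i
  have h2 : |θ - ρ i| ≤ |ρ (i + 1) - ρ i| := by
    have h3 := Set.abs_sub_left_of_mem_uIcc hθ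
    exact h3
  exact h2.trans h1

/-- the sign of the angle difference on an open arc -/
theorem sign_pos (J : JCh T V ρ S C) {i : ℕ} {θ : ℝ} (hθ : θ ∈ uIoo (ρ i) (ρ (i + 1))) :
    0 < (θ - ρ i) * (ρ (i + 1) - ρ i) := by
  unfold uIoo at hθ
  rcases lt_or_gt_of_ne (J.rods.ne i) with h3 | h3
  · rw [inf_eq_right.2 h3.le, sup_eq_left.2 h3.le] at hθ
    exact mul_pos_of_neg_of_neg (by linarith [hθ.2]) (by linarith)
  · rw [inf_eq_left.2 h3.le, sup_eq_right.2 h3.le] at hθ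
    exact mul_pos (by linarith [hθ.1]) (by linarith)

/-- **junction**: same orientation -/
theorem junction_stay (J : JCh T V ρ S C) (h : Irr U T) {I O : ℕ → Fin k}
    (hS : JSd U V ρ C I O) {i : ℕ} (hs : 0 < (ρ (i + 1) - ρ i) * (ρ (i + 2) - ρ (i + 1))) :
    I (i + 1) = I i ∧ O (i + 1) ≠ O i := by
  obtain ⟨c2, c3, n1, n2, n3, n4, n5, n6, -, hx⟩ := J.vertex h hS i
  have hsd := hS.sd (i + 1) (ρ (i + 1)) left_mem_uIcc
  rw [J.rods.arc_left] at hsd
  obtain ⟨θ, hθ, hx', hsd'⟩ := J.arc_near (i + 1) (hx.and hsd)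
  have hT := J.arc (i + 1) θ hθ
  rw [hS.pair (i + 1)] at hT
  have hin : dist (arcPt V (i + 1) θ) (V i) < 1 := by
    rw [J.rods.dist_next]
    have h1 := J.sign_pos hθ
    refine rot3_lt169 (J.abs_sub_le ⟨hθ.1.le, hθ.2.le⟩) (J.rods.le i) ?_
    have h2 : ρ (i + 1 + 1) - ρ (i + 1) ≠ 0 := sub_ne_zero.2 (J.rods.ne (i + 1))
    by_contra h3
    push Not at h3
    have h4 : ρ (i + 2) = ρ (i + 1 + 1) := rfl
    rw [h4] at hs
    have h5 := mul_pos h1 hs
    have h6 : (θ - ρ (i + 1)) * (ρ (i + 1 + 1) - ρ (i + 1)) *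
        ((ρ (i + 1) - ρ i) * (ρ (i + 1 + 1) - ρ (i + 1))) =
        ((θ - ρ (i + 1)) * (ρ (i + 1) - ρ i)) * (ρ (i + 1 + 1) - ρ (i + 1)) ^ 2 := by ring
    rw [h6] at h5
    nlinarith [sq_nonneg (ρ (i + 1 + 1) - ρ (i + 1)), mul_nonneg (neg_nonneg.2 h3)
      (sq_nonneg (ρ (i + 1 + 1) - ρ (i + 1)))]
  have hsub := hx'.1 hin
  rw [hT] at hsub
  -- `{I', O'} = {I, c2}`
  have hI' : I (i + 1) = I i ∨ I (i + 1) = c2 := by simpa using hsub (by simp : I (i + 1) ∈ _)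
  have hO' : O (i + 1) = I i ∨ O (i + 1) = c2 := by simpa using hsub (by simp : O (i + 1) ∈ _)
  -- `I i` occurs inside `S(V (i+2))` near `V (i+1)`
  have hoc : O (i + 1) ≠ I i := by
    intro he
    obtain ⟨y, -, -, hy⟩ := region169 (p := V i) (r := V (i + 2)) (v := V (i + 1))
      (by rw [dist_comm]; exact J.rods.unit i) (J.rods.unit (i + 1)) (J.cr_ne i) (α := 1) (β := 1)
      one_ne_zero one_ne_zero
    obtain ⟨t, ht, h1, h2⟩ := (hy.and (((tendsto_ray169 (V (i + 1)) y).eventually hx).and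
      ((tendsto_ray169 (V (i + 1)) y).eventually hsd))).exists
    obtain ⟨j, hj⟩ := h.ne (V (i + 1) + t * y)
    have h3 : j = I i := by
      rcases h1.1 (ht.1 one_pos) hj with h4 | h4
      · exact h4
      · rcases h1.2.2.1 (ht.2.2.1 one_pos) hj with h5 | h5
        · exact h5
        · rw [mem_singleton_iff] at h4 h5
          exact absurd (h4.symm.trans h5) n4
    subst h3
    exact h2.2 (ht.2.2.1 one_pos) (he ▸ h.sub _ hj)
  rcases hO' with h1 | h1
  · exact absurd h1 hoc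
  · refine ⟨?_, by rw [h1]; exact n5⟩
    rcases hI' with h2 | h2
    · exact h2
    · exact absurd (h2.trans h1.symm) (hS.ne (i + 1))

/-- **junction**: opposite orientation -/
theorem junction_switch (J : JCh T V ρ S C) (h : Irr U T) {I O : ℕ → Fin k}
    (hS : JSd U V ρ C I O) {i : ℕ} (hs : (ρ (i + 1) - ρ i) * (ρ (i + 2) - ρ (i + 1)) < 0) :
    O (i + 1) = O i ∧ I (i + 1) ≠ I i := by
  obtain ⟨c2, c3, n1, n2, n3, n4, n5, n6, -, hx⟩ := J.vertex h hS i
  have hsd := hS.sd (i + 1) (ρ (i + 1)) left_mem_uIcc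
  rw [J.rods.arc_left] at hsd
  obtain ⟨θ, hθ, hx', hsd'⟩ := J.arc_near (i + 1) (hx.and hsd)
  have hT := J.arc (i + 1) θ hθ
  rw [hS.pair (i + 1)] at hT
  have hin : 1 < dist (arcPt V (i + 1) θ) (V i) := by
    rw [J.rods.dist_next]
    have h1 := J.sign_pos hθ
    refine rot3_gt169 (J.abs_sub_le ⟨hθ.1.le, hθ.2.le⟩) (J.rods.le i) ?_
    have h2 : ρ (i + 1 + 1) - ρ (i + 1) ≠ 0 := sub_ne_zero.2 (J.rods.ne (i + 1))
    by_contra h3
    push Not at h3
    have h4 : ρ (i + 2) = ρ (i + 1 + 1) := rfl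
    rw [h4] at hs
    have h5 := mul_neg_of_pos_of_neg h1 hs
    have h6 : (θ - ρ (i + 1)) * (ρ (i + 1 + 1) - ρ (i + 1)) *
        ((ρ (i + 1) - ρ i) * (ρ (i + 1 + 1) - ρ (i + 1))) =
        ((θ - ρ (i + 1)) * (ρ (i + 1) - ρ i)) * (ρ (i + 1 + 1) - ρ (i + 1)) ^ 2 := by ring
    rw [h6] at h5
    nlinarith [mul_nonneg h3 (sq_nonneg (ρ (i + 1 + 1) - ρ (i + 1)))]
  have hsub := hx'.2.1 hin
  rw [hT] at hsub
  have hI' : I (i + 1) = c3 ∨ I (i + 1) = O i := by simpa using hsub (by simp : I (i + 1) ∈ _)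
  have hO' : O (i + 1) = c3 ∨ O (i + 1) = O i := by simpa using hsub (by simp : O (i + 1) ∈ _)
  -- `O i` occurs outside `S(V (i+2))` near `V (i+1)`
  have hoc : I (i + 1) ≠ O i := by
    intro he
    obtain ⟨y, -, -, hy⟩ := region169 (p := V i) (r := V (i + 2)) (v := V (i + 1))
      (by rw [dist_comm]; exact J.rods.unit i) (J.rods.unit (i + 1)) (J.cr_ne i) (α := -1)
      (β := -1) (by norm_num) (by norm_num)
    obtain ⟨t, ht, h1, h2⟩ := (hy.and (((tendsto_ray169 (V (i + 1)) y).eventually hx).and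
      ((tendsto_ray169 (V (i + 1)) y).eventually hsd))).exists
    obtain ⟨j, hj⟩ := h.ne (V (i + 1) + t * y)
    have h3 : j = O i := by
      rcases h1.2.1 (ht.2.1 (by norm_num)) hj with h4 | h4
      · rcases h1.2.2.2 (ht.2.2.2 (by norm_num)) hj with h5 | h5
        · exact absurd (h5.symm.trans h4) n4
        · exact h5
      · exact h4
    subst h3
    exact h2.1 (ht.2.2.2 (by norm_num)) (he ▸ h.sub _ hj)
  rcases hI' with h1 | h1
  · refine ⟨?_, by rw [h1]; exact n2.symm⟩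
    rcases hO' with h2 | h2
    · exact absurd (h1.trans h2.symm) (hS.ne (i + 1))
    · exact h2
  · exact absurd h1 hoc

end JCh

end Vale.Agent.P032.Six
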