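import Vale.Agent.P032.H169.SixHD
import Vale.Agent.P032.H617.EndHD
import Vale.Agent.P032.H437.Kill2

/-!
# P032: the end for points of order six, from the bridge and the end without swaps
-/

open Set Filter Topology Metric

noncomputable section

namespace Vale.Agent.P032.H169

open Vale.Agent.P032.H617.EndHD

/-- no windowed centre of order six with honest ends, from the bridge and the last table -/
theorem endW_of (B : Bridge Vale.Agent.P032.H437.Ev2.evs) (E : EndNs) : EndW :=
  endHD_of (fun _ _ _ _ _ h hmin hz w hD => Vale.Agent.P032.H437.kill2_hd h hmin hz w hD) B E

end Vale.Agent.P032.H169
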