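import Vale.Agent.P032.H169.Tame6
import Vale.Agent.P032.H429.Tame6

/-!
# P032: points of order six

`EndW` : there is no centre of order six with windows whose ends are honest directions.
`no6w_of` : then there is no point of order six such that all other points near it have at most two
colours and every colour is in a pair of its unit circle.
`six_ofW`, `six_pair` : the statement in the plane, for every maximal family and every point near
which no five of the six sets suffice.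
-/

open Set Filter Topology Metric

noncomputable section

namespace Vale.Agent.P032.H169

open Vale.Agent.P032.Six Vale.Agent.P032.Sweep Vale.Agent.P032.S5.H767 Vale.Agent.P032.S5.H122
  Vale.Agent.P032.H429 Vale.Agent.P032.H187 Vale.Agent.P032.H158 Vale.Agent.P032.H448
  Vale.Agent.P032.H266 Vale.Agent.P032.H259 Vale.Agent.P032.S5.H843 Vale.Agent.P032.S5.H926

/-- no windowed centre of order six with both ends of the windows honest -/
def EndW : Prop := ∀ (U : Fin 6 → Set ℂ) (T : ℂ → Set (Fin 6)) (z : ℂ) (L R : Fin 6 → ℝ),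
  Irr U T → Mh259 U T → (∀ i, i ∈ T z) → WinData T z L R →
    (∀ i, L i ∈ HD U z i ∧ R i ∈ HD U z i) → False

/-- no tame point of order six all colours of which are in pairs of its circle -/
def No6W : Prop := ∀ (U : Fin 6 → Set ℂ) (T : ℂ → Set (Fin 6)) (z : ℂ),
  Irr U T → Mh259 U T → (∀ i, i ∈ T z) → (∀ᶠ w in 𝓝[≠] z, (T w).ncard ≤ 2) →
    (∀ i, ∃ q, dist q z = 1 ∧ i ∈ T q ∧ (T q).ncard = 2) → False

theorem no6w_of (E : EndW) : No6W := by
  intro U T z h hmin hz ht hc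
  obtain ⟨L, R, w, hd⟩ := H429T.tame_win429 h hmin (eq_univ_of_forall hz) ht hc
  exact E U T z L R h hmin hz w hd

/-- **points near which all six sets are needed** -/
theorem six_ofW (H : No6W) {U : Fin 6 → Set (EuclideanSpace ℝ (Fin 2))}
    (hU : ∀ i, Maximal (fun W : Set (EuclideanSpace ℝ (Fin 2)) =>
      IsOpen W ∧ ∀ x ∈ W, ∀ y ∈ W, dist x y ≠ 1) (U i))
    (hd : Dense (⋃ i, U i)) {x : EuclideanSpace ℝ (Fin 2)}
    (hx : ∀ s : Set (Fin 6), s.ncard ≤ 5 → x ∈ closure ((⋃ j, U j) \ ⋃ i ∈ s, U i)) :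
    (∃ᶠ w in 𝓝[≠] x, Three U w) ∨
      ∃ i, ∀ y, dist y x = 1 →
        (∃ X : Set (Fin 6), X.ncard = 3 ∧ i ∈ X ∧ ∀ j ∈ X, y ∈ closure (U j)) ∨
        y ∉ closure ((⋃ j, U j) \ ⋃ j ∈ ({i} : Set (Fin 6))ᶜ, U j) := by
  by_contra hcon
  rw [not_or] at hcon
  obtain ⟨hA, hC⟩ := hcon
  obtain ⟨φ, T, h, hmin⟩ := frame169 hU hd
  obtain ⟨z, rfl⟩ := φ.surjective x
  have hsuf : ∀ (w : ℂ) (s : Set (Fin 6)), T w ⊆ s →
      φ w ∉ closure ((⋃ j, U j) \ ⋃ i ∈ s, U i) := by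
    intro w s hs hcl
    refine Irr_suff h w ((cdf169 φ (T w) w).2 (closure_mono ?_ hcl))
    exact sdiff_subset_sdiff_right (biUnion_mono hs fun _ _ => Subset.rfl)
  have hz : ∀ i, i ∈ T z := by
    intro i
    by_contra hi
    have h1 : (T z).ncard ≤ 5 := by
      by_contra h2
      have h3 : (T z).ncard = 6 := by
        have h4 : (T z).ncard ≤ 6 := (Set.ncard_le_card _).trans (by simp)
        omega
      have h5 : T z = univ := Set.eq_univ_of_forall fun j => by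
        by_contra hj
        have h6 : T z ⊆ {j}ᶜ := fun k hk hkj => hj (by rw [mem_singleton_iff] at hkj; exact hkj ▸ hk)
        have h7 := Set.ncard_le_ncard h6 (Set.toFinite _)
        have h8 := Set.ncard_add_ncard_compl ({j} : Set (Fin 6))
        rw [Set.ncard_singleton, Nat.card_eq_fintype_card, Fintype.card_fin] at h8
        omega
      rw [h5] at hi
      exact hi (mem_univ i)
    exact hsuf z (T z) Subset.rfl (hx (T z) h1)
  have ht : ∀ᶠ w in 𝓝[≠] z, (T w).ncard ≤ 2 := by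
    by_contra hcon
    refine hA ?_
    have h1 : ∃ᶠ w in 𝓝[≠] z, ¬ (T w).ncard ≤ 2 := Filter.not_eventually.1 hcon
    have h2 : Tendsto φ (𝓝[≠] z) (𝓝[≠] (φ z)) := by
      refine tendsto_nhdsWithin_iff.2 ⟨φ.continuous.continuousAt.tendsto.mono_left inf_le_left, ?_⟩
      filter_upwards [self_mem_nhdsWithin] with w hw h3
      exact hw (φ.injective h3)
    exact h2.frequently (h1.mono fun w hw => three_of h hw)
  refine H _ T z h hmin hz ht fun i => ?_
  by_contra hcon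
  push Not at hcon
  refine hC ⟨i, fun y hy => ?_⟩
  obtain ⟨q, rfl⟩ := φ.surjective y
  rw [φ.dist_map] at hy
  by_cases hi : i ∈ T q
  · left
    have h2 : 3 ≤ (T q).ncard := by
      by_contra h2
      refine hcon q hy hi (le_antisymm (by omega) ?_)
      by_contra h1
      have h3 : T q ⊆ {i} := fun m hm =>
        (Set.ncard_le_one (Set.toFinite _)).1 (by omega) m hm i hi
      exact h.mx.notMem' (h.mem_of_single h3) hy (h.sub z (hz i))
    obtain ⟨R, hR1, hR2, hR3⟩ := Set.exists_subsuperset_card_eq (s := {i}) (t := T q) (n := 3)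
      (by rwa [Set.singleton_subset_iff]) (by rw [Set.ncard_singleton]; omega) h2
    exact ⟨R, hR3, hR1 rfl, fun j hj => clo169 h (hR2 hj)⟩
  · right
    refine hsuf _ _ fun j hj hji => hi ?_
    rw [mem_singleton_iff] at hji
    exact hji ▸ hj

/-- **points near which all six sets are needed**, in the form for the plane -/
theorem six_pair (H : No6W) {U : Fin 6 → Set (EuclideanSpace ℝ (Fin 2))}
    (hd : Dense (⋃ i, U i))
    (hU : ∀ i, Maximal (fun W : Set (EuclideanSpace ℝ (Fin 2)) =>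
      IsOpen W ∧ ∀ x ∈ W, ∀ y ∈ W, dist x y ≠ 1) (U i))
    (x : EuclideanSpace ℝ (Fin 2))
    (hx : ∀ s : Set (Fin 6), s.ncard ≤ 5 → x ∈ closure ((⋃ j, U j) \ ⋃ i ∈ s, U i)) :
    (∀ r > 0, ∃ w, w ≠ x ∧ dist w x < r ∧
      ∃ X : Set (Fin 6), X.ncard = 3 ∧ ∀ i ∈ X, w ∈ closure (U i)) ∨
      ∃ i, ∀ y, dist y x = 1 →
        (∃ X : Set (Fin 6), X.ncard = 3 ∧ i ∈ X ∧ ∀ j ∈ X, y ∈ closure (U j)) ∨
        y ∉ closure ((⋃ j, U j) \ ⋃ j ∈ ({i} : Set (Fin 6))ᶜ, U j) := by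
  rcases six_ofW H hU hd hx with h1 | h1
  · left
    intro r hr
    have h2 : ∀ᶠ w in 𝓝[≠] x, dist w x < r ∧ w ≠ x := by
      filter_upwards [mem_nhdsWithin_of_mem_nhds (ball_mem_nhds x hr), self_mem_nhdsWithin]
        with w h3 h4
      exact ⟨h3, h4⟩
    obtain ⟨w, ⟨X, hX, hXc⟩, h3, h4⟩ := (h1.and_eventually h2).exists
    exact ⟨w, h4, h3, X, hX, hXc⟩
  · exact Or.inr h1

/-- the hand-in, from the end -/
theorem handSixTame (E : EndW) :
    (∀ V : Fin 6 → Set (EuclideanSpace ℝ (Fin 2)), (∀ i, IsOpen (V i)) →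
      (∀ i, ∀ x ∈ V i, ∀ y ∈ V i, dist x y ≠ 1) → Dense (⋃ i, V i) →
      ∃ U : Fin 6 → Set (EuclideanSpace ℝ (Fin 2)), (∀ i, V i ⊆ U i) ∧ Dense (⋃ i, U i) ∧
        ∀ i, Maximal (fun W : Set (EuclideanSpace ℝ (Fin 2)) =>
          IsOpen W ∧ ∀ x ∈ W, ∀ y ∈ W, dist x y ≠ 1) (U i)) ∧
    (∀ U : Fin 6 → Set (EuclideanSpace ℝ (Fin 2)), Dense (⋃ i, U i) →
      (∀ i, Maximal (fun W : Set (EuclideanSpace ℝ (Fin 2)) =>
        IsOpen W ∧ ∀ x ∈ W, ∀ y ∈ W, dist x y ≠ 1) (U i)) →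
      ∀ x : EuclideanSpace ℝ (Fin 2),
        (∀ s : Set (Fin 6), s.ncard ≤ 5 → x ∈ closure ((⋃ j, U j) \ ⋃ i ∈ s, U i)) →
        (∀ r > 0, ∃ w, w ≠ x ∧ dist w x < r ∧
          ∃ X : Set (Fin 6), X.ncard = 3 ∧ ∀ i ∈ X, w ∈ closure (U i)) ∨
        ∃ i, ∀ y, dist y x = 1 →
          (∃ X : Set (Fin 6), X.ncard = 3 ∧ i ∈ X ∧ ∀ j ∈ X, y ∈ closure (U j)) ∨
          y ∉ closure ((⋃ j, U j) \ ⋃ j ∈ ({i} : Set (Fin 6))ᶜ, U j)) :=
  ⟨fun V hV hfree hd => by
    choose U hVU hU using fun i => exists_maximal_ge (hV i) (hfree i)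
    exact ⟨U, hVU, hd.mono (iUnion_mono hVU), hU⟩,
    fun _ hd hU x hx => six_pair (no6w_of E) hd hU x hx⟩

end Vale.Agent.P032.H169
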