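import Vale.Agent.P032.H169.SixEnd
import Vale.Agent.P032.H800.Br.Bridge
import Vale.Agent.P032.H728.GTop

/-!
# P032: the end for points of order six
-/

open Set Filter Topology Metric

noncomputable section

namespace Vale.Agent.P032.H169

/-- no windowed centre without swaps and six conveyors -/
theorem endNs169 : Vale.Agent.P032.H617.EndHD.EndNs := fun _ _ _ _ _ h w hE =>
  Vale.Agent.P032.H728.G.false_of_nsc h w hE

/-- **no windowed centre of order six with honest ends** -/
theorem endW : EndW := endW_of Vale.Agent.P032.H800.Br.bridge800 endNs169

end Vale.Agent.P032.H169
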