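import Vale.Agent.P032.H169.Sector
import Vale.Agent.P032.H715.Sides
import Vale.Agent.P032.H802.Closing

/-!
# P032: J-chains with constant orientation

`JCh.stay_data` : for a chain with constant orientation and the inner colour `a`:
the curve of the odd vertices is in all closed discs about the even vertices, has an inner collar in
`U a`, and contains every point of the closed region on one of the circles.
-/

open Set Filter Topology Metric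

noncomputable section

namespace Vale.Agent.P032.Six

variable {k : ℕ} {U : Fin k → Set ℂ} {T : ℂ → Set (Fin k)}

/-- the even vertices -/
def evV (V : ℕ → ℂ) : Set ℂ := {w | ∃ j, Even j ∧ w = V j}

/-- the curve through the odd vertices -/
def odΓ (V : ℕ → ℂ) (ρ : ℕ → ℝ) : Set ℂ :=
  {z | ∃ i, Odd i ∧ ∃ θ ∈ uIcc (ρ i) (ρ (i + 1)), z = arcPt V i θ}

/-- the curve through the even vertices -/
def evΓ (V : ℕ → ℂ) (ρ : ℕ → ℝ) : Set ℂ :=
  {z | ∃ i, Even i ∧ ∃ θ ∈ uIcc (ρ i) (ρ (i + 1)), z = arcPt V i θ}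

namespace JCh

variable {V : ℕ → ℂ} {ρ : ℕ → ℝ} {S : Set (Fin k)} {C : ℕ → Set (Fin k)}

theorem preconn_arc169 (V : ℕ → ℂ) (ρ : ℕ → ℝ) (i : ℕ) :
    IsPreconnected (arcPt V i '' uIcc (ρ i) (ρ (i + 1))) :=
  isPreconnected_uIcc.image _ (by
    unfold arcPt
    exact (continuous_const.add (continuous_const.mul continuous_cis)).continuousOn)

theorem preconn_chain169 (J : JCh T V ρ S C) (m : ℕ) :
    IsPreconnected (⋃ n : ℕ, arcPt V (m + 2 * n) '' uIcc (ρ (m + 2 * n)) (ρ (m + 2 * n + 1))) := by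
  refine IsPreconnected.iUnion_of_chain (fun n => preconn_arc169 V ρ _) fun n => ?_
  refine ⟨V (m + 2 * n + 2), ⟨ρ (m + 2 * n + 1), right_mem_uIcc, J.rods.arc_right _⟩, ?_⟩
  have e : m + 2 * Order.succ n = m + 2 * n + 2 := by rw [Order.succ_eq_add_one]; ring
  rw [e]
  exact ⟨ρ (m + 2 * n + 2), left_mem_uIcc, J.rods.arc_left _⟩

theorem odΓ_eq (V : ℕ → ℂ) (ρ : ℕ → ℝ) : odΓ V ρ =
    ⋃ n : ℕ, arcPt V (1 + 2 * n) '' uIcc (ρ (1 + 2 * n)) (ρ (1 + 2 * n + 1)) := by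
  ext z
  rw [mem_iUnion]
  constructor
  · rintro ⟨i, ⟨n, hn⟩, θ, hθ, rfl⟩
    refine ⟨n, θ, ?_, ?_⟩
    · rw [show 1 + 2 * n = i by omega]; exact hθ
    · rw [show 1 + 2 * n = i by omega]
  · rintro ⟨n, θ, hθ, rfl⟩
    exact ⟨1 + 2 * n, ⟨n, by ring⟩, θ, hθ, rfl⟩

theorem evΓ_eq (V : ℕ → ℂ) (ρ : ℕ → ℝ) : evΓ V ρ =
    ⋃ n : ℕ, arcPt V (0 + 2 * n) '' uIcc (ρ (0 + 2 * n)) (ρ (0 + 2 * n + 1)) := by
  ext z
  rw [mem_iUnion]
  constructor
  · rintro ⟨i, ⟨n, hn⟩, θ, hθ, rfl⟩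
    refine ⟨n, θ, ?_, ?_⟩
    · rw [show 0 + 2 * n = i by omega]; exact hθ
    · rw [show 0 + 2 * n = i by omega]
  · rintro ⟨n, θ, hθ, rfl⟩
    exact ⟨0 + 2 * n, ⟨n, by ring⟩, θ, hθ, rfl⟩

theorem preconn_odΓ (J : JCh T V ρ S C) : IsPreconnected (odΓ V ρ) := by
  rw [odΓ_eq]; exact J.preconn_chain169 1

theorem preconn_evΓ (J : JCh T V ρ S C) : IsPreconnected (evΓ V ρ) := by
  rw [evΓ_eq]; exact J.preconn_chain169 0

/-- a common colour of all full pairs occurs on the closed arcs -/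
theorem odΓ_mem (J : JCh T V ρ S C) (h : Irr U T) {x : Fin k} (hx : ∀ i, x ∈ C (i + 1)) {z : ℂ}
    (hz : z ∈ odΓ V ρ) : x ∈ T z := by
  obtain ⟨i, -, θ, hθ, rfl⟩ := hz
  exact J.mem_arc h hx i θ hθ

theorem evΓ_mem (J : JCh T V ρ S C) (h : Irr U T) {x : Fin k} (hx : ∀ i, x ∈ C (i + 1)) {z : ℂ}
    (hz : z ∈ evΓ V ρ) : x ∈ T z := by
  obtain ⟨i, -, θ, hθ, rfl⟩ := hz
  exact J.mem_arc h hx i θ hθ

/-- wlemma for curves of one colour -/
theorem _root_.Vale.Agent.P032.Six.Irr.curve_in169 (h : Irr U T) {Q : Set ℂ}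
    (hQ : IsPreconnected Q) {x : Fin k} (hQx : ∀ z ∈ Q, x ∈ T z) {u p : ℂ} (hu : x ∈ T u)
    (hp : p ∈ Q) (hpu : dist p u < 1) {z : ℂ} (hz : z ∈ Q) : dist z u ≤ 1 := by
  by_contra hcon
  push Not at hcon
  exact h.mx.wlemma hQ (fun w hw => h.sub w (hQx w hw)) hp hz hpu hcon (h.sub u hu)

theorem ev_mem_Γ (J : JCh T V ρ S C) {j : ℕ} (hj : Even j) : V j ∈ evΓ V ρ :=
  ⟨j, hj, ρ j, left_mem_uIcc, (J.rods.arc_left j).symm⟩

theorem od_mem_Γ (J : JCh T V ρ S C) {j : ℕ} (hj : Odd j) : V j ∈ odΓ V ρ :=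
  ⟨j, hj, ρ j, left_mem_uIcc, (J.rods.arc_left j).symm⟩

/-- constant orientation: the sign -/
theorem stay_sign (J : JCh T V ρ S C)
    (hst : ∀ i, 0 < (ρ (i + 1) - ρ i) * (ρ (i + 2) - ρ (i + 1))) (i : ℕ) :
    0 < (ρ 1 - ρ 0) * (ρ (i + 1) - ρ i) := by
  induction i with
  | zero =>
    have h1 := sub_ne_zero.2 (J.rods.ne 0)
    rw [zero_add] at h1 ⊢
    exact mul_self_pos.2 h1
  | succ i ih =>
    have h1 := hst i
    have h2 : ρ (i + 1 + 1) = ρ (i + 2) := rfl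
    rw [h2]
    have h3 := mul_pos ih h1
    have h4 : (ρ 1 - ρ 0) * (ρ (i + 1) - ρ i) * ((ρ (i + 1) - ρ i) * (ρ (i + 2) - ρ (i + 1))) =
      ((ρ 1 - ρ 0) * (ρ (i + 2) - ρ (i + 1))) * (ρ (i + 1) - ρ i) ^ 2 := by ring
    rw [h4] at h3
    by_contra h5
    push Not at h5
    nlinarith [mul_nonneg (neg_nonneg.2 h5) (sq_nonneg (ρ (i + 1) - ρ i))]

/-- the curve of the odd vertices is in the closed discs about the even vertices -/
theorem stay_in (J : JCh T V ρ S C) (h : Irr U T)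
    (hst : ∀ i, 0 < (ρ (i + 1) - ρ i) * (ρ (i + 2) - ρ (i + 1))) {x : Fin k}
    (hx : ∀ i, x ∈ C (i + 1)) {j : ℕ} (hj : Even j) {z : ℂ} (hz : z ∈ odΓ V ρ) :
    dist z (V j) ≤ 1 := by
  obtain ⟨θ, hθ⟩ := J.exists_uIoo (j + 1)
  have hin : dist (arcPt V (j + 1) θ) (V j) < 1 := by
    rw [J.rods.dist_next]
    refine rot3_lt169 (J.abs_sub_le ⟨hθ.1.le, hθ.2.le⟩) (J.rods.le j) ?_
    have h1 := J.sign_pos hθ
    have h2 := hst j
    have h3 : ρ (j + 1 + 1) = ρ (j + 2) := rfl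
    rw [h3] at h1
    have h4 := mul_pos h1 h2
    have h5 : (θ - ρ (j + 1)) * (ρ (j + 2) - ρ (j + 1)) *
        ((ρ (j + 1) - ρ j) * (ρ (j + 2) - ρ (j + 1))) =
        ((θ - ρ (j + 1)) * (ρ (j + 1) - ρ j)) * (ρ (j + 2) - ρ (j + 1)) ^ 2 := by ring
    rw [h5] at h4
    by_contra h6
    push Not at h6
    nlinarith [mul_nonneg (neg_nonneg.2 h6) (sq_nonneg (ρ (j + 2) - ρ (j + 1)))]
  refine h.curve_in169 J.preconn_odΓ (fun w hw => J.odΓ_mem h hx hw) ?_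
    ⟨j + 1, hj.add_one, θ, ⟨hθ.1.le, hθ.2.le⟩, rfl⟩ hin hz
  rw [J.pal]
  exact J.C_sub 1 (hx 0)

/-- the boundary of the region of the even vertices -/
theorem stay_bd (J : JCh T V ρ S C) (h : Irr U T)
    (hst : ∀ i, 0 < (ρ (i + 1) - ρ i) * (ρ (i + 2) - ρ (i + 1))) {x : Fin k}
    (hx : ∀ i, x ∈ C (i + 1)) (hfin : (range V).Finite) {z : ℂ}
    (hz : ∀ w ∈ evV V, dist z w ≤ 1) (hz1 : ∃ w ∈ evV V, dist z w = 1) : z ∈ odΓ V ρ := by
  obtain ⟨N, hN, hper⟩ := J.closed hfin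
  obtain ⟨w, ⟨j, hj, rfl⟩, hzj⟩ := hz1
  exact J.rods.stay_pt hN hper (J.stay_sign hst)
    (fun i j hi hj θ hθ => J.stay_in h hst hx hj ⟨i, hi, θ, hθ, rfl⟩)
    (fun j hj => hz _ ⟨j, hj, rfl⟩) hj hzj

/-- the inner collar of the curve of the odd vertices -/
theorem stay_collar (J : JCh T V ρ S C) (h : Irr U T) {I O : ℕ → Fin k} (hS : JSd U V ρ C I O)
    {a : Fin k} (hI : ∀ i, I i = a) {y : ℂ} (hy : y ∈ odΓ V ρ) :
    ∀ᶠ x in 𝓝 y, (∀ w ∈ evV V, dist x w < 1) → x ∈ U a := by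
  have hvert : ∀ m, Even m → ∀ᶠ x in 𝓝 (V (m + 1)), (∀ w ∈ evV V, dist x w < 1) → x ∈ U a := by
    intro m hm
    filter_upwards [J.sectors h hS m] with x hx hw
    rw [← hI m]
    exact hx.1 (hw _ ⟨m, hm, rfl⟩) (hw _ ⟨m + 2, hm.add (by decide), rfl⟩)
  obtain ⟨i, hi, θ, hθ, rfl⟩ := hy
  by_cases h0 : θ ∈ uIoo (ρ i) (ρ (i + 1))
  · filter_upwards [J.collar h (hS.pair i) (hS.sd i) h0] with x hx hw
    rw [← hI i]
    exact (hx.1 (hw _ ⟨i + 1, hi.add_one, rfl⟩)).2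
  · have h1 : θ = ρ i ∨ θ = ρ (i + 1) := by
      have h2 : ρ i ⊓ ρ (i + 1) ≤ θ := hθ.1
      have h3 : θ ≤ ρ i ⊔ ρ (i + 1) := hθ.2
      unfold uIoo at h0
      rw [mem_Ioo, not_and_or, not_lt, not_lt] at h0
      rcases h0 with h0 | h0
      · have h4 := le_antisymm h0 h2
        rcases le_total (ρ i) (ρ (i + 1)) with h5 | h5
        · rw [inf_eq_left.2 h5] at h4; exact Or.inl h4
        · rw [inf_eq_right.2 h5] at h4; exact Or.inr h4
      · have h4 := le_antisymm h3 h0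
        rcases le_total (ρ i) (ρ (i + 1)) with h5 | h5
        · rw [sup_eq_right.2 h5] at h4; exact Or.inr h4
        · rw [sup_eq_left.2 h5] at h4; exact Or.inl h4
    rcases h1 with rfl | rfl
    · rw [J.rods.arc_left]
      obtain ⟨n, hn⟩ := hi
      have := hvert (2 * n) ⟨n, by ring⟩
      rwa [← hn] at this
    · rw [J.rods.arc_right]
      exact hvert (i + 1) hi.add_one

/-- the colours on the curve of the odd vertices -/
theorem odΓ_sub (J : JCh T V ρ S C) {z : ℂ} (hz : z ∈ odΓ V ρ) : T z ⊆ S := by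
  obtain ⟨i, hi, θ, hθ, rfl⟩ := hz
  by_cases h0 : θ ∈ uIoo (ρ i) (ρ (i + 1))
  · rw [J.arc i θ h0]; exact J.C_sub (i + 1)
  · have h1 : θ = ρ i ∨ θ = ρ (i + 1) := by
      have h2 : ρ i ⊓ ρ (i + 1) ≤ θ := hθ.1
      have h3 : θ ≤ ρ i ⊔ ρ (i + 1) := hθ.2
      unfold uIoo at h0
      rw [mem_Ioo, not_and_or, not_lt, not_lt] at h0
      rcases h0 with h0 | h0
      · have h4 := le_antisymm h0 h2
        rcases le_total (ρ i) (ρ (i + 1)) with h5 | h5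
        · rw [inf_eq_left.2 h5] at h4; exact Or.inl h4
        · rw [inf_eq_right.2 h5] at h4; exact Or.inr h4
      · have h4 := le_antisymm h3 h0
        rcases le_total (ρ i) (ρ (i + 1)) with h5 | h5
        · rw [sup_eq_right.2 h5] at h4; exact Or.inr h4
        · rw [sup_eq_left.2 h5] at h4; exact Or.inl h4
    rcases h1 with rfl | rfl
    · rw [J.rods.arc_left, J.pal]
    · rw [J.rods.arc_right, J.pal]

end JCh

end Vale.Agent.P032.Six
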