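import Vale.Agent.P032.H259.TameWin
import Vale.Agent.P032.S5.H843.PairD

/-!
# P032: tame points of order six

`End6` : a centre of order six with windows and honest directions does not exist.
`no6_of` : then there is no tame thin point of order six which sees all colours.
`six_of` : in the plane: near a point `x` where all six sets of a maximal family are needed there are
points in the closures of three of the sets arbitrarily close to `x`, or there is an arc of the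
unit circle of `x` of such points, or there is an index `i` such that every arc of the unit circle
of `x` contains a point near which the five other sets suffice.
-/

open Set Filter Topology Metric

noncomputable section

namespace Vale.Agent.P032.H169

open Vale.Agent.P032.Six Vale.Agent.P032.Sweep Vale.Agent.P032.S5.H767 Vale.Agent.P032.S5.H122
  Vale.Agent.P032.H429 Vale.Agent.P032.H187 Vale.Agent.P032.H158 Vale.Agent.P032.H448
  Vale.Agent.P032.H266 Vale.Agent.P032.H259 Vale.Agent.P032.S5.H843 Vale.Agent.P032.S5.H926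

/-- no windowed centre of order six with honest directions -/
def End6 : Prop := ∀ (U : Fin 6 → Set ℂ) (T : ℂ → Set (Fin 6)) (z : ℂ) (L R : Fin 6 → ℝ),
  Irr U T → Mh259 U T → (∀ i, i ∈ T z) → WinData T z L R → (∀ i, Hon U z L R i) → False

/-- no tame thin point of order six which sees all colours -/
def No6T : Prop := ∀ (U : Fin 6 → Set ℂ) (T : ℂ → Set (Fin 6)) (z : ℂ),
  Irr U T → Mh259 U T → (∀ i, i ∈ T z) → (∀ᶠ w in 𝓝[≠] z, (T w).ncard ≤ 2) → Thin259 T z →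
    (∀ i, ∃ s ∈ Lc T z, i ∈ T (pt z s)) → False

theorem no6_of (E : End6) : No6T := by
  intro U T z h hmin hz ht hth hc
  obtain ⟨L, R, w, hon, -⟩ := tame_win259 h hmin hz ht hth hc
  exact E U T z L R h hmin hz w hon

/-! ### In the plane -/

theorem cdf169 {U : Fin 6 → Set (EuclideanSpace ℝ (Fin 2))} (φ : ℂ ≃ₗᵢ[ℝ] EuclideanSpace ℝ (Fin 2))
    (s : Set (Fin 6)) (z : ℂ) :
    z ∈ closure ((⋃ j, φ ⁻¹' U j) \ ⋃ i ∈ s, φ ⁻¹' U i) ↔
      φ z ∈ closure ((⋃ j, U j) \ ⋃ i ∈ s, U i) := by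
  have hdf : ((⋃ j, φ ⁻¹' U j) \ ⋃ i ∈ s, φ ⁻¹' U i) =
      φ ⁻¹' ((⋃ j, U j) \ ⋃ i ∈ s, U i) := by
    rw [preimage_sdiff, preimage_iUnion, preimage_iUnion₂]
  have hcl : closure (φ ⁻¹' ((⋃ j, U j) \ ⋃ i ∈ s, U i)) =
      φ ⁻¹' closure ((⋃ j, U j) \ ⋃ i ∈ s, U i) := (φ.toHomeomorph.preimage_closure _).symm
  rw [hdf, hcl]
  rfl

theorem clo169 {U : Fin 6 → Set (EuclideanSpace ℝ (Fin 2))} {T : ℂ → Set (Fin 6)}
    {φ : ℂ ≃ₗᵢ[ℝ] EuclideanSpace ℝ (Fin 2)} (h : Irr (fun i => φ ⁻¹' U i) T) {x : ℂ} {i : Fin 6}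
    (hi : i ∈ T x) : φ x ∈ closure (U i) := by
  have h1 : x ∈ closure (φ ⁻¹' U i) := h.sub x hi
  have h2 : closure (φ ⁻¹' U i) = φ ⁻¹' closure (U i) :=
    (φ.toHomeomorph.preimage_closure (U i)).symm
  rw [h2] at h1
  exact h1

/-- the frame of a maximal family -/
theorem frame169 {U : Fin 6 → Set (EuclideanSpace ℝ (Fin 2))}
    (hU : ∀ i, Maximal (fun W : Set (EuclideanSpace ℝ (Fin 2)) =>
      IsOpen W ∧ ∀ x ∈ W, ∀ y ∈ W, dist x y ≠ 1) (U i))
    (hd : Dense (⋃ i, U i)) :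
    ∃ (φ : ℂ ≃ₗᵢ[ℝ] EuclideanSpace ℝ (Fin 2)) (T : ℂ → Set (Fin 6)),
      Irr (fun i => φ ⁻¹' U i) T ∧ Mh259 (fun i => φ ⁻¹' U i) T := by
  let φ : ℂ ≃ₗᵢ[ℝ] EuclideanSpace ℝ (Fin 2) := Complex.orthonormalBasisOneI.repr
  have hU' : ∀ i, Maximal (fun W : Set ℂ => IsOpen W ∧ ∀ x ∈ W, ∀ y ∈ W, dist x y ≠ 1)
      (φ ⁻¹' U i) := fun i => maximal_preimage (hU i) φ
  have hd' : Dense (⋃ i, φ ⁻¹' U i) := by
    rw [← preimage_iUnion]
    exact hd.preimage φ.toHomeomorph.isOpenMap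
  have hM := Mx_of_maximal hU' hd'
  obtain ⟨T, hT, hmin, -⟩ := exists_frameN (U := fun i => φ ⁻¹' U i) hM
    (fun i x hx => (mem_iff_of_maximal (hU' i) x).2 hx) (N := fun _ => 6)
    (fun x => Filter.Eventually.of_forall fun _ => le_rfl) (fun _ => by norm_num) (fun z _ => by
      refine ⟨univ, ?_, ?_⟩
      · exact (Set.ncard_le_card _).trans (by simp)
      · filter_upwards with w
        by_cases hw : w ∈ XX (fun i => φ ⁻¹' U i)
        · obtain ⟨i, hi⟩ := hM.Kst_nonempty w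
          exact ⟨i, mem_univ _, Or.inr ⟨hw, Kst_sub w hi⟩⟩
        · have h1 : ∃ i, w ∈ φ ⁻¹' U i := by simpa [XX] using hw
          obtain ⟨i, hi⟩ := h1
          exact ⟨i, mem_univ _, Or.inl hi⟩)
  exact ⟨φ, T, hT, hmin⟩

/-- `w` is in the closures of three of the sets -/
def Three (U : Fin 6 → Set (EuclideanSpace ℝ (Fin 2))) (w : EuclideanSpace ℝ (Fin 2)) : Prop :=
  ∃ R : Set (Fin 6), R.ncard = 3 ∧ ∀ i ∈ R, w ∈ closure (U i)

theorem three_of {U : Fin 6 → Set (EuclideanSpace ℝ (Fin 2))} {T : ℂ → Set (Fin 6)}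
    {φ : ℂ ≃ₗᵢ[ℝ] EuclideanSpace ℝ (Fin 2)} (h : Irr (fun i => φ ⁻¹' U i) T) {w : ℂ}
    (hw : ¬ (T w).ncard ≤ 2) : Three U (φ w) := by
  obtain ⟨R, hR, hR3⟩ := Set.exists_subset_card_eq (s := T w) (n := 3) (by omega)
  exact ⟨R, hR3, fun i hi => clo169 h (hR hi)⟩

/-- **points near which all six sets are needed** -/
theorem six_of (H : No6T) {U : Fin 6 → Set (EuclideanSpace ℝ (Fin 2))}
    (hU : ∀ i, Maximal (fun W : Set (EuclideanSpace ℝ (Fin 2)) =>
      IsOpen W ∧ ∀ x ∈ W, ∀ y ∈ W, dist x y ≠ 1) (U i))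
    (hd : Dense (⋃ i, U i)) {x : EuclideanSpace ℝ (Fin 2)}
    (hx : ∀ s : Set (Fin 6), s.ncard ≤ 5 → x ∈ closure ((⋃ j, U j) \ ⋃ i ∈ s, U i)) :
    (∃ᶠ w in 𝓝[≠] x, Three U w) ∨
      (∃ p, dist p x = 1 ∧ ∃ r > 0, ∀ y, dist y x = 1 → dist y p < r → Three U y) ∨
      ∃ i, ∀ p, dist p x = 1 → ∀ r > 0, ∃ y, dist y x = 1 ∧ dist y p < r ∧
        y ∉ closure ((⋃ j, U j) \ ⋃ j ∈ ({i} : Set (Fin 6))ᶜ, U j) := by
  by_contra hcon
  rw [not_or, not_or] at hcon
  obtain ⟨hA, hB, hC⟩ := hcon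
  obtain ⟨φ, T, h, hmin⟩ := frame169 hU hd
  obtain ⟨z, rfl⟩ := φ.surjective x
  have hsuf : ∀ (w : ℂ) (s : Set (Fin 6)), T w ⊆ s →
      φ w ∉ closure ((⋃ j, U j) \ ⋃ i ∈ s, U i) := by
    intro w s hs hcl
    refine Irr_suff h w ((cdf169 φ (T w) w).2 (closure_mono ?_ hcl))
    exact sdiff_subset_sdiff_right (biUnion_mono hs fun _ _ => Subset.rfl)
  have hz : ∀ i, i ∈ T z := by
    intro i
    by_contra hi
    have h1 : (T z).ncard ≤ 5 := by
      by_contra h2
      have h3 : (T z).ncard = 6 := by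
        have h4 : (T z).ncard ≤ 6 := (Set.ncard_le_card _).trans (by simp)
        omega
      have h5 : T z = univ := Set.eq_univ_of_forall fun j => by
        by_contra hj
        have h6 : T z ⊆ {j}ᶜ := fun k hk hkj => hj (by rw [mem_singleton_iff] at hkj; exact hkj ▸ hk)
        have h7 := Set.ncard_le_ncard h6 (Set.toFinite _)
        have h8 := Set.ncard_add_ncard_compl ({j} : Set (Fin 6))
        rw [Set.ncard_singleton, Nat.card_eq_fintype_card, Fintype.card_fin] at h8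
        omega
      rw [h5] at hi
      exact hi (mem_univ i)
    exact hsuf z (T z) Subset.rfl (hx (T z) h1)
  -- tame
  have ht : ∀ᶠ w in 𝓝[≠] z, (T w).ncard ≤ 2 := by
    by_contra hcon
    refine hA ?_
    have h1 : ∃ᶠ w in 𝓝[≠] z, ¬ (T w).ncard ≤ 2 := Filter.not_eventually.1 hcon
    have h2 : Tendsto φ (𝓝[≠] z) (𝓝[≠] (φ z)) := by
      refine tendsto_nhdsWithin_iff.2 ⟨φ.continuous.continuousAt.tendsto.mono_left inf_le_left, ?_⟩
      filter_upwards [self_mem_nhdsWithin] with w hw h3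
      exact hw (φ.injective h3)
    exact h2.frequently (h1.mono fun w hw => three_of h hw)
  -- thin
  have hth : Thin259 T z := by
    intro s
    by_contra hcon
    rw [Filter.not_frequently] at hcon
    have h3 := ev_circle z (p := fun w => ¬ (T w).ncard ≤ 2) hcon
    rw [Filter.eventually_iff, Metric.mem_nhdsWithin_iff] at h3
    obtain ⟨r, hr, hr'⟩ := h3
    refine hB ⟨φ (pt z s), by rw [φ.dist_map]; exact dist_pt z s, r, hr, fun y hy hyr => ?_⟩
    obtain ⟨w, rfl⟩ := φ.surjective y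
    rw [φ.dist_map] at hy hyr
    exact three_of h (hr' ⟨hyr, hy⟩)
  -- all colours
  refine H _ T z h hmin hz ht hth fun i => ?_
  by_contra hcon
  push Not at hcon
  refine hC ⟨i, fun p hp r hr => ?_⟩
  obtain ⟨q, rfl⟩ := φ.surjective p
  rw [φ.dist_map] at hp
  obtain ⟨s, rfl⟩ : ∃ s : ℝ, q = pt z s := by
    obtain ⟨θ, hθ⟩ := exists_cis (u := q - z) (by rw [← dist_eq_norm]; exact hp)
    refine ⟨θ / (Real.pi / 3), ?_⟩
    unfold pt
    rw [div_mul_cancel₀ _ (by positivity), ← hθ]; ring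
  have hcont : Continuous fun t : ℝ => pt z t := Vale.Agent.P032.S5.H767.continuous_pt z
  have h1 : ∀ᶠ t in 𝓝 s, dist (pt z t) (pt z s) < r :=
    (hcont.continuousAt (x := s)).eventually (ball_mem_nhds _ hr)
  obtain ⟨t, ht1, ht2⟩ := (Lc_dense h z).inter_nhds_nonempty h1
  refine ⟨φ (pt z t), by rw [φ.dist_map]; exact dist_pt z t, by rw [φ.dist_map]; exact ht2, ?_⟩
  refine hsuf _ _ fun j hj hji => hcon t ht1 ?_
  rw [mem_singleton_iff] at hji
  exact hji ▸ hj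

end Vale.Agent.P032.H169
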