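import Vale.Agent.P032.H154.Hand
import Vale.Agent.P032.H154.DegTop

/-!
# P032: the statements in the plane with palettes of three indices which are not padded

`Tri U X v` : the sets `U i`, `i ∈ X`, suffice near `v`, and for each `i ∈ X` there are points
arbitrarily close to `v` near which `U i` alone suffices.

`exists_deg2`, `exists_degC2`, `exists_split2`, `exists_comp2`, `exists_cover2` : the statements from the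
blocks `XDeg`, `XDegC`, `XSplit`, `XB`, `XCov`; `handDegree2`, `handDegC2`, `handSplit2`, `handComp2`,
`handCover2` : the same in the words of Mathlib.
-/

open Set Filter Topology Metric

noncomputable section

namespace Vale.Agent.P032.H169

open Vale.Agent.P032.Six Vale.Agent.P032.S5.H843 Vale.Agent.P032.S5.H926 Vale.Agent.P032.Words6
  Vale.Agent.P032.S5.H138 Vale.Agent.P032.H154

/-- the indices `X` suffice near `v`; each of them alone suffices near points arbitrarily close to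
`v` -/
def Tri {E : Type*} [PseudoMetricSpace E] (U : Fin 6 → Set E) (X : Set (Fin 6)) (v : E) : Prop :=
  v ∉ closure ((⋃ j, U j) \ ⋃ i ∈ X, U i) ∧
    ∀ i ∈ X, v ∈ closure {w | w ∉ closure ((⋃ j, U j) \ U i)}

theorem tri_of {U : Fin 6 → Set ℂ} {T : ℂ → Set (Fin 6)} (h : Irr U T) (v : ℂ) :
    Tri U (T v) v := by
  refine ⟨Irr_suff h v, fun i hi => mem_closure_iff_frequently.2 ((h.pure v i hi).mono ?_)⟩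
  intro w hw
  have h1 := Irr_suff h w
  rw [hw] at h1
  simpa using h1

theorem tri_map {U : Fin 6 → Set (EuclideanSpace ℝ (Fin 2))}
    (φ : ℂ ≃ₗᵢ[ℝ] EuclideanSpace ℝ (Fin 2)) {X : Set (Fin 6)} {v : ℂ}
    (h : Tri (fun i => φ ⁻¹' U i) X v) : Tri U X (φ v) := by
  refine ⟨fun h1 => h.1 ((hcdf6 φ X v).2 h1), fun i hi => ?_⟩
  have h2 : {w : ℂ | w ∉ closure ((⋃ j, φ ⁻¹' U j) \ φ ⁻¹' U i)} =
      φ ⁻¹' {w | w ∉ closure ((⋃ j, U j) \ U i)} := by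
    ext w
    have h3 := hcdf6 (U := U) φ {i} w
    simp only [biUnion_singleton] at h3
    simp only [mem_ofPred_eq, mem_preimage]
    exact not_congr h3
  have h4 := h.2 i hi
  simp only at h4
  rw [h2] at h4
  have h5 : closure (φ ⁻¹' {w | w ∉ closure ((⋃ j, U j) \ U i)}) =
      φ ⁻¹' closure {w | w ∉ closure ((⋃ j, U j) \ U i)} := (φ.toHomeomorph.preimage_closure _).symm
  rw [h5] at h4
  exact h4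

/-- no split points in the frame -/
theorem noSplit_of2 {U : Fin 6 → Set (EuclideanSpace ℝ (Fin 2))}
    {φ : ℂ ≃ₗᵢ[ℝ] EuclideanSpace ℝ (Fin 2)} {T : ℂ → Set (Fin 6)}
    (h : Irr (fun i => φ ⁻¹' U i) T) (hM : ∀ z, (T z).ncard = 4 → MSU U (T z) (φ z))
    (hcon : ¬ ∃ z v q, ∃ S X Y : Set (Fin 6), MSU U S z ∧ X.ncard = 3 ∧ Y.ncard = 3 ∧
      S ⊆ X ∪ Y ∧ v ≠ q ∧ dist v z = 1 ∧ dist q z = 1 ∧ Tri U X v ∧ Tri U Y q) : NoSplit T := by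
  intro z v q hv hq h4 hv3 hq3 hsub
  have hne : v ≠ q := by
    rintro rfl
    have h1 := Set.ncard_le_ncard hsub (Set.toFinite _)
    rw [union_self, h4, hv3] at h1
    omega
  exact hcon ⟨φ z, φ v, φ q, T z, T v, T q, hM z h4, hv3, hq3, hsub, φ.injective.ne hne,
    by rw [φ.dist_map]; exact hv, by rw [φ.dist_map]; exact hq, tri_map φ (tri_of h v),
    tri_map φ (tri_of h q)⟩

/-- no complementary palettes in the frame -/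
theorem noComp_of2 {U : Fin 6 → Set (EuclideanSpace ℝ (Fin 2))}
    {φ : ℂ ≃ₗᵢ[ℝ] EuclideanSpace ℝ (Fin 2)} {T : ℂ → Set (Fin 6)}
    (h : Irr (fun i => φ ⁻¹' U i) T) (hM : ∀ z, (T z).ncard = 4 → MSU U (T z) (φ z))
    (hcon : ¬ ∃ z v q, ∃ S X : Set (Fin 6), MSU U S z ∧ X.ncard = 3 ∧
      dist v z = 1 ∧ dist q z = 1 ∧ dist v q < 2 ∧ Tri U X v ∧ Tri U Xᶜ q) : NoComp T := by
  intro z h4 v q hv hq hv3 hq3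
  by_contra hne
  have hlt : dist v q < 2 := by
    have h5 : dist v q ≤ 2 := by
      have := dist_triangle_right v q z
      linarith
    exact lt_of_le_of_ne h5 fun h6 => hne (opp_of_dist hv hq h6)
  exact hcon ⟨φ z, φ v, φ q, T z, T v, hM z h4, hv3,
    by rw [φ.dist_map]; exact hv, by rw [φ.dist_map]; exact hq, by rw [φ.dist_map]; exact hlt,
    tri_map φ (tri_of h v), hq3 ▸ tri_map φ (tri_of h q)⟩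

/-! ### the statements -/

variable {U : Fin 6 → Set (EuclideanSpace ℝ (Fin 2))}

/-- **degree theorem** -/
theorem exists_deg2 (HX : XDeg)
    (hU : ∀ i, Maximal (fun W : Set (EuclideanSpace ℝ (Fin 2)) =>
      IsOpen W ∧ ∀ x ∈ W, ∀ y ∈ W, dist x y ≠ 1) (U i))
    (hd : Dense (⋃ i, U i)) :
    (∃ z z', dist z z' = 1 ∧ z ∈ XU U 4 ∧ z' ∈ XU U 3) ∨
      (∃ z y1 y2 y3, ∃ S S1 S2 S3 : Set (Fin 6), MSU U S z ∧ MSU U S1 y1 ∧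
        MSU U S2 y2 ∧ MSU U S3 y3 ∧ dist y1 z = 1 ∧ dist y2 z = 1 ∧ dist y3 z = 1 ∧
        y1 ≠ y2 ∧ y1 ≠ y3 ∧ y2 ≠ y3) ∨
      ∃ z v q, ∃ S X Y : Set (Fin 6), MSU U S z ∧ X.ncard = 3 ∧ Y.ncard = 3 ∧
        S ⊆ X ∪ Y ∧ v ≠ q ∧ dist v z = 1 ∧ dist q z = 1 ∧ Tri U X v ∧ Tri U Y q := by
  by_contra hcon
  rw [not_or, not_or] at hcon
  obtain ⟨hcon1, hcon2, hcon3⟩ := hcon
  obtain ⟨φ, T, h1, h2, h3, hM, hs⟩ := exists_frame6 hU hd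
    fun z z' h4 h5 h6 => hcon1 ⟨z, z', h4, h5, h6⟩
  have hN := noSplit_of2 h1 hM hcon3
  have hF := df_of_nc' h1 h2 h3 hN.noComp
  exact HX _ T hF hN (noThree_of hF.le4 hM hcon2)

/-- **degree theorem**, second form -/
theorem exists_degC2 (HX : XDegC)
    (hU : ∀ i, Maximal (fun W : Set (EuclideanSpace ℝ (Fin 2)) =>
      IsOpen W ∧ ∀ x ∈ W, ∀ y ∈ W, dist x y ≠ 1) (U i))
    (hd : Dense (⋃ i, U i)) :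
    (∃ z z', dist z z' = 1 ∧ z ∈ XU U 4 ∧ z' ∈ XU U 3) ∨
      (∃ z y1 y2 y3, ∃ S S1 S2 S3 : Set (Fin 6), MSU U S z ∧ MSU U S1 y1 ∧
        MSU U S2 y2 ∧ MSU U S3 y3 ∧ dist y1 z = 1 ∧ dist y2 z = 1 ∧ dist y3 z = 1 ∧
        y1 ≠ y2 ∧ y1 ≠ y3 ∧ y2 ≠ y3) ∨
      ∃ z v q, ∃ S X : Set (Fin 6), MSU U S z ∧ X.ncard = 3 ∧
        dist v z = 1 ∧ dist q z = 1 ∧ dist v q < 2 ∧ Tri U X v ∧ Tri U Xᶜ q := by
  by_contra hcon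
  rw [not_or, not_or] at hcon
  obtain ⟨hcon1, hcon2, hcon3⟩ := hcon
  obtain ⟨φ, T, h1, h2, h3, hM, hs⟩ := exists_frame6 hU hd
    fun z z' h4 h5 h6 => hcon1 ⟨z, z', h4, h5, h6⟩
  have hN := noComp_of2 h1 hM hcon3
  have hF := df_of_nc' h1 h2 h3 hN
  exact HX _ T hF hN (noThree_of hF.le4 hM hcon2)

/-- from the block `XSplit` -/
theorem exists_split2 (HX : XSplit)
    (hU : ∀ i, Maximal (fun W : Set (EuclideanSpace ℝ (Fin 2)) =>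
      IsOpen W ∧ ∀ x ∈ W, ∀ y ∈ W, dist x y ≠ 1) (U i))
    (hd : Dense (⋃ i, U i)) :
    (∃ z z', dist z z' = 1 ∧ z ∈ XU U 4 ∧ z' ∈ XU U 3) ∨
      (∃ z z', ∃ S S' : Set (Fin 6), dist z z' = 1 ∧ MSU U S z ∧ MSU U S' z' ∧ S ∪ S' = univ) ∨
      ∃ z v q, ∃ S X Y : Set (Fin 6), MSU U S z ∧ X.ncard = 3 ∧ Y.ncard = 3 ∧
        S ⊆ X ∪ Y ∧ v ≠ q ∧ dist v z = 1 ∧ dist q z = 1 ∧ Tri U X v ∧ Tri U Y q := by
  by_contra hcon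
  rw [not_or, not_or] at hcon
  obtain ⟨hcon1, hcon2, hcon3⟩ := hcon
  obtain ⟨φ, T, h1, h2, h3, hM, hs⟩ := exists_frame6 hU hd
    fun z z' h4 h5 h6 => hcon1 ⟨z, z', h4, h5, h6⟩
  have hN := noSplit_of2 h1 hM hcon3
  exact HX _ T (df_of_nc' h1 h2 h3 hN.noComp) hN (Six.noCov_of h3 hM hcon2)

/-- from the block `XCov` -/
theorem exists_cover2 (HX : XCov)
    (hU : ∀ i, Maximal (fun W : Set (EuclideanSpace ℝ (Fin 2)) =>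
      IsOpen W ∧ ∀ x ∈ W, ∀ y ∈ W, dist x y ≠ 1) (U i))
    (hd : Dense (⋃ i, U i)) :
    (∃ z z', dist z z' = 1 ∧ z ∈ XU U 4 ∧ z' ∈ XU U 3) ∨
      (∃ z z', ∃ S S' : Set (Fin 6), dist z z' = 1 ∧ MSU U S z ∧ MSU U S' z' ∧ S ∪ S' = univ) ∨
      ∃ z v q, ∃ S X : Set (Fin 6), MSU U S z ∧ X.ncard = 3 ∧
        dist v z = 1 ∧ dist q z = 1 ∧ dist v q < 2 ∧ Tri U X v ∧ Tri U Xᶜ q := by
  by_contra hcon
  rw [not_or, not_or] at hcon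
  obtain ⟨hcon1, hcon2, hcon3⟩ := hcon
  obtain ⟨φ, T, h1, h2, h3, hM, hs⟩ := exists_frame6 hU hd
    fun z z' h4 h5 h6 => hcon1 ⟨z, z', h4, h5, h6⟩
  have hN := noComp_of2 h1 hM hcon3
  exact HX _ T (df_of_nc' h1 h2 h3 hN) hN (Six.noCov_of h3 hM hcon2)

/-- from the block `XB` -/
theorem exists_comp2 (HX : XB)
    (hU : ∀ i, Maximal (fun W : Set (EuclideanSpace ℝ (Fin 2)) =>
      IsOpen W ∧ ∀ x ∈ W, ∀ y ∈ W, dist x y ≠ 1) (U i))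
    (hd : Dense (⋃ i, U i)) :
    (∃ z z', dist z z' = 1 ∧ z ∈ XU U 4 ∧ z' ∈ XU U 3) ∨
      ∃ z v q, ∃ S X : Set (Fin 6), MSU U S z ∧ X.ncard = 3 ∧
        dist v z = 1 ∧ dist q z = 1 ∧ dist v q < 2 ∧ Tri U X v ∧ Tri U Xᶜ q := by
  by_contra hcon
  rw [not_or] at hcon
  obtain ⟨hcon1, hcon3⟩ := hcon
  obtain ⟨φ, T, h1, h2, h3, hM, hs⟩ := exists_frame6 hU hd
    fun z z' h4 h5 h6 => hcon1 ⟨z, z', h4, h5, h6⟩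
  have hN := noComp_of2 h1 hM hcon3
  exact HX _ T (df_of_nc' h1 h2 h3 hN) hN

/-! ### in the words of Mathlib -/

/-- **the hand-in from the block `XDeg`** -/
theorem handDegree2 (HX : XDeg) :
    (∀ V : Fin 6 → Set (EuclideanSpace ℝ (Fin 2)), (∀ i, IsOpen (V i)) →
      (∀ i, ∀ x ∈ V i, ∀ y ∈ V i, dist x y ≠ 1) → Dense (⋃ i, V i) →
      ∃ U : Fin 6 → Set (EuclideanSpace ℝ (Fin 2)), (∀ i, V i ⊆ U i) ∧ Dense (⋃ i, U i) ∧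
        ∀ i, Maximal (fun W : Set (EuclideanSpace ℝ (Fin 2)) =>
          IsOpen W ∧ ∀ x ∈ W, ∀ y ∈ W, dist x y ≠ 1) (U i)) ∧
    (∀ U : Fin 6 → Set (EuclideanSpace ℝ (Fin 2)), Dense (⋃ i, U i) →
      (∀ i, Maximal (fun W : Set (EuclideanSpace ℝ (Fin 2)) =>
        IsOpen W ∧ ∀ x ∈ W, ∀ y ∈ W, dist x y ≠ 1) (U i)) →
      (∃ z z', dist z z' = 1 ∧
        (∀ s : Set (Fin 6), s.ncard ≤ 4 → z ∈ closure ((⋃ j, U j) \ ⋃ i ∈ s, U i)) ∧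
        ∀ s : Set (Fin 6), s.ncard ≤ 3 → z' ∈ closure ((⋃ j, U j) \ ⋃ i ∈ s, U i)) ∨
      (∃ z y1 y2 y3, ∃ S S1 S2 S3 : Set (Fin 6),
        (S.ncard = 4 ∧ z ∉ closure ((⋃ j, U j) \ ⋃ i ∈ S, U i) ∧
          ∀ s ⊂ S, z ∈ closure ((⋃ j, U j) \ ⋃ i ∈ s, U i)) ∧
        (S1.ncard = 4 ∧ y1 ∉ closure ((⋃ j, U j) \ ⋃ i ∈ S1, U i) ∧
          ∀ s ⊂ S1, y1 ∈ closure ((⋃ j, U j) \ ⋃ i ∈ s, U i)) ∧
        (S2.ncard = 4 ∧ y2 ∉ closure ((⋃ j, U j) \ ⋃ i ∈ S2, U i) ∧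
          ∀ s ⊂ S2, y2 ∈ closure ((⋃ j, U j) \ ⋃ i ∈ s, U i)) ∧
        (S3.ncard = 4 ∧ y3 ∉ closure ((⋃ j, U j) \ ⋃ i ∈ S3, U i) ∧
          ∀ s ⊂ S3, y3 ∈ closure ((⋃ j, U j) \ ⋃ i ∈ s, U i)) ∧
        dist y1 z = 1 ∧ dist y2 z = 1 ∧ dist y3 z = 1 ∧ y1 ≠ y2 ∧ y1 ≠ y3 ∧ y2 ≠ y3) ∨
      ∃ z v q, ∃ S X Y : Set (Fin 6),
        (S.ncard = 4 ∧ z ∉ closure ((⋃ j, U j) \ ⋃ i ∈ S, U i) ∧
          ∀ s ⊂ S, z ∈ closure ((⋃ j, U j) \ ⋃ i ∈ s, U i)) ∧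
        X.ncard = 3 ∧ Y.ncard = 3 ∧ S ⊆ X ∪ Y ∧ v ≠ q ∧ dist v z = 1 ∧
        dist q z = 1 ∧
        (v ∉ closure ((⋃ j, U j) \ ⋃ i ∈ X, U i) ∧
          ∀ i ∈ X, v ∈ closure {w | w ∉ closure ((⋃ j, U j) \ U i)}) ∧
        (q ∉ closure ((⋃ j, U j) \ ⋃ i ∈ Y, U i) ∧
          ∀ i ∈ Y, q ∈ closure {w | w ∉ closure ((⋃ j, U j) \ U i)})) :=
  ⟨ext_part, fun _ hd hU => exists_deg2 HX hU hd⟩

/-- **the hand-in from the block `XDegC`** -/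
theorem handDegC2 (HX : XDegC) :
    (∀ V : Fin 6 → Set (EuclideanSpace ℝ (Fin 2)), (∀ i, IsOpen (V i)) →
      (∀ i, ∀ x ∈ V i, ∀ y ∈ V i, dist x y ≠ 1) → Dense (⋃ i, V i) →
      ∃ U : Fin 6 → Set (EuclideanSpace ℝ (Fin 2)), (∀ i, V i ⊆ U i) ∧ Dense (⋃ i, U i) ∧
        ∀ i, Maximal (fun W : Set (EuclideanSpace ℝ (Fin 2)) =>
          IsOpen W ∧ ∀ x ∈ W, ∀ y ∈ W, dist x y ≠ 1) (U i)) ∧
    (∀ U : Fin 6 → Set (EuclideanSpace ℝ (Fin 2)), Dense (⋃ i, U i) →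
      (∀ i, Maximal (fun W : Set (EuclideanSpace ℝ (Fin 2)) =>
        IsOpen W ∧ ∀ x ∈ W, ∀ y ∈ W, dist x y ≠ 1) (U i)) →
      (∃ z z', dist z z' = 1 ∧
        (∀ s : Set (Fin 6), s.ncard ≤ 4 → z ∈ closure ((⋃ j, U j) \ ⋃ i ∈ s, U i)) ∧
        ∀ s : Set (Fin 6), s.ncard ≤ 3 → z' ∈ closure ((⋃ j, U j) \ ⋃ i ∈ s, U i)) ∨
      (∃ z y1 y2 y3, ∃ S S1 S2 S3 : Set (Fin 6),
        (S.ncard = 4 ∧ z ∉ closure ((⋃ j, U j) \ ⋃ i ∈ S, U i) ∧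
          ∀ s ⊂ S, z ∈ closure ((⋃ j, U j) \ ⋃ i ∈ s, U i)) ∧
        (S1.ncard = 4 ∧ y1 ∉ closure ((⋃ j, U j) \ ⋃ i ∈ S1, U i) ∧
          ∀ s ⊂ S1, y1 ∈ closure ((⋃ j, U j) \ ⋃ i ∈ s, U i)) ∧
        (S2.ncard = 4 ∧ y2 ∉ closure ((⋃ j, U j) \ ⋃ i ∈ S2, U i) ∧
          ∀ s ⊂ S2, y2 ∈ closure ((⋃ j, U j) \ ⋃ i ∈ s, U i)) ∧
        (S3.ncard = 4 ∧ y3 ∉ closure ((⋃ j, U j) \ ⋃ i ∈ S3, U i) ∧
          ∀ s ⊂ S3, y3 ∈ closure ((⋃ j, U j) \ ⋃ i ∈ s, U i)) ∧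
        dist y1 z = 1 ∧ dist y2 z = 1 ∧ dist y3 z = 1 ∧ y1 ≠ y2 ∧ y1 ≠ y3 ∧ y2 ≠ y3) ∨
      ∃ z v q, ∃ S X : Set (Fin 6),
        (S.ncard = 4 ∧ z ∉ closure ((⋃ j, U j) \ ⋃ i ∈ S, U i) ∧
          ∀ s ⊂ S, z ∈ closure ((⋃ j, U j) \ ⋃ i ∈ s, U i)) ∧
        X.ncard = 3 ∧ dist v z = 1 ∧ dist q z = 1 ∧ dist v q < 2 ∧
        (v ∉ closure ((⋃ j, U j) \ ⋃ i ∈ X, U i) ∧
          ∀ i ∈ X, v ∈ closure {w | w ∉ closure ((⋃ j, U j) \ U i)}) ∧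
        (q ∉ closure ((⋃ j, U j) \ ⋃ i ∈ Xᶜ, U i) ∧
          ∀ i ∈ Xᶜ, q ∈ closure {w | w ∉ closure ((⋃ j, U j) \ U i)})) :=
  ⟨ext_part, fun _ hd hU => exists_degC2 HX hU hd⟩

/-- the hand-in from the block `XSplit` -/
theorem handSplit2 (HX : XSplit) :
    (∀ V : Fin 6 → Set (EuclideanSpace ℝ (Fin 2)), (∀ i, IsOpen (V i)) →
      (∀ i, ∀ x ∈ V i, ∀ y ∈ V i, dist x y ≠ 1) → Dense (⋃ i, V i) →
      ∃ U : Fin 6 → Set (EuclideanSpace ℝ (Fin 2)), (∀ i, V i ⊆ U i) ∧ Dense (⋃ i, U i) ∧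
        ∀ i, Maximal (fun W : Set (EuclideanSpace ℝ (Fin 2)) =>
          IsOpen W ∧ ∀ x ∈ W, ∀ y ∈ W, dist x y ≠ 1) (U i)) ∧
    (∀ U : Fin 6 → Set (EuclideanSpace ℝ (Fin 2)), Dense (⋃ i, U i) →
      (∀ i, Maximal (fun W : Set (EuclideanSpace ℝ (Fin 2)) =>
        IsOpen W ∧ ∀ x ∈ W, ∀ y ∈ W, dist x y ≠ 1) (U i)) →
      (∃ z z', dist z z' = 1 ∧
        (∀ s : Set (Fin 6), s.ncard ≤ 4 → z ∈ closure ((⋃ j, U j) \ ⋃ i ∈ s, U i)) ∧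
        ∀ s : Set (Fin 6), s.ncard ≤ 3 → z' ∈ closure ((⋃ j, U j) \ ⋃ i ∈ s, U i)) ∨
      (∃ z z', ∃ S S' : Set (Fin 6), dist z z' = 1 ∧
        (S.ncard = 4 ∧ z ∉ closure ((⋃ j, U j) \ ⋃ i ∈ S, U i) ∧
          ∀ s ⊂ S, z ∈ closure ((⋃ j, U j) \ ⋃ i ∈ s, U i)) ∧
        (S'.ncard = 4 ∧ z' ∉ closure ((⋃ j, U j) \ ⋃ i ∈ S', U i) ∧
          ∀ s ⊂ S', z' ∈ closure ((⋃ j, U j) \ ⋃ i ∈ s, U i)) ∧ S ∪ S' = univ) ∨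
      ∃ z v q, ∃ S X Y : Set (Fin 6),
        (S.ncard = 4 ∧ z ∉ closure ((⋃ j, U j) \ ⋃ i ∈ S, U i) ∧
          ∀ s ⊂ S, z ∈ closure ((⋃ j, U j) \ ⋃ i ∈ s, U i)) ∧
        X.ncard = 3 ∧ Y.ncard = 3 ∧ S ⊆ X ∪ Y ∧ v ≠ q ∧ dist v z = 1 ∧
        dist q z = 1 ∧
        (v ∉ closure ((⋃ j, U j) \ ⋃ i ∈ X, U i) ∧
          ∀ i ∈ X, v ∈ closure {w | w ∉ closure ((⋃ j, U j) \ U i)}) ∧
        (q ∉ closure ((⋃ j, U j) \ ⋃ i ∈ Y, U i) ∧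
          ∀ i ∈ Y, q ∈ closure {w | w ∉ closure ((⋃ j, U j) \ U i)})) :=
  ⟨ext_part, fun _ hd hU => exists_split2 HX hU hd⟩

/-- the hand-in from the block `XB` -/
theorem handComp2 (HX : XB) :
    (∀ V : Fin 6 → Set (EuclideanSpace ℝ (Fin 2)), (∀ i, IsOpen (V i)) →
      (∀ i, ∀ x ∈ V i, ∀ y ∈ V i, dist x y ≠ 1) → Dense (⋃ i, V i) →
      ∃ U : Fin 6 → Set (EuclideanSpace ℝ (Fin 2)), (∀ i, V i ⊆ U i) ∧ Dense (⋃ i, U i) ∧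
        ∀ i, Maximal (fun W : Set (EuclideanSpace ℝ (Fin 2)) =>
          IsOpen W ∧ ∀ x ∈ W, ∀ y ∈ W, dist x y ≠ 1) (U i)) ∧
    (∀ U : Fin 6 → Set (EuclideanSpace ℝ (Fin 2)), Dense (⋃ i, U i) →
      (∀ i, Maximal (fun W : Set (EuclideanSpace ℝ (Fin 2)) =>
        IsOpen W ∧ ∀ x ∈ W, ∀ y ∈ W, dist x y ≠ 1) (U i)) →
      (∃ z z', dist z z' = 1 ∧
        (∀ s : Set (Fin 6), s.ncard ≤ 4 → z ∈ closure ((⋃ j, U j) \ ⋃ i ∈ s, U i)) ∧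
        ∀ s : Set (Fin 6), s.ncard ≤ 3 → z' ∈ closure ((⋃ j, U j) \ ⋃ i ∈ s, U i)) ∨
      ∃ z v q, ∃ S X : Set (Fin 6),
        (S.ncard = 4 ∧ z ∉ closure ((⋃ j, U j) \ ⋃ i ∈ S, U i) ∧
          ∀ s ⊂ S, z ∈ closure ((⋃ j, U j) \ ⋃ i ∈ s, U i)) ∧
        X.ncard = 3 ∧ dist v z = 1 ∧ dist q z = 1 ∧ dist v q < 2 ∧
        (v ∉ closure ((⋃ j, U j) \ ⋃ i ∈ X, U i) ∧
          ∀ i ∈ X, v ∈ closure {w | w ∉ closure ((⋃ j, U j) \ U i)}) ∧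
        (q ∉ closure ((⋃ j, U j) \ ⋃ i ∈ Xᶜ, U i) ∧
          ∀ i ∈ Xᶜ, q ∈ closure {w | w ∉ closure ((⋃ j, U j) \ U i)})) :=
  ⟨ext_part, fun _ hd hU => exists_comp2 HX hU hd⟩

/-- the hand-in from the block `XCov` -/
theorem handCover2 (HX : XCov) :
    (∀ V : Fin 6 → Set (EuclideanSpace ℝ (Fin 2)), (∀ i, IsOpen (V i)) →
      (∀ i, ∀ x ∈ V i, ∀ y ∈ V i, dist x y ≠ 1) → Dense (⋃ i, V i) →
      ∃ U : Fin 6 → Set (EuclideanSpace ℝ (Fin 2)), (∀ i, V i ⊆ U i) ∧ Dense (⋃ i, U i) ∧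
        ∀ i, Maximal (fun W : Set (EuclideanSpace ℝ (Fin 2)) =>
          IsOpen W ∧ ∀ x ∈ W, ∀ y ∈ W, dist x y ≠ 1) (U i)) ∧
    (∀ U : Fin 6 → Set (EuclideanSpace ℝ (Fin 2)), Dense (⋃ i, U i) →
      (∀ i, Maximal (fun W : Set (EuclideanSpace ℝ (Fin 2)) =>
        IsOpen W ∧ ∀ x ∈ W, ∀ y ∈ W, dist x y ≠ 1) (U i)) →
      (∃ z z', dist z z' = 1 ∧
        (∀ s : Set (Fin 6), s.ncard ≤ 4 → z ∈ closure ((⋃ j, U j) \ ⋃ i ∈ s, U i)) ∧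
        ∀ s : Set (Fin 6), s.ncard ≤ 3 → z' ∈ closure ((⋃ j, U j) \ ⋃ i ∈ s, U i)) ∨
      (∃ z z', ∃ S S' : Set (Fin 6), dist z z' = 1 ∧
        (S.ncard = 4 ∧ z ∉ closure ((⋃ j, U j) \ ⋃ i ∈ S, U i) ∧
          ∀ s ⊂ S, z ∈ closure ((⋃ j, U j) \ ⋃ i ∈ s, U i)) ∧
        (S'.ncard = 4 ∧ z' ∉ closure ((⋃ j, U j) \ ⋃ i ∈ S', U i) ∧
          ∀ s ⊂ S', z' ∈ closure ((⋃ j, U j) \ ⋃ i ∈ s, U i)) ∧ S ∪ S' = univ) ∨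
      ∃ z v q, ∃ S X : Set (Fin 6),
        (S.ncard = 4 ∧ z ∉ closure ((⋃ j, U j) \ ⋃ i ∈ S, U i) ∧
          ∀ s ⊂ S, z ∈ closure ((⋃ j, U j) \ ⋃ i ∈ s, U i)) ∧
        X.ncard = 3 ∧ dist v z = 1 ∧ dist q z = 1 ∧ dist v q < 2 ∧
        (v ∉ closure ((⋃ j, U j) \ ⋃ i ∈ X, U i) ∧
          ∀ i ∈ X, v ∈ closure {w | w ∉ closure ((⋃ j, U j) \ U i)}) ∧
        (q ∉ closure ((⋃ j, U j) \ ⋃ i ∈ Xᶜ, U i) ∧
          ∀ i ∈ Xᶜ, q ∈ closure {w | w ∉ closure ((⋃ j, U j) \ U i)})) :=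
  ⟨ext_part, fun _ hd hU => exists_cover2 HX hU hd⟩

end Vale.Agent.P032.H169
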