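import Vale.Agent.P032.H169.Tops

/-!
# P032: every point has at most two big neighbours: the final statements

World `NoThree T`: a point with at least four colours has at most two such points on its unit circle.
`Pair5T` : there is then no unit pair of orders at least five and four.
`NoCompT` : there are then no complementary palettes (in the world without such unit pairs).

`exists_three` : from `Pair5T`, `NoCompT`, `XDegC`: in every maximal family there is a point of some type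
with three points of some types on its unit circle (a type is a minimal sufficient set of at least
four indices).  `exists_threeC`, `exists_threeS`, `exists_three5` : the statements with one of the blocks
left out.
-/

open Set Filter Topology Metric

noncomputable section

namespace Vale.Agent.P032.H169

open Vale.Agent.P032.Six Vale.Agent.P032.S5.H843 Vale.Agent.P032.S5.H926 Vale.Agent.P032.Words6
  Vale.Agent.P032.S5.H138 Vale.Agent.P032.H154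

/-- block: no unit pairs of orders at least five and four, degree at most two -/
def Pair5T : Prop := ∀ (U : Fin 6 → Set ℂ) (T : ℂ → Set (Fin 6)), Irr U T → Mn U T →
  NoThree T → NoPair5 T

/-- block: no complementary palettes, degree at most two -/
def NoCompT : Prop := ∀ (U : Fin 6 → Set ℂ) (T : ℂ → Set (Fin 6)), Irr U T → Mn U T →
  NoPair5 T → NoThree T → NoComp T

/-- `S` is a minimal sufficient set of at least four indices at `x` -/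
def MS4 {E : Type*} [PseudoMetricSpace E] (U : Fin 6 → Set E) (S : Set (Fin 6)) (x : E) : Prop :=
  4 ≤ S.ncard ∧ x ∉ closure ((⋃ j, U j) \ ⋃ i ∈ S, U i) ∧
    ∀ s ⊂ S, x ∈ closure ((⋃ j, U j) \ ⋃ i ∈ s, U i)

theorem MS4_of {U : Fin 6 → Set ℂ} {T : ℂ → Set (Fin 6)} (h : Irr U T) (hmin : Mn U T)
    (hd : Dense (⋃ i, U i)) {z : ℂ} (hz : 4 ≤ (T z).ncard) : MS4 U (T z) z := by
  refine ⟨hz, Irr_suff h z, fun s hs => ?_⟩
  by_contra hcon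
  exact hmin z hz s hs.subset hs.ne (suf_of_notMem hd hcon)

theorem MS4_map {U : Fin 6 → Set (EuclideanSpace ℝ (Fin 2))}
    (φ : ℂ ≃ₗᵢ[ℝ] EuclideanSpace ℝ (Fin 2)) {S : Set (Fin 6)} {z : ℂ}
    (h : MS4 (fun i => φ ⁻¹' U i) S z) : MS4 U S (φ z) :=
  ⟨h.1, fun h4 => h.2.1 ((hcdf6 φ S z).2 h4), fun s hs => (hcdf6 φ s z).1 (h.2.2 s hs)⟩

/-- a frame of a maximal family -/
theorem exists_frameA {U : Fin 6 → Set (EuclideanSpace ℝ (Fin 2))}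
    (hU : ∀ i, Maximal (fun W : Set (EuclideanSpace ℝ (Fin 2)) =>
      IsOpen W ∧ ∀ x ∈ W, ∀ y ∈ W, dist x y ≠ 1) (U i))
    (hd : Dense (⋃ i, U i)) :
    ∃ (φ : ℂ ≃ₗᵢ[ℝ] EuclideanSpace ℝ (Fin 2)) (T : ℂ → Set (Fin 6)),
      Irr (fun i => φ ⁻¹' U i) T ∧ Mn (fun i => φ ⁻¹' U i) T ∧
      ∀ z, 4 ≤ (T z).ncard → MS4 U (T z) (φ z) := by
  let φ : ℂ ≃ₗᵢ[ℝ] EuclideanSpace ℝ (Fin 2) := Complex.orthonormalBasisOneI.repr
  have hd' : Dense (⋃ i, φ ⁻¹' U i) := by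
    rw [← preimage_iUnion]
    exact hd.preimage φ.toHomeomorph.isOpenMap
  have hU' := fun i => maximal_preimage (hU i) φ
  have hM := Mx_of_maximal hU' hd'
  obtain ⟨T, h1, h2, -⟩ := exists_frameN hM
    (fun i x hx => (mem_iff_of_maximal (hU' i) x).2 hx) (N := fun _ => 6)
    (fun _ => Eventually.of_forall fun _ => le_rfl) (fun _ => by norm_num)
    (fun z _ => ⟨univ, (Set.ncard_le_card _).trans (by simp), by
      filter_upwards with w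
      by_cases hw : w ∈ XX fun i => φ ⁻¹' U i
      · obtain ⟨i, hi⟩ := hM.Kst_nonempty w
        exact ⟨i, mem_univ _, Or.inr ⟨hw, Kst_sub w hi⟩⟩
      · have h1 : ∃ i, w ∈ φ ⁻¹' U i := by simpa [XX] using hw
        obtain ⟨i, hi⟩ := h1
        exact ⟨i, mem_univ _, Or.inl hi⟩⟩)
  exact ⟨φ, T, h1, h2, fun z hz => MS4_map φ (MS4_of h1 h2 hd' hz)⟩

/-- degree at most two in the frame -/
theorem noThree_of4 {U : Fin 6 → Set (EuclideanSpace ℝ (Fin 2))}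
    {φ : ℂ ≃ₗᵢ[ℝ] EuclideanSpace ℝ (Fin 2)} {T : ℂ → Set (Fin 6)}
    (hM : ∀ z, 4 ≤ (T z).ncard → MS4 U (T z) (φ z))
    (hcon : ¬ ∃ z y1 y2 y3, ∃ S S1 S2 S3 : Set (Fin 6), MS4 U S z ∧ MS4 U S1 y1 ∧
      MS4 U S2 y2 ∧ MS4 U S3 y3 ∧ dist y1 z = 1 ∧ dist y2 z = 1 ∧ dist y3 z = 1 ∧
      y1 ≠ y2 ∧ y1 ≠ y3 ∧ y2 ≠ y3) : NoThree T := by
  intro z y1 y2 y3 hz d1 d2 d3 h1 h2 h3
  by_contra hne
  push Not at hne
  obtain ⟨n1, n2, n3⟩ := hne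
  exact hcon ⟨φ z, φ y1, φ y2, φ y3, T z, T y1, T y2, T y3, hM z hz, hM y1 h1, hM y2 h2, hM y3 h3,
    by rw [φ.dist_map]; exact d1, by rw [φ.dist_map]; exact d2, by rw [φ.dist_map]; exact d3,
    φ.injective.ne n1, φ.injective.ne n2, φ.injective.ne n3⟩

variable {U : Fin 6 → Set (EuclideanSpace ℝ (Fin 2))}

/-- **the final statement of the degree theorem** -/
theorem exists_three (P : Pair5T) (N : NoCompT) (HX : XDegC)
    (hU : ∀ i, Maximal (fun W : Set (EuclideanSpace ℝ (Fin 2)) =>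
      IsOpen W ∧ ∀ x ∈ W, ∀ y ∈ W, dist x y ≠ 1) (U i))
    (hd : Dense (⋃ i, U i)) :
    ∃ z y1 y2 y3, ∃ S S1 S2 S3 : Set (Fin 6), MS4 U S z ∧ MS4 U S1 y1 ∧
      MS4 U S2 y2 ∧ MS4 U S3 y3 ∧ dist y1 z = 1 ∧ dist y2 z = 1 ∧ dist y3 z = 1 ∧
      y1 ≠ y2 ∧ y1 ≠ y3 ∧ y2 ≠ y3 := by
  by_contra hcon
  obtain ⟨φ, T, h1, h2, hM⟩ := exists_frameA hU hd
  have hT := noThree_of4 hM hcon
  have h3 := P _ T h1 h2 hT
  have hN := N _ T h1 h2 h3 hT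
  exact HX _ T (df_of_nc' h1 h2 h3 hN) hN hT

/-- without the block `NoCompT` -/
theorem exists_threeC (P : Pair5T) (HX : XDegC)
    (hU : ∀ i, Maximal (fun W : Set (EuclideanSpace ℝ (Fin 2)) =>
      IsOpen W ∧ ∀ x ∈ W, ∀ y ∈ W, dist x y ≠ 1) (U i))
    (hd : Dense (⋃ i, U i)) :
    (∃ z y1 y2 y3, ∃ S S1 S2 S3 : Set (Fin 6), MS4 U S z ∧ MS4 U S1 y1 ∧
      MS4 U S2 y2 ∧ MS4 U S3 y3 ∧ dist y1 z = 1 ∧ dist y2 z = 1 ∧ dist y3 z = 1 ∧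
      y1 ≠ y2 ∧ y1 ≠ y3 ∧ y2 ≠ y3) ∨
      ∃ z v q, ∃ S X : Set (Fin 6), MSU U S z ∧ X.ncard = 3 ∧
        dist v z = 1 ∧ dist q z = 1 ∧ dist v q < 2 ∧ Tri U X v ∧ Tri U Xᶜ q := by
  by_contra hcon
  rw [not_or] at hcon
  obtain ⟨hcon1, hcon2⟩ := hcon
  obtain ⟨φ, T, h1, h2, hM⟩ := exists_frameA hU hd
  have hT := noThree_of4 hM hcon1
  have h3 := P _ T h1 h2 hT
  have hN := noComp_of2 h1 (fun z hz => ⟨hz, (hM z hz.ge).2⟩) hcon2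
  exact HX _ T (df_of_nc' h1 h2 h3 hN) hN hT

/-- from the blocks `Pair5T` and `XDeg` -/
theorem exists_threeS (P : Pair5T) (HX : XDeg)
    (hU : ∀ i, Maximal (fun W : Set (EuclideanSpace ℝ (Fin 2)) =>
      IsOpen W ∧ ∀ x ∈ W, ∀ y ∈ W, dist x y ≠ 1) (U i))
    (hd : Dense (⋃ i, U i)) :
    (∃ z y1 y2 y3, ∃ S S1 S2 S3 : Set (Fin 6), MS4 U S z ∧ MS4 U S1 y1 ∧
      MS4 U S2 y2 ∧ MS4 U S3 y3 ∧ dist y1 z = 1 ∧ dist y2 z = 1 ∧ dist y3 z = 1 ∧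
      y1 ≠ y2 ∧ y1 ≠ y3 ∧ y2 ≠ y3) ∨
      ∃ z v q, ∃ S X Y : Set (Fin 6), MSU U S z ∧ X.ncard = 3 ∧ Y.ncard = 3 ∧
        S ⊆ X ∪ Y ∧ v ≠ q ∧ dist v z = 1 ∧ dist q z = 1 ∧ Tri U X v ∧ Tri U Y q := by
  by_contra hcon
  rw [not_or] at hcon
  obtain ⟨hcon1, hcon2⟩ := hcon
  obtain ⟨φ, T, h1, h2, hM⟩ := exists_frameA hU hd
  have hT := noThree_of4 hM hcon1
  have h3 := P _ T h1 h2 hT
  have hN := noSplit_of2 h1 (fun z hz => ⟨hz, (hM z hz.ge).2⟩) hcon2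
  exact HX _ T (df_of_nc' h1 h2 h3 hN.noComp) hN hT

/-- without the block `Pair5T` -/
theorem exists_three5 (N : NoCompT) (HX : XDegC)
    (hU : ∀ i, Maximal (fun W : Set (EuclideanSpace ℝ (Fin 2)) =>
      IsOpen W ∧ ∀ x ∈ W, ∀ y ∈ W, dist x y ≠ 1) (U i))
    (hd : Dense (⋃ i, U i)) :
    (∃ z z', dist z z' = 1 ∧ z ∈ XU U 4 ∧ z' ∈ XU U 3) ∨
      ∃ z y1 y2 y3, ∃ S S1 S2 S3 : Set (Fin 6), MSU U S z ∧ MSU U S1 y1 ∧
        MSU U S2 y2 ∧ MSU U S3 y3 ∧ dist y1 z = 1 ∧ dist y2 z = 1 ∧ dist y3 z = 1 ∧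
        y1 ≠ y2 ∧ y1 ≠ y3 ∧ y2 ≠ y3 := by
  by_contra hcon
  rw [not_or] at hcon
  obtain ⟨hcon1, hcon2⟩ := hcon
  obtain ⟨φ, T, h1, h2, h3, hM, hs⟩ := exists_frame6 hU hd
    fun z z' h4 h5 h6 => hcon1 ⟨z, z', h4, h5, h6⟩
  have hT : NoThree T := by
    intro z y1 y2 y3 hz d1 d2 d3 k1 k2 k3
    by_contra hne
    push Not at hne
    obtain ⟨n1, n2, n3⟩ := hne
    have e : ∀ w w', dist w w' = 1 → 4 ≤ (T w).ncard → 4 ≤ (T w').ncard → (T w).ncard = 4 := by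
      intro w w' hd hw hw'
      by_contra hcon
      exact h3 w w' hd (by omega) hw'
    exact hcon2 ⟨φ z, φ y1, φ y2, φ y3, T z, T y1, T y2, T y3,
      hM z (e z y1 (by rw [dist_comm]; exact d1) hz k1), hM y1 (e y1 z d1 k1 hz),
      hM y2 (e y2 z d2 k2 hz), hM y3 (e y3 z d3 k3 hz),
      by rw [φ.dist_map]; exact d1, by rw [φ.dist_map]; exact d2, by rw [φ.dist_map]; exact d3,
      φ.injective.ne n1, φ.injective.ne n2, φ.injective.ne n3⟩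
  have hN := N _ T h1 h2 h3 hT
  exact HX _ T (df_of_nc' h1 h2 h3 hN) hN hT

/-- **the final statement in the words of Mathlib** -/
theorem handThree (P : Pair5T) (N : NoCompT) (HX : XDegC) :
    (∀ V : Fin 6 → Set (EuclideanSpace ℝ (Fin 2)), (∀ i, IsOpen (V i)) →
      (∀ i, ∀ x ∈ V i, ∀ y ∈ V i, dist x y ≠ 1) → Dense (⋃ i, V i) →
      ∃ U : Fin 6 → Set (EuclideanSpace ℝ (Fin 2)), (∀ i, V i ⊆ U i) ∧ Dense (⋃ i, U i) ∧
        ∀ i, Maximal (fun W : Set (EuclideanSpace ℝ (Fin 2)) =>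
          IsOpen W ∧ ∀ x ∈ W, ∀ y ∈ W, dist x y ≠ 1) (U i)) ∧
    (∀ U : Fin 6 → Set (EuclideanSpace ℝ (Fin 2)), Dense (⋃ i, U i) →
      (∀ i, Maximal (fun W : Set (EuclideanSpace ℝ (Fin 2)) =>
        IsOpen W ∧ ∀ x ∈ W, ∀ y ∈ W, dist x y ≠ 1) (U i)) →
      ∃ z y1 y2 y3, ∃ S S1 S2 S3 : Set (Fin 6),
        (4 ≤ S.ncard ∧ z ∉ closure ((⋃ j, U j) \ ⋃ i ∈ S, U i) ∧
          ∀ s ⊂ S, z ∈ closure ((⋃ j, U j) \ ⋃ i ∈ s, U i)) ∧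
        (4 ≤ S1.ncard ∧ y1 ∉ closure ((⋃ j, U j) \ ⋃ i ∈ S1, U i) ∧
          ∀ s ⊂ S1, y1 ∈ closure ((⋃ j, U j) \ ⋃ i ∈ s, U i)) ∧
        (4 ≤ S2.ncard ∧ y2 ∉ closure ((⋃ j, U j) \ ⋃ i ∈ S2, U i) ∧
          ∀ s ⊂ S2, y2 ∈ closure ((⋃ j, U j) \ ⋃ i ∈ s, U i)) ∧
        (4 ≤ S3.ncard ∧ y3 ∉ closure ((⋃ j, U j) \ ⋃ i ∈ S3, U i) ∧
          ∀ s ⊂ S3, y3 ∈ closure ((⋃ j, U j) \ ⋃ i ∈ s, U i)) ∧
        dist y1 z = 1 ∧ dist y2 z = 1 ∧ dist y3 z = 1 ∧ y1 ≠ y2 ∧ y1 ≠ y3 ∧ y2 ≠ y3) :=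
  ⟨ext_part, fun _ hd hU => exists_three P N HX hU hd⟩

end Vale.Agent.P032.H169
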