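import Vale.Agent.P032.H484.HE
import Vale.Agent.P032.H383.Loc
import Vale.Agent.P032.S5.H80.Anti

/-!
# P032, XL4: the arcs of the plain-free pair lie in two copies of the zone, one arc in each copy

`V = (a b | m n)` a two-pair point, the pair `a, b` plain-free on `S(V)`.

* `zone_ev169` : `y1`, `y2` on `S(V)` with `a` inside and `b` outside, `y0` on `S(V)` strictly between
  them: near `V` the circle `S(y0)` has no point with the colours `a` or `b` besides `V`.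
* `zone169` : hence `V` is not a limit of exact points of `S(y0)` with one of the colours `a`, `b`.
* `copy169` : if `V` is a limit of such exact points at every point of `S(V)` with four colours among
  them `a`, `b`, then the exact points with `a` inside are one open arc of length at most 60 degrees.
* `split_closure169` : a two-pair point `y` of `S(V)` whose pairs split `a | b` is a limit of exact
  points of `S(V)`, and `V` is a limit of exact points of `S(y)`.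
-/

open Set Filter Topology Metric

noncomputable section

namespace Vale.Agent.P032.Six

open Vale.Agent.P032.S5.H767

variable {U : Fin 6 → Set ℂ} {T : ℂ → Set (Fin 6)} {V : ℂ} {a b m n : Fin 6}

/-! ### plane geometry -/

theorem norm_sqX169 (z : ℂ) : ‖z‖ ^ 2 = z.re ^ 2 + z.im ^ 2 := by
  rw [Complex.sq_norm, Complex.normSq_apply]; ring

theorem lag169 {w d1 d2 : ℂ} (h1 : ‖d1‖ = 1) (h2 : ‖d2‖ = 1) :
    (cr d1 d2) ^ 2 * ‖w‖ ^ 2 = ip w d1 ^ 2 + ip w d2 ^ 2 - 2 * ip w d1 * ip w d2 * ip d1 d2 := by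
  have e1 := ip_sq h1
  have e2 := ip_sq h2
  rw [norm_sqX169]
  unfold ip cr
  have k1 : d1.re ^ 2 = 1 - d1.im ^ 2 := by linarith
  have k2 : d2.re ^ 2 = 1 - d2.im ^ 2 := by linarith
  ring_nf
  have k3 : d1.re ^ 3 = d1.re * (1 - d1.im ^ 2) := by rw [← k1]; ring
  have k4 : d2.re ^ 3 = d2.re * (1 - d2.im ^ 2) := by rw [← k2]; ring
  simp only [k1, k2]
  ring

theorem ipabs169 {a b : ℂ} (ha : ‖a‖ = 1) (hb : ‖b‖ = 1) : |ip a b| ≤ 1 := by
  have h1 := H484.ip_abs ha hb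
  have h2 := H484.ip_abs (a := -a) (by rwa [norm_neg]) hb
  have h3 : ip (-a) b = -ip a b := by unfold ip; simp; ring
  rw [h3] at h2
  exact abs_le.2 ⟨by linarith, h1⟩

/-- the real part of the next lemma -/
theorem short_real169 {l r N x1 x2 C c : ℝ} (hl : 0 < l) (hr : 0 < r) (hN : 0 < N)
    (h0 : 2 * (l * x1 + r * x2) = N) (q1 : -(N / 2) ≤ x1) (q2 : -(N / 2) ≤ x2) (hc : |c| ≤ 1)
    (hlag : C * N = x1 ^ 2 + x2 ^ 2 - 2 * x1 * x2 * c) :
    C ≤ 4 * (1 / 2 + (1 + r) / (2 * l) + (1 + l) / (2 * r)) ^ 2 * N := by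
  set K : ℝ := 1 / 2 + (1 + r) / (2 * l) + (1 + l) / (2 * r) with hK
  have hA : 0 < (1 + r) / (2 * l) := by positivity
  have hB : 0 < (1 + l) / (2 * r) := by positivity
  have hK0 : 0 < K := by positivity
  have hKN : 0 < K * N := by positivity
  have hhalf : N / 2 ≤ K * N := by
    have h5 : (1 : ℝ) / 2 ≤ K := by rw [hK]; linarith
    have := mul_le_mul_of_nonneg_right h5 hN.le
    linarith
  have b1 : -(K * N) ≤ x1 := by linarith
  have b2 : -(K * N) ≤ x2 := by linarith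
  have b3 : x1 ≤ K * N := by
    have h4 : r * -(N / 2) ≤ r * x2 := mul_le_mul_of_nonneg_left q2 hr.le
    have h5 : l * x1 ≤ (1 + r) / 2 * N := by linarith
    have h6 : x1 ≤ (1 + r) / (2 * l) * N := by
      have h7 : (1 + r) / (2 * l) * N = ((1 + r) / 2 * N) / l := by field_simp
      rw [h7, le_div_iff₀ hl]
      linarith
    have h8 : (1 + r) / (2 * l) ≤ K := by rw [hK]; linarith
    exact h6.trans (mul_le_mul_of_nonneg_right h8 hN.le)
  have b4 : x2 ≤ K * N := by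
    have h4 : l * -(N / 2) ≤ l * x1 := mul_le_mul_of_nonneg_left q1 hl.le
    have h5 : r * x2 ≤ (1 + l) / 2 * N := by linarith
    have h6 : x2 ≤ (1 + l) / (2 * r) * N := by
      have h7 : (1 + l) / (2 * r) * N = ((1 + l) / 2 * N) / r := by field_simp
      rw [h7, le_div_iff₀ hr]
      linarith
    have h8 : (1 + l) / (2 * r) ≤ K := by rw [hK]; linarith
    exact h6.trans (mul_le_mul_of_nonneg_right h8 hN.le)
  have c3 : x1 ^ 2 ≤ (K * N) ^ 2 := sq_le_sq' b1 b3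
  have c4 : x2 ^ 2 ≤ (K * N) ^ 2 := sq_le_sq' b2 b4
  have c5 : |x1 * x2 * c| ≤ (K * N) ^ 2 := by
    rw [abs_mul, abs_mul]
    calc |x1| * |x2| * |c| ≤ (K * N) * (K * N) * 1 := by
          apply mul_le_mul _ hc (abs_nonneg _) (by positivity)
          exact mul_le_mul (abs_le.2 ⟨b1, b3⟩) (abs_le.2 ⟨b2, b4⟩) (abs_nonneg _) hKN.le
      _ = (K * N) ^ 2 := by ring
  have c6 : C * N ≤ (4 * K ^ 2 * N) * N := by
    have h1 := (abs_le.1 c5).1
    have h2 : (4 * K ^ 2 * N) * N = 4 * (K * N) ^ 2 := by ring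
    rw [h2, hlag]
    linarith
  exact le_of_mul_le_mul_right c6 hN

/-- a short vector to the circle about `d0` is not on the near sides of both neighbours -/
theorem short169 {d0 d1 d2 : ℂ} (h0 : ‖d0‖ = 1) (h1 : ‖d1‖ = 1) (h2 : ‖d2‖ = 1) {l r : ℝ}
    (hl : 0 < l) (hr : 0 < r) (hc : d0 = l * d1 + r * d2) (hcr : cr d1 d2 ≠ 0) :
    ∃ ε > 0, ∀ w : ℂ, w ≠ 0 → ‖w‖ < ε → ‖w - d0‖ = 1 →
      ¬ (1 ≤ ‖d1 + w‖ ∧ 1 ≤ ‖d2 + w‖) ∧ ¬ (‖d1 + w‖ ≤ 1 ∧ ‖d2 + w‖ ≤ 1) := by
  have hexp : ∀ {d w : ℂ}, ‖d‖ = 1 → ‖d + w‖ ^ 2 = 1 + 2 * ip w d + ‖w‖ ^ 2 := by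
    intro d w hd
    have := ip_sq hd
    rw [norm_sqX169, norm_sqX169 w]
    simp only [Complex.add_re, Complex.add_im]
    unfold ip
    nlinarith
  have hcomb : ∀ w : ℂ, ip w d0 = l * ip w d1 + r * ip w d2 := by
    intro w
    rw [hc]
    unfold ip
    simp only [Complex.add_re, Complex.add_im, Complex.mul_re, Complex.mul_im, Complex.ofReal_re,
      Complex.ofReal_im]
    ring
  set K : ℝ := 1 / 2 + (1 + r) / (2 * l) + (1 + l) / (2 * r) with hK
  have hK0 : 0 < K := by positivity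
  have hcr2 : 0 < (cr d1 d2) ^ 2 := by positivity
  refine ⟨|cr d1 d2| / (2 * K), by have := abs_pos.2 hcr; positivity, fun w hw hwε hw1 => ?_⟩
  have hN : 0 < ‖w‖ ^ 2 := by
    have := norm_pos_iff.2 hw
    positivity
  obtain ⟨N, hNe⟩ : ∃ N, N = ‖w‖ ^ 2 := ⟨_, rfl⟩
  rw [← hNe] at hN
  have hN0 : 2 * ip w d0 = N := by
    have k1 := hexp (d := d0) (w := -w) h0
    have k2 : ‖d0 + -w‖ = 1 := by
      rw [← hw1, ← norm_neg (w - d0)]; congr 1; ring
    have k3 : ip (-w) d0 = -ip w d0 := by unfold ip; simp; ring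
    rw [k2, k3, norm_neg, ← hNe] at k1
    linarith
  rw [hcomb] at hN0
  constructor
  · rintro ⟨g1, g2⟩
    have q1 : 1 ≤ ‖d1 + w‖ ^ 2 := one_le_pow₀ g1
    have q2 : 1 ≤ ‖d2 + w‖ ^ 2 := one_le_pow₀ g2
    rw [hexp h1, ← hNe] at q1
    rw [hexp h2, ← hNe] at q2
    have hlag := lag169 (w := w) h1 h2
    rw [← hNe] at hlag
    have c7 := short_real169 hl hr hN hN0 (by linarith) (by linarith) (ipabs169 h1 h2) hlag
    rw [← hK] at c7
    have c8 : N < (|cr d1 d2| / (2 * K)) ^ 2 := by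
      rw [hNe]
      exact pow_lt_pow_left₀ hwε (norm_nonneg w) (by norm_num)
    rw [div_pow, sq_abs, lt_div_iff₀ (by positivity)] at c8
    have c9 : N * (2 * K) ^ 2 = 4 * K ^ 2 * N := by ring
    rw [c9] at c8
    linarith
  · rintro ⟨g1, g2⟩
    have q1 : ‖d1 + w‖ ^ 2 ≤ 1 := pow_le_one₀ (norm_nonneg _) g1
    have q2 : ‖d2 + w‖ ^ 2 ≤ 1 := pow_le_one₀ (norm_nonneg _) g2
    rw [hexp h1, ← hNe] at q1
    rw [hexp h2, ← hNe] at q2
    have k1 : l * ip w d1 ≤ l * (-(N / 2)) := mul_le_mul_of_nonneg_left (by linarith) hl.le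
    have k2 : r * ip w d2 ≤ r * (-(N / 2)) := mul_le_mul_of_nonneg_left (by linarith) hr.le
    have k3 : 0 < l * N := mul_pos hl hN
    have k4 : 0 < r * N := mul_pos hr hN
    linarith

/-! ### the zone -/

/-- near an exact point with `a` inside: `U b` outside, `U a` inside -/
theorem sd_near169 (h : Irr U T) {y : ℂ} (hT : T y = {a, b}) (hs : Sd U V y a b) :
    ∀ᶠ x in 𝓝 y, (1 < dist x V → x ∈ U b) ∧ (dist x V < 1 → x ∈ U a) := by
  filter_upwards [h.nhd y, hs] with x h1 h2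
  rw [hT] at h1
  refine ⟨fun h3 => h.mem_of_single fun i hi => ?_, fun h3 => h.mem_of_single fun i hi => ?_⟩
  · rcases h1 hi with rfl | h4
    · exact absurd (h.sub x hi) (h2.1 h3)
    · exact h4
  · rcases h1 hi with h4 | h4
    · exact h4
    · rw [mem_singleton_iff] at h4
      subst h4
      exact absurd (h.sub x hi) (h2.2 h3)

/-- **between two exact points of one copy** -/
theorem zone_ev169 (h : Irr U T) {y0 y1 y2 : ℂ} (h0 : dist y0 V = 1) (h1 : dist y1 V = 1)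
    (h2 : dist y2 V = 1) (hT1 : T y1 = {a, b}) (hT2 : T y2 = {a, b}) (hs1 : Sd U V y1 a b)
    (hs2 : Sd U V y2 a b) {l r : ℝ} (hl : 0 < l) (hr : 0 < r)
    (hc : y0 - V = l * (y1 - V) + r * (y2 - V)) (hcr : cr (y1 - V) (y2 - V) ≠ 0) :
    ∀ᶠ q in 𝓝 V, dist q y0 = 1 → q ≠ V → a ∉ T q ∧ b ∉ T q := by
  have n : ∀ {y : ℂ}, dist y V = 1 → ‖y - V‖ = 1 := fun hy => by rw [← dist_eq_norm]; exact hy
  obtain ⟨ε, hε, key⟩ := short169 (n h0) (n h1) (n h2) hl hr hc hcr
  have tr : ∀ y : ℂ, Tendsto (fun x => y + (x - V)) (𝓝 V) (𝓝 y) := by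
    intro y
    have h3 : Continuous fun x : ℂ => y + (x - V) := by fun_prop
    have h4 := h3.tendsto V
    simpa using h4
  filter_upwards [(tr y1).eventually (sd_near169 h hT1 hs1),
    (tr y2).eventually (sd_near169 h hT2 hs2), ball_mem_nhds V hε] with q e1 e2 e3 hq hqV
  have hw : q - V ≠ 0 := sub_ne_zero.2 hqV
  have hwε : ‖q - V‖ < ε := by rw [← dist_eq_norm]; exact e3
  have hw1 : ‖q - V - (y0 - V)‖ = 1 := by
    rw [show q - V - (y0 - V) = q - y0 by ring, ← dist_eq_norm]; exact hq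
  obtain ⟨k1, k2⟩ := key (q - V) hw hwε hw1
  have hd : ∀ y : ℂ, dist y V = 1 → dist (y + (q - V)) q = 1 := by
    intro y hy
    rw [dist_eq_norm, show y + (q - V) - q = y - V by ring, ← dist_eq_norm]
    exact hy
  have hdV : ∀ y : ℂ, dist (y + (q - V)) V = ‖y - V + (q - V)‖ := by
    intro y
    rw [dist_eq_norm]; congr 1; ring
  rw [hdV] at e1 e2
  constructor
  · intro ha
    refine k1 ⟨?_, ?_⟩
    · by_contra hcon
      push Not at hcon
      exact h.mx.notMem' (e1.2 hcon) (hd y1 h1) (h.sub q ha)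
    · by_contra hcon
      push Not at hcon
      exact h.mx.notMem' (e2.2 hcon) (hd y2 h2) (h.sub q ha)
  · intro hb
    refine k2 ⟨?_, ?_⟩
    · by_contra hcon
      push Not at hcon
      exact h.mx.notMem' (e1.1 hcon) (hd y1 h1) (h.sub q hb)
    · by_contra hcon
      push Not at hcon
      exact h.mx.notMem' (e2.1 hcon) (hd y2 h2) (h.sub q hb)

/-- **zone lemma** -/
theorem zone169 (h : Irr U T) {y0 y1 y2 : ℂ} (h0 : dist y0 V = 1) (h1 : dist y1 V = 1)
    (h2 : dist y2 V = 1) (hT1 : T y1 = {a, b}) (hT2 : T y2 = {a, b}) (hs1 : Sd U V y1 a b)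
    (hs2 : Sd U V y2 a b) {l r : ℝ} (hl : 0 < l) (hr : 0 < r)
    (hc : y0 - V = l * (y1 - V) + r * (y2 - V)) (hcr : cr (y1 - V) (y2 - V) ≠ 0)
    {P : Set (Fin 6)} (hP : a ∈ P ∨ b ∈ P) (hPV : P ≠ T V) : V ∉ closure (Ex T y0 P) := by
  intro hcl
  obtain ⟨q, hq, hq2⟩ := ((mem_closure_iff_frequently.1 hcl).and_eventually
    (zone_ev169 h h0 h1 h2 hT1 hT2 hs1 hs2 hl hr hc hcr)).exists
  have hqT := ex_self hq
  have hqV : q ≠ V := by
    rintro rfl
    exact hPV hqT.symm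
  obtain ⟨k1, k2⟩ := hq2 hq.1 hqV
  rw [hqT] at k1 k2
  rcases hP with hP | hP
  · exact k1 hP
  · exact k2 hP

/-- the points with `a` inside are in an open half plane -/
theorem half169 (h : Irr U T) (hV : DPt T V a b m n) {y1 y2 : ℂ} (h1 : dist y1 V = 1)
    (h2 : dist y2 V = 1) (ha1 : a ∈ T y1) (ha2 : a ∈ T y2) (hs1 : Sd U V y1 a b)
    (hs2 : Sd U V y2 a b) :
    ∃ u, 0 < ip u (y1 - V) ∧ 0 < ip u (y2 - V) ∧ Ray (U a) V u ∧ Ray (U b) V (-u) := by
  obtain ⟨g0, hg0⟩ := hV.arc2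
  obtain ⟨g, hg, ⟨hg1, hg2⟩, hg3, hg4⟩ := H484.arc_generic (y := y1) (y' := y2) hg0
  have hc1 := cr_ne_of hg.1 h1 hg1 hg2
  have hc2 := cr_ne_of hg.1 h2 hg3 hg4
  rw [← ip_I] at hc1 hc2
  have key : ∀ u, Ray (U a) V u → Ray (U b) V (-u) → ip u (y1 - V) ≠ 0 → ip u (y2 - V) ≠ 0 →
      0 < ip u (y1 - V) ∧ 0 < ip u (y2 - V) := by
    intro u r1 r2 i1 i2
    constructor
    · rcases lt_or_gt_of_ne i1 with h3 | h3
      · exact (h.sd_unique ha1 hs1 (h.mx.sd_of_rays' r1 r2 h1 h3)).elim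
      · exact h3
    · rcases lt_or_gt_of_ne i2 with h3 | h3
      · exact (h.sd_unique ha2 hs2 (h.mx.sd_of_rays' r1 r2 h2 h3)).elim
      · exact h3
  rcases h.d0 hV hg with ⟨r1, r2⟩ | ⟨r1, r2⟩
  · obtain ⟨k1, k2⟩ := key _ r1 r2 hc1 hc2
    exact ⟨_, k1, k2, r1, r2⟩
  · obtain ⟨k1, k2⟩ := key _ r2 (by rwa [neg_neg]) (by rw [ip_neg]; exact neg_ne_zero.2 hc1)
      (by rw [ip_neg]; exact neg_ne_zero.2 hc2)
    exact ⟨_, k1, k2, r2, by rwa [neg_neg]⟩

/-- directions of the points between -/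
theorem between169 {u1 u2 t : ℝ} (h1 : u1 < t) (h2 : t < u2) (h3 : u2 < u1 + 3) :
    ∃ l r : ℝ, 0 < l ∧ 0 < r ∧ pt V t - V = l * (pt V u1 - V) + r * (pt V u2 - V) ∧
      cr (pt V u1 - V) (pt V u2 - V) ≠ 0 := by
  have hpi := Real.pi_pos
  have hs : 0 < Real.sin ((u2 - u1) * (Real.pi / 3)) :=
    Real.sin_pos_of_pos_of_lt_pi (mul_pos (by linarith) (by positivity)) (by nlinarith)
  have hl : 0 < Real.sin ((u2 - t) * (Real.pi / 3)) :=
    Real.sin_pos_of_pos_of_lt_pi (mul_pos (by linarith) (by positivity)) (by nlinarith)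
  have hr : 0 < Real.sin ((t - u1) * (Real.pi / 3)) :=
    Real.sin_pos_of_pos_of_lt_pi (mul_pos (by linarith) (by positivity)) (by nlinarith)
  have e : ∀ u : ℝ, pt V u - V = cis (u * (Real.pi / 3)) := fun u => by unfold pt; ring
  have hcr : cr (pt V u1 - V) (pt V u2 - V) = Real.sin ((u2 - u1) * (Real.pi / 3)) := by
    rw [e, e]
    unfold cr
    rw [cis_re, cis_im, cis_re, cis_im,
      show (u2 - u1) * (Real.pi / 3) = u2 * (Real.pi / 3) - u1 * (Real.pi / 3) by ring,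
      Real.sin_sub]
    ring
  refine ⟨Real.sin ((u2 - t) * (Real.pi / 3)) / Real.sin ((u2 - u1) * (Real.pi / 3)),
    Real.sin ((t - u1) * (Real.pi / 3)) / Real.sin ((u2 - u1) * (Real.pi / 3)),
    div_pos hl hs, div_pos hr hs, ?_, by rw [hcr]; exact hs.ne'⟩
  rw [e, e, e]
  obtain ⟨A, hA⟩ : ∃ A, A = u1 * (Real.pi / 3) := ⟨_, rfl⟩
  obtain ⟨B, hB⟩ : ∃ B, B = u2 * (Real.pi / 3) := ⟨_, rfl⟩
  obtain ⟨C, hC⟩ : ∃ C, C = t * (Real.pi / 3) := ⟨_, rfl⟩
  rw [show (u2 - t) * (Real.pi / 3) = B - C by rw [hB, hC]; ring,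
    show (t - u1) * (Real.pi / 3) = C - A by rw [hA, hC]; ring,
    show (u2 - u1) * (Real.pi / 3) = B - A by rw [hA, hB]; ring, ← hA, ← hB, ← hC]
  have hs' : Real.sin (B - A) ≠ 0 := by
    have : B - A = (u2 - u1) * (Real.pi / 3) := by rw [hA, hB]; ring
    rw [this]; exact hs.ne'
  have s1 := Real.sin_sq_add_cos_sq A
  have s2 := Real.sin_sq_add_cos_sq B
  have s3 := Real.sin_sq_add_cos_sq C
  apply Complex.ext
  · simp only [Complex.add_re, Complex.mul_re, Complex.ofReal_re, Complex.ofReal_im, cis_re]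
    field_simp
    rw [Real.sin_sub, Real.sin_sub, Real.sin_sub]
    ring
  · simp only [Complex.add_im, Complex.mul_im, Complex.ofReal_re, Complex.ofReal_im, cis_im]
    field_simp
    rw [Real.sin_sub, Real.sin_sub, Real.sin_sub]
    ring

theorem Sd_mid169 (h : Irr U T) (hV : DPt T V a b m n) {u1 u2 t : ℝ} (h1 : u1 ≤ t) (h2 : t ≤ u2)
    (h3 : u2 < u1 + 3) (ha1 : a ∈ T (pt V u1)) (ha2 : a ∈ T (pt V u2))
    (hs1 : Sd U V (pt V u1) a b) (hs2 : Sd U V (pt V u2) a b) : Sd U V (pt V t) a b := by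
  rcases eq_or_lt_of_le h1 with h1 | h1
  · rwa [← h1]
  rcases eq_or_lt_of_le h2 with h2 | h2
  · rwa [h2]
  obtain ⟨u, k1, k2, r1, r2⟩ := half169 h hV (dist_pt V u1) (dist_pt V u2) ha1 ha2 hs1 hs2
  obtain ⟨l, r, hl, hr, hc, -⟩ := between169 (V := V) h1 h2 h3
  refine h.mx.sd_of_rays r1 r2 (dist_pt V t) ?_
  rw [hc]
  have e : ip u (l * (pt V u1 - V) + r * (pt V u2 - V)) =
      l * ip u (pt V u1 - V) + r * ip u (pt V u2 - V) := by
    unfold ip
    simp only [Complex.add_re, Complex.add_im, Complex.mul_re, Complex.mul_im, Complex.ofReal_re,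
      Complex.ofReal_im]
    ring
  rw [e]
  positivity

/-- **no gap in a copy** -/
theorem icc169 (h : Irr U T) (hV : DPt T V a b m n) (hp : H383.Pf T V a b)
    (hend : ∀ y, dist y V = 1 → 4 ≤ (T y).ncard → a ∈ T y → b ∈ T y →
      ∃ P : Set (Fin 6), (a ∈ P ∨ b ∈ P) ∧ P ≠ T V ∧ V ∈ closure (Ex T y P)) {u1 u2 : ℝ}
    (h3 : u2 < u1 + 3) (hT1 : T (pt V u1) = {a, b}) (hT2 : T (pt V u2) = {a, b})
    (hs1 : Sd U V (pt V u1) a b) (hs2 : Sd U V (pt V u2) a b) :
    ∀ t ∈ Icc u1 u2, T (pt V t) = {a, b} := by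
  by_contra hcon
  push Not at hcon
  obtain ⟨w, hw, hwT⟩ := hcon
  obtain ⟨W, hW⟩ : ∃ W : Set ℝ, W = {w | T (pt V w) = {a, b}} := ⟨_, rfl⟩
  have hWo : IsOpen W := by
    rw [hW, isOpen_iff_mem_nhds]
    intro w hw
    have hw : T (pt V w) = {a, b} := hw
    have h1 := H383.XA_open h hV (x := pt V w) ⟨dist_pt V w, hw⟩
    filter_upwards [(continuous_pt V).continuousAt.eventually h1] with v hv
    exact (hv (dist_pt V v)).2
  obtain ⟨t, ht⟩ : ∃ t, IsLeast {w | u1 ≤ w ∧ w ∉ W} t := by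
    have hc : IsClosed {w | u1 ≤ w ∧ w ∉ W} :=
      (isClosed_Ici (a := u1)).inter hWo.isClosed_compl
    exact ⟨_, hc.isLeast_csInf ⟨w, hw.1, by rw [hW]; exact hwT⟩ ⟨u1, fun w hw => hw.1⟩⟩
  have htw : t ≤ w := ht.2 ⟨hw.1, by rw [hW]; exact hwT⟩
  have htW : T (pt V t) ≠ {a, b} := by have := ht.1.2; rwa [hW] at this
  have h1t : u1 < t := lt_of_le_of_ne ht.1.1 fun h0 => htW (h0 ▸ hT1)
  have ht2 : t < u2 := lt_of_le_of_ne (htw.trans hw.2) fun h0 => htW (h0 ▸ hT2)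
  have hcl : pt V t ∈ closure (H383.XA T V a b) := by
    have h2 : pt V t ∈ closure (pt V '' Ioo u1 t) :=
      image_closure_subset_closure_image (continuous_pt V) (mem_image_of_mem _ (by
        rw [closure_Ioo h1t.ne]; exact right_mem_Icc.2 h1t.le))
    refine closure_mono ?_ h2
    rintro _ ⟨v, hv, rfl⟩
    refine ⟨dist_pt V v, ?_⟩
    by_contra hvT
    exact absurd (ht.2 ⟨hv.1.le, by rw [hW]; exact hvT⟩) (not_le.2 hv.2)
  obtain ⟨hE, hX | h4⟩ := H383.closure_cases h hV hp hcl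
  · exact htW hX.2
  · obtain ⟨P, hP, hPV, hcP⟩ := hend _ (dist_pt V t) h4 hE.2.1 hE.2.2
    obtain ⟨l, r, hl, hr, hc, hcr⟩ := between169 (V := V) h1t ht2 h3
    exact zone169 h (dist_pt V t) (dist_pt V u1) (dist_pt V u2) hT1 hT2 hs1 hs2 hl hr hc hcr hP
      hPV hcP

theorem pt_int169 (V : ℂ) (u : ℝ) (k : ℤ) : pt V (u + k • 6) = pt V u := by
  unfold pt
  congr 1
  rw [cis, cis, Complex.exp_eq_exp_iff_exists_int]
  refine ⟨k, ?_⟩
  push_cast
  rw [zsmul_eq_mul]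
  ring

/-- a point of the circle with the direction near a given direction -/
theorem exists_pt169 {y : ℂ} (hy : dist y V = 1) (u0 : ℝ) :
    ∃ u, u0 - 3 < u ∧ u ≤ u0 + 3 ∧ y = pt V u := by
  obtain ⟨θ, hθ⟩ := exists_cis (u := y - V) (by rw [← dist_eq_norm]; exact hy)
  have hpi := Real.pi_pos
  have h1 : y = pt V (θ / (Real.pi / 3)) := by
    unfold pt
    rw [show θ / (Real.pi / 3) * (Real.pi / 3) = θ by field_simp, ← hθ]
    ring
  obtain ⟨k, hk, -⟩ := existsUnique_add_zsmul_mem_Ioc (show (0 : ℝ) < 6 by norm_num)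
    (θ / (Real.pi / 3)) (u0 - 3)
  exact ⟨_, hk.1, by have := hk.2; linarith, by rw [pt_int169]; exact h1⟩

/-- **XL4: one arc in each copy** -/
theorem copy169 (h : Irr U T) (hV : DPt T V a b m n) (hp : H383.Pf T V a b)
    (hend : ∀ y, dist y V = 1 → 4 ≤ (T y).ncard → a ∈ T y → b ∈ T y →
      ∃ P : Set (Fin 6), (a ∈ P ∨ b ∈ P) ∧ P ≠ T V ∧ V ∈ closure (Ex T y P)) {u0 : ℝ}
    (hT : T (pt V u0) = {a, b}) (hs : Sd U V (pt V u0) a b) :
    ∃ s t : ℝ, s < u0 ∧ u0 < t ∧ t ≤ s + 1 ∧ (∀ w ∈ Ioo s t, T (pt V w) = {a, b}) ∧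
      (4 ≤ (T (pt V s)).ncard ∧ a ∈ T (pt V s) ∧ b ∈ T (pt V s)) ∧
      (4 ≤ (T (pt V t)).ncard ∧ a ∈ T (pt V t) ∧ b ∈ T (pt V t)) ∧
      ∀ y, dist y V = 1 → T y = {a, b} → (Sd U V y a b ↔ y ∈ pt V '' Ioo s t) := by
  obtain ⟨s, t, h1, h2, h3, h4, h5, h6⟩ := H383.exists_arc h hV hp hT
  refine ⟨s, t, h1, h2, h3, h4, h5, h6, fun y hy hyT => ⟨fun hys => ?_, ?_⟩⟩
  · obtain ⟨u, hu1, hu2, rfl⟩ := exists_pt169 hy u0
    have hn : ∀ w, 4 ≤ (T (pt V w)).ncard → T (pt V w) ≠ {a, b} := by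
      intro w hw hcon
      rw [hcon, Set.ncard_pair hV.ab] at hw
      omega
    have hne : u ≠ u0 + 3 := by
      rintro rfl
      obtain ⟨v, k1, k2, -, -⟩ := half169 h hV (dist_pt V u0) (dist_pt V (u0 + 3))
        (by rw [hT]; simp) (by rw [hyT]; simp) hs hys
      rw [pt_three, show 2 * V - pt V u0 - V = -(pt V u0 - V) by ring] at k2
      have e : ip v (-(pt V u0 - V)) = -ip v (pt V u0 - V) := by unfold ip; simp; ring
      rw [e] at k2
      linarith
    refine ⟨u, ⟨?_, ?_⟩, rfl⟩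
    · by_contra hcon
      push Not at hcon
      have := icc169 h hV hp hend (u1 := u) (u2 := u0) (by linarith) hyT hT hys hs s
        ⟨hcon, h1.le⟩
      exact hn s h5.1 this
    · by_contra hcon
      push Not at hcon
      have := icc169 h hV hp hend (u1 := u0) (u2 := u) (lt_of_le_of_ne hu2 hne) hT hyT hs hys t
        ⟨h2.le, hcon⟩
      exact hn t h6.1 this
  · rintro ⟨u, hu, rfl⟩
    -- the sides are constant on the arc
    obtain ⟨g, hg, hgn⟩ : ∃ g, Arc T V g {m, n} ∧ ∀ w ∈ Ioo s t, cr (g - V) (pt V w - V) ≠ 0 := by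
      obtain ⟨g, hg⟩ := hV.arc2
      refine ⟨g, hg, fun w hw hcon => ?_⟩
      have hgT : T g = {m, n} := hg.mem
      rcases cr_zero (by rw [← dist_eq_norm]; exact hg.1) (by rw [← dist_eq_norm]; exact dist_pt V w)
        hcon with h7 | h7
      · have h8 : g = pt V w := by linear_combination h7
        have h9 := h4 w hw
        rw [← h8, hgT] at h9
        have : a ∈ ({m, n} : Set (Fin 6)) := by rw [h9]; simp
        rcases this with h10 | h10
        · exact hV.ac h10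
        · exact hV.ad h10
      · -- antipodal
        have h8 : g = 2 * V - pt V w := by linear_combination h7
        refine h.anti hV (V := pt V w) (dist_pt V w) (h.sub _ (by rw [h4 w hw]; simp))
          (h.sub _ (by rw [h4 w hw]; simp)) ?_ ?_
        · rw [← h8]; exact h.sub g (by rw [hgT]; simp)
        · rw [← h8]; exact h.sub g (by rw [hgT]; simp)
    -- the sign is constant
    have hcont : ContinuousOn (fun w : ℝ => cr (g - V) (pt V w - V)) (Ioo s t) := by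
      have h7 : Continuous fun w : ℝ => cr (g - V) (pt V w - V) := by
        have c1 : Continuous fun w : ℝ => (pt V w - V).re :=
          Complex.continuous_re.comp ((continuous_pt V).sub continuous_const)
        have c2 : Continuous fun w : ℝ => (pt V w - V).im :=
          Complex.continuous_im.comp ((continuous_pt V).sub continuous_const)
        unfold cr
        exact (continuous_const.mul c2).sub (continuous_const.mul c1)
      exact h7.continuousOn
    have hsign : ∀ w ∈ Ioo s t, 0 < cr (g - V) (pt V u0 - V) * cr (g - V) (pt V w - V) := by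
      intro w hw
      by_contra hcon
      push Not at hcon
      have hw0 : u0 ∈ Ioo s t := ⟨h1, h2⟩
      have k1 := hgn u0 hw0
      have k2 := hgn w hw
      have hlt : cr (g - V) (pt V u0 - V) * cr (g - V) (pt V w - V) < 0 :=
        lt_of_le_of_ne hcon (mul_ne_zero k1 k2)
      have hpre : IsPreconnected (Ioo s t) := isPreconnected_Ioo
      rcases mul_neg_iff.1 hlt with ⟨p1, p2⟩ | ⟨p1, p2⟩
      · obtain ⟨c, hc, hc0⟩ := hpre.intermediate_value hw hw0 hcont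
          (show (0 : ℝ) ∈ Icc _ _ from ⟨p2.le, p1.le⟩)
        exact hgn c hc hc0
      · obtain ⟨c, hc, hc0⟩ := hpre.intermediate_value hw0 hw hcont
          (show (0 : ℝ) ∈ Icc _ _ from ⟨p1.le, p2.le⟩)
        exact hgn c hc hc0
    have hsu := hsign u hu
    have ha0 : a ∈ T (pt V u0) := by rw [hT]; simp
    rw [← ip_I, ← ip_I] at hsu
    have key : ∀ v, Ray (U a) V v → Ray (U b) V (-v) → ip v (pt V u0 - V) ≠ 0 →
        0 < ip v (pt V u0 - V) * ip v (pt V u - V) → Sd U V (pt V u) a b := by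
      intro v r1 r2 i1 i2
      rcases lt_or_gt_of_ne i1 with h7 | h7
      · exact (h.sd_unique ha0 hs (h.mx.sd_of_rays' r1 r2 (dist_pt V u0) h7)).elim
      · exact h.mx.sd_of_rays r1 r2 (dist_pt V u) ((mul_pos_iff_of_pos_left h7).1 i2)
    have i0 := hgn u0 ⟨h1, h2⟩
    rw [← ip_I] at i0
    rcases h.d0 hV hg with ⟨r1, r2⟩ | ⟨r1, r2⟩
    · exact key _ r1 r2 i0 hsu
    · refine key _ r2 (by rwa [neg_neg]) (by rw [ip_neg]; exact neg_ne_zero.2 i0) ?_
      rw [ip_neg, ip_neg, neg_mul_neg]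
      exact hsu

/-- **split pairs**: both circles have exact arcs ending at the other point -/
theorem split_closure169 (h : Irr U T) {y : ℂ} {g : Fin 6} (hV : DPt T V a b m n)
    (hy : DPt T y a m b g) (hd : dist y V = 1) :
    y ∈ closure (Ex T V {a, b}) ∧ V ∈ closure (Ex T y {a, m}) :=
  ⟨H484.he_end h hy hV hd, H484.he_end h hV hy (by rw [dist_comm]; exact hd)⟩

end Vale.Agent.P032.Six
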